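import Vale.Agent.P233.H992.TwoSided

/-! ### The growth condition from contractions

A family of maps that contract balls towards their centres, with a bound for the densities of the
image measures, gives the growth condition of Bishop-Gromov type. -/

open MeasureTheory Measure Filter Topology Metric Set
open scoped ENNReal NNReal

namespace Vale.Agent.P233.H992

variable {M : Type*} [MetricSpace M] [MeasurableSpace M] {m : Measure M}

/-- One contraction: `m (ball p ρ) ≤ D m (ball p (θ ρ))`. -/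
theorem ball_le_of_map [OpensMeasurableSpace M] {p : M} {R θ : ℝ} (hθ : 0 < θ) {D : ℝ≥0∞}
    {Y : M → M} (rad : ∀ᵐ x ∂m, dist p x < R → dist p (Y x) = θ * dist p x)
    (dens : ∀ A : Set M, MeasurableSet A → m {x | dist p x < R ∧ Y x ∈ A} ≤ D * m A)
    {ρ : ℝ} (hρR : ρ ≤ R) : m (ball p ρ) ≤ D * m (ball p (θ * ρ)) := by
  refine le_trans (measure_mono_ae ?_) (dens (ball p (θ * ρ)) measurableSet_ball)
  filter_upwards [rad] with x hx hxρ
  have h1 : dist p x < ρ := by rw [dist_comm]; exact hxρ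
  refine ⟨h1.trans_le hρR, ?_⟩
  have h2 : dist p (Y x) < θ * ρ := by
    rw [hx (h1.trans_le hρR)]
    exact mul_lt_mul_of_pos_left h1 hθ
  rwa [dist_comm] at h2

/-- The existence of contractions towards `p`, with the constant `K`: for all small `s₀` and all
times `t`. -/
def HasContr (m : Measure M) (n : ℕ) (K : ℝ) (p : M) : Prop :=
  ∀ s₀ : ℝ, 0 < s₀ → s₀ ≤ 1 → ∀ t : ℝ, 0 < t → t ≤ 1 → ∃ Y : M → M,
    (∀ᵐ x ∂m, dist p x < 1 → dist p (Y x) = (t + s₀) / (1 + s₀) * dist p x) ∧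
    ∀ A : Set M, MeasurableSet A →
      m {x | dist p x < 1 ∧ Y x ∈ A} ≤ ENNReal.ofReal (K * t ^ (-(n : ℝ))) * m A

theorem HasContr.ball_le [OpensMeasurableSpace M] {n : ℕ} {K : ℝ} (hK : 0 < K) {p : M}
    (h : HasContr m n K p) {t R : ℝ} (ht : 0 < t) (ht1 : t ≤ 1) (hR : 0 < R) (hR1 : R ≤ 1) :
    ENNReal.ofReal ((K * 2 ^ n)⁻¹ * t ^ n) * m (ball p R) ≤ m (ball p (t * R)) := by
  obtain ⟨Y, hrad, hdens⟩ := h (t / 2) (by positivity) (by linarith) (t / 2) (by positivity)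
    (by linarith)
  have h1 := ball_le_of_map (R := 1) (by positivity) hrad hdens hR1
  have h2 : (t / 2 + t / 2) / (1 + t / 2) * R ≤ t * R := by
    refine mul_le_mul_of_nonneg_right ?_ hR.le
    rw [div_le_iff₀ (by positivity)]
    nlinarith
  have h3 : K * (t / 2) ^ (-(n : ℝ)) = K * 2 ^ n * (t ^ n)⁻¹ := by
    rw [Real.rpow_neg (by positivity), Real.rpow_natCast, div_pow, inv_div]
    ring
  rw [h3] at h1
  calc ENNReal.ofReal ((K * 2 ^ n)⁻¹ * t ^ n) * m (ball p R)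
      ≤ ENNReal.ofReal ((K * 2 ^ n)⁻¹ * t ^ n) * (ENNReal.ofReal (K * 2 ^ n * (t ^ n)⁻¹)
        * m (ball p ((t / 2 + t / 2) / (1 + t / 2) * R))) := by gcongr
    _ = m (ball p ((t / 2 + t / 2) / (1 + t / 2) * R)) := by
        rw [← mul_assoc, ← ENNReal.ofReal_mul (by positivity)]
        have : (K * 2 ^ n)⁻¹ * t ^ n * (K * 2 ^ n * (t ^ n)⁻¹) = 1 := by field_simp
        rw [this, ENNReal.ofReal_one, one_mul]
    _ ≤ _ := measure_mono (ball_subset_ball h2)

theorem bgLoc_of_contr [OpensMeasurableSpace M] {n : ℕ}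
    (h : ∀ (x₀ : M) (A : ℝ), ∃ K > 0, ∀ p ∈ ball x₀ A, HasContr m n K p) : BGLoc m n := by
  intro x₀ A
  obtain ⟨K, hK, hA⟩ := h x₀ A
  exact ⟨(K * 2 ^ n)⁻¹, by positivity, fun p hp t R ht ht1 hR hR1 =>
    (hA p hp).ball_le hK ht ht1 hR hR1⟩

theorem bgUnif_of_contr [OpensMeasurableSpace M] {n : ℕ} {K : ℝ} (hK : 0 < K)
    (h : ∀ p : M, HasContr m n K p) : BGUnif m n :=
  ⟨(K * 2 ^ n)⁻¹, by positivity, fun p t R ht ht1 hR hR1 => (h p).ball_le hK ht ht1 hR hR1⟩

end Vale.Agent.P233.H992
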