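import Vale.Agent.P233.Gig.IfD
import Vale.Agent.P233.H992.BG

/-! ### Block D1: Bishop–Gromov, properness, two-sided bounds, doubling -/

open MeasureTheory Measure Filter Topology Metric Set
open scoped ENNReal NNReal

universe u

namespace Vale.Agent.P233.H992

open Vale.Agent.P233.PD

variable {M : Type u} [MetricSpace M] [MeasurableSpace M]

/-- Bishop–Gromov from the contraction maps. -/
theorem bg_of_hasContr [OpensMeasurableSpace M] {m : Measure M} {n : ℕ} (h : PD.HasContr m n) :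
    PD.BG m n := by
  intro R₀ hR₀
  obtain ⟨K₀, hK₀⟩ := h R₀ hR₀
  set K : ℝ := max K₀ 1 with hKdef
  have hK : 0 < K := lt_of_lt_of_le one_pos (le_max_right _ _)
  refine ⟨(K * 2 ^ n)⁻¹, by positivity, fun p R t hR hRR ht ht1 => ?_⟩
  obtain ⟨Y, hY⟩ := hK₀ p (t / 2) ⟨by positivity, by linarith⟩
  have htI : t / 2 ∈ Ioc (0 : ℝ) 1 := ⟨by positivity, by linarith⟩
  have hdens : ∀ A : Set M, MeasurableSet A → m {x | dist p x < R₀ ∧ Y (t / 2) x ∈ A}
      ≤ ENNReal.ofReal (K * (t / 2) ^ (-(n : ℝ))) * m A := by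
    intro A hA
    refine (hY.dens (t / 2) htI A hA).trans ?_
    gcongr
    exact le_max_left _ _
  have h1 := ball_le_of_map (m := m) (p := p) (R := R₀) (θ := (t / 2 + t / 2) / (1 + t / 2))
    (Y := Y (t / 2)) (by positivity)
    (hY.rad.mono fun x hx hx1 => (hx hx1 (t / 2) htI).1) hdens hRR
  have h2 : (t / 2 + t / 2) / (1 + t / 2) * R ≤ t * R := by
    refine mul_le_mul_of_nonneg_right ?_ hR.le
    rw [div_le_iff₀ (by positivity)]
    nlinarith
  have h3 : K * (t / 2) ^ (-(n : ℝ)) = K * 2 ^ n * (t ^ n)⁻¹ := by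
    rw [Real.rpow_neg (by positivity), Real.rpow_natCast, div_pow, inv_div]
    ring
  rw [h3] at h1
  calc ENNReal.ofReal ((K * 2 ^ n)⁻¹ * t ^ n) * m (ball p R)
      ≤ ENNReal.ofReal ((K * 2 ^ n)⁻¹ * t ^ n) * (ENNReal.ofReal (K * 2 ^ n * (t ^ n)⁻¹)
        * m (ball p ((t / 2 + t / 2) / (1 + t / 2) * R))) := by gcongr
    _ = m (ball p ((t / 2 + t / 2) / (1 + t / 2) * R)) := by
        rw [← mul_assoc, ← ENNReal.ofReal_mul (by positivity)]
        have : (K * 2 ^ n)⁻¹ * t ^ n * (K * 2 ^ n * (t ^ n)⁻¹) = 1 := by field_simp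
        rw [this, ENNReal.ofReal_one, one_mul]
    _ ≤ _ := measure_mono (ball_subset_ball h2)

theorem bgUnif_of_bg {m : Measure M} {n : ℕ} (h : PD.BG m n) : BGUnif m n := by
  obtain ⟨c, hc, h⟩ := h 1 one_pos
  exact ⟨c, hc, fun p t R ht ht1 hR hR1 => h p R t hR hR1 ht ht1⟩

/-- The two-sided bounds for all radii up to `R₀`. -/
theorem TwoSided.vol {m : Measure M} {n : ℕ} (hfin : ∀ (x : M) (r : ℝ), m (ball x r) < ∞)
    (h : TwoSided m n) (x₀ : M) (R₀ : ℝ) : ∃ c > 0, ∃ C : ℝ, ∀ y ∈ ball x₀ R₀, ∀ s : ℝ, 0 < s →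
      s ≤ R₀ → ENNReal.ofReal (c * s ^ n) ≤ m (ball y s) ∧
        m (ball y s) ≤ ENNReal.ofReal (C * s ^ n) := by
  obtain ⟨c, hc, C, hC, h⟩ := h x₀ R₀
  set V : ℝ := (m (ball x₀ (2 * R₀))).toReal with hV
  have hV0 : 0 ≤ V := ENNReal.toReal_nonneg
  set D : ℝ := max 1 R₀ with hD
  have hD1 : 1 ≤ D := le_max_left _ _
  have hDn : 1 ≤ D ^ n := one_le_pow₀ hD1
  refine ⟨c / D ^ n, by positivity, C + V, fun y hy s hs hsR => ?_⟩
  have hy' : y ∈ closedBall x₀ R₀ := ball_subset_closedBall hy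
  rcases le_total s 1 with h1 | h1
  · obtain ⟨a1, a2, a3⟩ := h y hy' s hs h1
    refine ⟨le_trans (ENNReal.ofReal_le_ofReal ?_) a1,
      (a2.trans a3).trans (ENNReal.ofReal_le_ofReal ?_)⟩
    · refine mul_le_mul_of_nonneg_right ?_ (by positivity)
      exact div_le_self hc.le hDn
    · rw [add_mul]
      have : 0 ≤ V * s ^ n := by positivity
      linarith
  · obtain ⟨a1, -, -⟩ := h y hy' 1 one_pos le_rfl
    rw [one_pow, mul_one] at a1
    have hsn : 1 ≤ s ^ n := one_le_pow₀ h1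
    refine ⟨?_, ?_⟩
    · refine le_trans (ENNReal.ofReal_le_ofReal ?_) (a1.trans (measure_mono (ball_subset_ball h1)))
      rw [div_mul_eq_mul_div, div_le_iff₀ (by positivity)]
      have : s ^ n ≤ D ^ n := pow_le_pow_left₀ hs.le (hsR.trans (le_max_right _ _)) n
      exact mul_le_mul_of_nonneg_left this hc.le
    · calc m (ball y s) ≤ m (ball x₀ (2 * R₀)) := by
            refine measure_mono fun z hz => ?_
            rw [mem_ball] at hz hy ⊢
            have := dist_triangle z y x₀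
            linarith
        _ = ENNReal.ofReal V := (ENNReal.ofReal_toReal (hfin _ _).ne).symm
        _ ≤ _ := by
            refine ENNReal.ofReal_le_ofReal ?_
            rw [add_mul]
            have h2 : 0 ≤ C * s ^ n := by positivity
            nlinarith

theorem blk_D1 : PD.Blk_D1.{u} := by
  intro M _ _ _ _ _ m n K h
  have hop : m.IsOpenPosMeasure := h.std.full
  have hbg : PD.BG m n := bg_of_hasContr h.contr
  have hU := bgUnif_of_bg hbg
  have hlen : H992.IsLen M := fun x y s t hs ht hst e he => h.len x y s t hs ht hst e he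
  obtain ⟨hP, hT⟩ := metric_D1 h.haus h.std.hfin hlen hU.bgLoc
  exact ⟨hbg, ⟨hP, hlen.geodesic, hT.vol h.std.hfin, hU.doubling⟩⟩

end Vale.Agent.P233.H992
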