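import Vale.Agent.P233.H992.FlowLim
import Vale.Agent.P233.H183.Unit
import Vale.Agent.P233.H599.Radial

/-! P233: block E6a (end point `s → 1` and density of the `eᵢ`). -/

set_option linter.all false

open MeasureTheory Filter Topology Set
open scoped ENNReal NNReal InnerProductSpace

universe u v

namespace Vale.Agent.P233.H992

section flow

variable {M : Type u} [MetricSpace M] [MeasurableSpace M] [BorelSpace M] {m : Measure M}
variable {E : Type v} [NormedAddCommGroup E] [InnerProductSpace ℝ E]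
variable {Gr : (M →ₘ[m] ℝ) → M → E} {HO : (M →ₘ[m] ℝ) → M → E →L[ℝ] E}
variable {p : M} {s₀ C₀ : ℝ} {Y : ℝ → M → M}

/-! ### measurability -/

theorem spd_meas [SecondCountableTopology M] (p : M) (s₀ C₀ : ℝ) : Measurable (spd p s₀ C₀) := by
  unfold spd
  have h1 : Measurable fun x : M => dist p x := (continuous_const.dist continuous_id).measurable
  exact Measurable.ite (measurableSet_lt (h1.pow_const 2) measurable_const) (h1.div_const _)
    measurable_const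

theorem spd_nonneg (hs₀ : 0 < s₀) (x : M) : 0 ≤ spd p s₀ C₀ x := by
  unfold spd
  split_ifs
  · positivity
  · exact le_rfl

theorem spd_le (hs₀ : 0 < s₀) (hC₀ : 0 < C₀) (x : M) : spd p s₀ C₀ x ≤ √(2 * C₀) := by
  unfold spd
  split_ifs with h
  · refine Real.le_sqrt_of_sq_le ?_
    rw [div_pow, div_le_iff₀ (by positivity)]
    nlinarith [mul_pos hC₀ hs₀]
  · exact Real.sqrt_nonneg _

theorem spd_ball {x : M} (h : spd p s₀ C₀ x ≠ 0) : dist p x ^ 2 < 2 * C₀ * (1 + s₀) := by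
  unfold spd at h
  by_contra h1
  rw [if_neg h1] at h
  exact h rfl

theorem flow_meas (hF : Flow Gr HO p s₀ C₀ Y) (t : ℝ) : Measurable (Y t) :=
  hF.meas.comp (measurable_const.prodMk measurable_id)

theorem flow_ac (hF : Flow Gr HO p s₀ C₀ Y) {t : ℝ} (ht : t ∈ Ioc (0 : ℝ) 1) :
    Measure.QuasiMeasurePreserving (Y t) m m := by
  refine ⟨flow_meas hF t, ?_⟩
  obtain ⟨A, hA⟩ := hF.comp t ht
  have h1 := hA t ⟨le_rfl, ht.2⟩
  exact (Measure.absolutelyContinuous_of_le h1).trans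
    (Measure.smul_absolutelyContinuous)

theorem flow_ae (hF : Flow Gr HO p s₀ C₀ Y) {t : ℝ} (ht : t ∈ Ioc (0 : ℝ) 1) {P : M → Prop}
    (h : ∀ᵐ y ∂m, P y) : ∀ᵐ x ∂m, P (Y t x) := (flow_ac hF ht).ae h

theorem flow_qmp [SFinite m] (hF : Flow Gr HO p s₀ C₀ Y) :
    Measure.QuasiMeasurePreserving (fun q : ℝ × M => Y q.1 q.2)
      ((volume.restrict (Ioo (0 : ℝ) 1)).prod m) m := by
  refine ⟨hF.meas, ?_⟩
  refine Measure.AbsolutelyContinuous.mk fun s hs h0 => ?_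
  rw [Measure.map_apply hF.meas hs, Measure.measure_prod_null (hF.meas hs)]
  filter_upwards [ae_restrict_mem measurableSet_Ioo] with t ht
  have h1 := (flow_ac hF ⟨ht.1, ht.2.le⟩).preimage_null h0
  exact h1

theorem rdir_meas (hG : ∀ f ∈ (sob m).W, StronglyMeasurable (Gr f))
    (hfin : ∀ (x : M) (r : ℝ), m (Metric.ball x r) < ∞) (p : M) (s₀ C₀ : ℝ) :
    StronglyMeasurable (rdir Gr p s₀ C₀) := by
  have := hG _ (H183.dtr_mem hfin p √(2 * C₀ * (1 + s₀)))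
  exact this

theorem vel_meas [SecondCountableTopology M] (hG : ∀ f ∈ (sob m).W, StronglyMeasurable (Gr f))
    (hfin : ∀ (x : M) (r : ℝ), m (Metric.ball x r) < ∞) (hF : Flow Gr HO p s₀ C₀ Y) :
    StronglyMeasurable fun q : ℝ × M => vel Gr p s₀ C₀ Y q.1 q.2 := by
  unfold vel
  exact ((spd_meas p s₀ C₀).comp measurable_snd).stronglyMeasurable.smul
    ((rdir_meas hG hfin p s₀ C₀).comp_measurable hF.meas)

theorem vel_one (hF : Flow Gr HO p s₀ C₀ Y) (x : M) :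
    vel Gr p s₀ C₀ Y 1 x = spd p s₀ C₀ x • rdir Gr p s₀ C₀ x := by
  unfold vel; rw [hF.one]

/-- the radial field has norm one along the flow -/
theorem rdir_le (hF : Flow Gr HO p s₀ C₀ Y) {t : ℝ} (ht : t ∈ Ioc (0 : ℝ) 1) :
    ∀ᵐ x ∂m, spd p s₀ C₀ x ≠ 0 → ‖rdir Gr p s₀ C₀ (Y t x)‖ ≤ 1 := by
  filter_upwards [flow_ae hF ht hF.unit, hF.rad] with x h1 h2 h3
  have h4 := spd_ball h3
  refine (h1 (lt_of_le_of_lt ?_ h4)).le
  rw [h2 h4 t ht]
  have h5 : (t + s₀) / (1 + s₀) ≤ 1 := by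
    have := hF.hs₀
    rw [div_le_one (by positivity)]
    linarith [ht.2]
  have h6 : 0 ≤ (t + s₀) / (1 + s₀) := by
    have := hF.hs₀
    have := ht.1
    positivity
  have h7 : (t + s₀) / (1 + s₀) * dist p x ≤ dist p x := mul_le_of_le_one_left dist_nonneg h5
  exact pow_le_pow_left₀ (by positivity) h7 2

theorem stay (hF : Flow Gr HO p s₀ C₀ Y) :
    ∀ᵐ x ∂m, spd p s₀ C₀ x = 0 → ∀ t ∈ Ioc (0 : ℝ) 1, Y t x = x := by
  filter_upwards [hF.geod] with x h1 h2 t ht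
  have h3 := h1 t ht 1 ⟨one_pos, le_rfl⟩
  rw [h2, zero_mul, dist_eq_zero, hF.one] at h3
  exact h3

theorem cmb_single {V : Type*} [AddCommGroup V] [Module ℝ V] (w : ℕ → V) (i : ℕ) :
    cmb w (Finsupp.single i 1) = w i := by
  unfold cmb
  rw [Finsupp.sum_single_index]
  · simp
  · simp

/-- the end point inequality for `h = eᵢ` -/
theorem endpoint [SecondCountableTopology M] [SigmaFinite m] {e : ℕ → M →ₘ[m] ℝ} {κ κ' : ℝ}
    {Hh : ℕ → ℝ → M → E} {Λ : ℝ → M → ℝ}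
    (hC : IsGamma (sob m)) (hB : (sob m).BEi κ')
    (hfin : ∀ (x : M) (r : ℝ), m (Metric.ball x r) < ∞) (hG : IsGrad (sob m) Gr)
    (hGm : ∀ f ∈ (sob m).W, StronglyMeasurable (Gr f)) (hH : IsHess (sob m) Gr HO)
    (hFH : FlowH Gr HO e κ p s₀ C₀ Y Hh Λ) (hκ : √κ * √(2 * C₀) < Real.pi)
    (hcomp : HComp Gr e κ p s₀ C₀ Y Hh) {i : ℕ} (he : e i ∈ (sob m).TestI) {w : M →ₘ[m] ℝ}
    (hw : w ∈ (sob m).TestI) (hw0 : 0 ≤ w) :
    (sob m).wH (cl m (zr p s₀ C₀ 1)) (e i) w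
      ≤ ∫ x, RHf Gr κ (spd p s₀ C₀) (rdir Gr p s₀ C₀) w (e i) x ∂m := by
  have hF := hFH.flow
  have hs₀ := hF.hs₀
  have hC₀ := hF.hC₀
  set f := e i with hf
  have fT : f ∈ (sob m).Test := he.1
  have fW := (hC.test_A fT).1
  set b := (sob m).Γ f f with hb
  have bW : b ∈ (sob m).W := (hC.Γ_mem hB fT fT).1
  obtain ⟨Gi, hGi⟩ := mem_top_iff.1 (hC.test_Γ_top fT)
  obtain ⟨T, hT0, hT⟩ := exists_th_le (Real.sqrt_nonneg (2 * C₀)) hκ
  have hvm := vel_meas hGm hfin hF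
  have hfm : StronglyMeasurable fun q : ℝ × M => Gr f (Y q.1 q.2) :=
    (hGm f fW).comp_measurable hF.meas
  have hbm : Measurable fun q : ℝ × M => b (Y q.1 q.2) :=
    b.stronglyMeasurable.measurable.comp hF.meas
  -- the two evolution equations, for a.e. time
  have a1 := hF.ac1 b bW
  have s1 := swap_ACto (m := m) (f := fun t x => b (Y t x))
    (g := fun t x => ⟪Gr b (Y t x), vel Gr p s₀ C₀ Y t x⟫_ℝ) (c := fun x => b x) hbm
    b.stronglyMeasurable.measurable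
    (((hGm b bW).comp_measurable hF.meas).inner hvm).aestronglyMeasurable a1
  have a2 := hF.ac2 f he
  have hfv : StronglyMeasurable fun q : ℝ × M => ⟪Gr f (Y q.1 q.2), vel Gr p s₀ C₀ Y q.1 q.2⟫_ℝ :=
    hfm.inner hvm
  have hone : Measurable fun x => ⟪Gr f x, vel Gr p s₀ C₀ Y 1 x⟫_ℝ :=
    ((hGm f fW).inner (hvm.comp_measurable
      (g := fun x => ((1 : ℝ), x)) (measurable_const.prodMk measurable_id))).measurable
  have s2 := swap_ACto (m := m) (f := fun t x => ⟪Gr f (Y t x), vel Gr p s₀ C₀ Y t x⟫_ℝ)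
    (g := fun t x => ⟪HO f (Y t x) (vel Gr p s₀ C₀ Y t x), vel Gr p s₀ C₀ Y t x⟫_ℝ)
    (c := fun x => ⟪Gr f x, vel Gr p s₀ C₀ Y 1 x⟫_ℝ) hfv.measurable hone
    ((sm_apply (T := fun q : ℝ × M => HO f (Y q.1 q.2))
      (fun v => (hH.meas f fT v).comp_quasiMeasurePreserving (flow_qmp hF)) hvm).inner
      hvm.aestronglyMeasurable) a2
  -- the comparison, for a.e. time
  have hMj : Measurable fun q : ℝ × M => Mv κ (spd p s₀ C₀ q.2) q.1 (‖Gr f (Y q.1 q.2)‖ ^ 2)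
      ⟪Gr f (Y q.1 q.2), vel Gr p s₀ C₀ Y q.1 q.2⟫_ℝ :=
    measurable_Mv' κ ((spd_meas p s₀ C₀).comp measurable_snd) measurable_fst
      (hfm.norm.measurable.pow_const 2) hfv.measurable
  have hHj : StronglyMeasurable fun q : ℝ × M =>
      ⟪Hh i q.1 (Y q.1 q.2), Gr f (Y q.1 q.2)⟫_ℝ :=
    ((hFH.hmeas i).comp_measurable (g := fun q : ℝ × M => (q.1, Y q.1 q.2))
      (measurable_fst.prodMk hF.meas)).inner hfm
  have s3 : ∀ᵐ t ∂(volume.restrict (Ioo (0 : ℝ) 1)), ∀ᵐ x ∂m,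
      ⟪Hh i t (Y t x), Gr f (Y t x)⟫_ℝ ≤ Mv κ (spd p s₀ C₀ x) t (‖Gr f (Y t x)‖ ^ 2)
        ⟪Gr f (Y t x), vel Gr p s₀ C₀ Y t x⟫_ℝ := by
    refine (Measure.ae_ae_comm (μ := m) (ν := volume.restrict (Ioo (0 : ℝ) 1))
      (p := fun x t => ⟪Hh i t (Y t x), Gr f (Y t x)⟫_ℝ ≤ Mv κ (spd p s₀ C₀ x) t
        (‖Gr f (Y t x)‖ ^ 2) ⟪Gr f (Y t x), vel Gr p s₀ C₀ Y t x⟫_ℝ) ?_).1 ?_
    · exact measurableSet_le (hHj.measurable.comp measurable_swap) (hMj.comp measurable_swap)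
    · filter_upwards [hcomp] with x hx
      filter_upwards [hx] with t ht
      have := ht (Finsupp.single i 1)
      simpa only [cmb_single] using this
  -- the end point inequality
  obtain ⟨A, s4⟩ := hFH.endp (Finsupp.single i 1) w hw hw0
  simp only [cmb_single] at s4
  obtain ⟨L, hL⟩ := mem_top_iff.1 (hC.test_A hw.1).2
  have hsub : Ioo (1 / 2 : ℝ) 1 ⊆ Ioo (0 : ℝ) 1 := Ioo_subset_Ioo_left (by norm_num)
  obtain ⟨s, hs, hs1⟩ := exists_seq ((ae_restrict_of_ae_restrict_of_subset hsub s1).and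
    ((ae_restrict_of_ae_restrict_of_subset hsub s2).and
      ((ae_restrict_of_ae_restrict_of_subset hsub s3).and s4)))
  have hsI : ∀ n, s n ∈ Ioo (1 / 2 : ℝ) 1 := fun n => (hs n).1
  have hsC : ∀ n, s n ∈ Ioc (0 : ℝ) 1 := fun n => ⟨(hsub (hsI n)).1, (hsI n).2.le⟩
  -- convergence
  have l1 := seq_lim a1 hsI hs1 (fun n => (hs n).2.1)
  have l2 := seq_lim a2 hsI hs1 (fun n => (hs n).2.2.1)
  set Fn : ℕ → M → ℝ := fun n x => w x * Mv κ (spd p s₀ C₀ x) (s n) (‖Gr f (Y (s n) x)‖ ^ 2)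
    ⟪Gr f (Y (s n) x), vel Gr p s₀ C₀ Y (s n) x⟫_ℝ with hFn
  set D : M → ℝ := fun x => L * (2 * (1 + T)) * ((Metric.ball p (√(2 * C₀ * (1 + s₀)) + 1)).indicator
    (fun _ => |Gi|) x + ‖Gr f x‖ ^ 2) with hD
  have hDi : Integrable D m := by
    refine Integrable.const_mul (Integrable.add ?_ ?_) _
    · exact (integrable_indicator_iff Metric.isOpen_ball.measurableSet).2
        (integrableOn_const (hfin _ _).ne)
    · exact (hG.mem f fW).norm.integrable_sq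
  have hFm : ∀ n, AEStronglyMeasurable (Fn n) m := by
    intro n
    have k : Measurable fun x : M => (s n, x) := measurable_const.prodMk measurable_id
    exact w.aestronglyMeasurable.mul (hMj.comp k).aestronglyMeasurable
  have hball : ∀ x, spd p s₀ C₀ x ≠ 0 → x ∈ Metric.ball p (√(2 * C₀ * (1 + s₀)) + 1) := by
    intro x hx
    have h1 := spd_ball hx
    rw [Metric.mem_ball, dist_comm]
    have h2 := Real.le_sqrt_of_sq_le h1.le
    linarith
  have hbd : ∀ n, ∀ᵐ x ∂m, ‖Fn n x‖ ≤ D x := by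
    intro n
    filter_upwards [hL, rdir_le hF (hsC n), stay hF, flow_ae hF (hsC n) (hG.norm_sq fW),
      flow_ae hF (hsC n) hGi] with x h1 h2 h3 h4 h5
    rw [norm_mul, Real.norm_eq_abs, Real.norm_eq_abs]
    have hlt : ∀ h : 0 < spd p s₀ C₀ x, |th κ (spd p s₀ C₀ x * s n)| ≤ T := by
      intro h
      refine hT _ (mul_pos h (hsC n).1) ?_
      refine le_trans ?_ (spd_le (p := p) hs₀ hC₀ x)
      exact mul_le_of_le_one_right h.le (hsC n).2
    have h6 := Mv_bound (κ := κ) (t := s n) (A := ‖Gr f (Y (s n) x)‖ ^ 2)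
      (B := ⟪Gr f (Y (s n) x), vel Gr p s₀ C₀ Y (s n) x⟫_ℝ) (spd_nonneg hs₀ x)
      (hsI n).1.le (by positivity)
      (by
        unfold vel
        rw [real_inner_smul_right]
        exact B_le h2) hT0 hlt
    have h7 : ‖Gr f (Y (s n) x)‖ ^ 2 ≤ (Metric.ball p (√(2 * C₀ * (1 + s₀)) + 1)).indicator
        (fun _ => |Gi|) x + ‖Gr f x‖ ^ 2 := by
      by_cases h0 : spd p s₀ C₀ x = 0
      · rw [h3 h0 _ (hsC n)]
        have : 0 ≤ (Metric.ball p (√(2 * C₀ * (1 + s₀)) + 1)).indicator (fun _ => |Gi|) x :=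
          indicator_nonneg (fun _ _ => abs_nonneg _) _
        linarith
      · rw [indicator_of_mem (hball x h0), h4]
        have := (le_abs_self _).trans (h5.trans (le_abs_self Gi))
        nlinarith [sq_nonneg ‖Gr f x‖]
    have h8 : 0 ≤ 2 * (1 + T) := by positivity
    calc |w x| * |Mv κ (spd p s₀ C₀ x) (s n) (‖Gr f (Y (s n) x)‖ ^ 2)
          ⟪Gr f (Y (s n) x), vel Gr p s₀ C₀ Y (s n) x⟫_ℝ|
        ≤ L * (2 * (1 + T) * ‖Gr f (Y (s n) x)‖ ^ 2) :=
          mul_le_mul h1 h6 (abs_nonneg _) ((abs_nonneg _).trans h1)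
      _ ≤ L * (2 * (1 + T) * ((Metric.ball p (√(2 * C₀ * (1 + s₀)) + 1)).indicator
            (fun _ => |Gi|) x + ‖Gr f x‖ ^ 2)) :=
          mul_le_mul_of_nonneg_left (mul_le_mul_of_nonneg_left h7 h8) ((abs_nonneg _).trans h1)
      _ = D x := by rw [hD]; ring
  have hlim : ∀ᵐ x ∂m, Tendsto (fun n => Fn n x) atTop
      (𝓝 (RHf Gr κ (spd p s₀ C₀) (rdir Gr p s₀ C₀) w f x)) := by
    have hall : ∀ᵐ x ∂m, ∀ n, ‖Gr f (Y (s n) x)‖ ^ 2 = b (Y (s n) x) :=
      ae_all_iff.2 fun n => flow_ae hF (hsC n) (hG.norm_sq fW)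
    filter_upwards [l1, l2, hall, hG.norm_sq fW] with x h1 h2 h3 h4
    unfold RHf
    refine Tendsto.const_mul _ ?_
    refine Mv_tendsto (spd_nonneg hs₀ x) (lt_of_le_of_lt (mul_le_mul_of_nonneg_left
      (spd_le hs₀ hC₀ x) (Real.sqrt_nonneg _)) hκ) hs1 ?_ ?_
    · simp only [h3, h4]
      exact h1
    · rw [vel_one hF, real_inner_smul_right] at h2
      exact h2
  have hconv := tendsto_integral_of_dominated_convergence D hFm hDi hbd hlim
  -- the inequality along the sequence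
  have hineq : ∀ n, (sob m).wH (cl m (zr p s₀ C₀ 1)) f w
      ≤ ∫ x, Fn n x ∂m + A * (1 - s n) := by
    intro n
    obtain ⟨h1, h2⟩ := (hs n).2.2.2.2
    refine h2.trans (add_le_add ?_ le_rfl)
    refine integral_mono_ae h1 (hDi.mono' (hFm n) (hbd n)) ?_
    filter_upwards [(hs n).2.2.2.1, nonneg_iff_ae.1 hw0] with x h3 h4
    exact mul_le_mul_of_nonneg_left h3 h4
  have hlim2 : Tendsto (fun n => ∫ x, Fn n x ∂m + A * (1 - s n)) atTop
      (𝓝 (∫ x, RHf Gr κ (spd p s₀ C₀) (rdir Gr p s₀ C₀) w f x ∂m + A * (1 - 1))) :=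
    hconv.add ((hs1.const_sub 1).const_mul _)
  rw [sub_self, mul_zero, add_zero] at hlim2
  exact ge_of_tendsto' hlim2 hineq

/-! ### the final form -/

theorem lct_meas (κ : ℝ) : Measurable (lct κ) := by
  unfold lct
  have hs : Measurable (sn κ) := (cont_sn κ).measurable
  have hc : Measurable (cs κ) := (cont_cs κ).measurable
  exact Measurable.ite (measurableSet_eq_fun measurable_id measurable_const) measurable_const
    ((measurable_id.mul hc).div hs)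

theorem bct_meas (κ : ℝ) : Measurable (bct κ) := by
  unfold bct
  exact Measurable.ite (measurableSet_eq_fun measurable_id measurable_const) measurable_const
    ((measurable_const.sub (lct_meas κ)).div (measurable_id.pow_const 2))

theorem Mv_eq (κ l A b : ℝ) :
    Mv κ l 1 A (l * b) = lct κ l * A + bct κ l * (l * b) ^ 2 := by
  unfold Mv bct lct
  by_cases h : l = 0
  · simp [h]
  · simp only [if_neg h, mul_one, div_one]
    have h1 : (l * b) ^ 2 / l ^ 2 = b ^ 2 := by field_simp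
    rw [h1, mul_pow]
    field_simp
    ring

theorem RHf_eq [SecondCountableTopology M] {κ : ℝ} (hC : IsGamma (sob m))
    (hfin : ∀ (x : M) (r : ℝ), m (Metric.ball x r) < ∞) (hG : IsGrad (sob m) Gr)
    (hs₀ : 0 < s₀) (hC₀ : 0 < C₀) (w : M →ₘ[m] ℝ) {h : M →ₘ[m] ℝ} (hh : h ∈ (sob m).W) :
    ∫ x, RHf Gr κ (spd p s₀ C₀) (rdir Gr p s₀ C₀) w h x ∂m
      = I (w * (cl m (fun x => lct κ (spd p s₀ C₀ x)) * (sob m).Γ h h
          + cl m (fun x => bct κ (spd p s₀ C₀ x)) * (sob m).Γ (cl m (zr p s₀ C₀ 1)) h ^ 2)) := by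
  unfold I
  have hD := hC.toIsDir
  set ρ := √(2 * C₀ * (1 + s₀)) with hρ
  have hρ0 : 0 ≤ ρ := Real.sqrt_nonneg _
  have hρ2 : ρ ^ 2 = 2 * C₀ * (1 + s₀) := Real.sq_sqrt (by positivity)
  have m1 : AEStronglyMeasurable (fun x => lct κ (spd p s₀ C₀ x)) m :=
    ((lct_meas κ).comp (spd_meas p s₀ C₀)).aestronglyMeasurable
  have m2 : AEStronglyMeasurable (fun x => bct κ (spd p s₀ C₀ x)) m :=
    ((bct_meas κ).comp (spd_meas p s₀ C₀)).aestronglyMeasurable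
  have g1 := H183.Γ_zr (m := m) hD hfin (p := p) (t := 1) (by positivity) hρ0 hρ2 hh
  have g2 := H183.Γ_dtr_zero (m := m) hD hfin p ρ hh
  refine integral_congr_ae ?_
  filter_upwards [g1, g2, hG.norm_sq hh, hG.inner _ (H183.dtr_mem hfin p ρ) h hh,
    mul_ae w (cl m (fun x => lct κ (spd p s₀ C₀ x)) * (sob m).Γ h h
          + cl m (fun x => bct κ (spd p s₀ C₀ x)) * (sob m).Γ (cl m (zr p s₀ C₀ 1)) h ^ 2),
    add_ae (cl m (fun x => lct κ (spd p s₀ C₀ x)) * (sob m).Γ h h)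
      (cl m (fun x => bct κ (spd p s₀ C₀ x)) * (sob m).Γ (cl m (zr p s₀ C₀ 1)) h ^ 2),
    mul_ae (cl m (fun x => lct κ (spd p s₀ C₀ x))) ((sob m).Γ h h),
    mul_ae (cl m (fun x => bct κ (spd p s₀ C₀ x))) ((sob m).Γ (cl m (zr p s₀ C₀ 1)) h ^ 2),
    sq_ae ((sob m).Γ (cl m (zr p s₀ C₀ 1)) h), H183.cl_ae m1, H183.cl_ae m2]
    with x a1 a2 a3 a4 a5 a6 a7 a8 a9 a10 a11
  rw [a5, a6, a7, a8, a9, a10, a11]
  unfold RHf
  rw [Mv_eq, a3]
  have e1 : spd p s₀ C₀ x * ⟪Gr h x, rdir Gr p s₀ C₀ x⟫_ℝ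
      = (sob m).Γ (cl m (zr p s₀ C₀ 1)) h x := by
    have e2 : ⟪Gr h x, rdir Gr p s₀ C₀ x⟫_ℝ = (sob m).Γ (cl m (dtr p ρ)) h x := by
      rw [real_inner_comm, ← a4]
      rfl
    rw [e2, a1]
    by_cases hx : dist p x ^ 2 < 2 * C₀ * (1 + s₀)
    · have h1 : dist p x ≤ ρ := Real.le_sqrt_of_sq_le hx.le
      rw [min_eq_left h1]
      unfold spd
      rw [if_pos hx]
    · have h1 : ρ ≤ dist p x := by
        rw [hρ, Real.sqrt_le_left dist_nonneg]; exact not_lt.1 hx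
      rw [a2 h1, mul_zero, mul_zero]
  rw [e1]

end flow

theorem blk_E6a : Blk_E6a.{u} := by
  intro M _ _ _ _ m E _ _ _ Gr HO e K N κ hStd hS p s₀ C₀ Y Hh Λ hFH hκ hcomp
  have hfin := hStd.hfin
  haveI : SigmaFinite m := ⟨⟨⟨fun n => Metric.ball p n, fun _ => trivial, fun n => hfin p n,
    Metric.iUnion_ball_nat p⟩⟩⟩
  have hC : IsGamma (sob m) := isGamma_sob hfin hStd.rcd.quadratic hStd.rcd.sobolev_to_lipschitz
  have hB : (sob m).BEi K := hC.bei hStd.hN hStd.rcd.bochner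
  have hG := hS.grad
  have hF := hFH.flow
  have hs₀ := hF.hs₀
  have hC₀ := hF.hC₀
  have h1s : (0 : ℝ) < 1 + s₀ := by positivity
  have zW : cl m (zr p s₀ C₀ 1) ∈ (sob m).W := H599.zr_memW hfin h1s hC₀.le
  have zΓ : MemLp ((sob m).Γ (cl m (zr p s₀ C₀ 1)) (cl m (zr p s₀ C₀ 1))) ∞ m := by
    rw [mem_top_iff]
    refine ⟨((Real.toNNReal (Real.sqrt (2 * C₀ / (1 + s₀))) : ℝ≥0) : ℝ) ^ 2, ?_⟩
    · filter_upwards [H183.Γ_cl_le (m := m) hfin (H599.zr_lip (p := p) h1s hC₀.le) (x₀ := p)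
        (R := √(2 * C₀ * (1 + s₀))) (fun x hx => H599.zr_zero_outside h1s hC₀.le le_rfl
          (by rw [Metric.mem_ball, not_lt, dist_comm]; exact hx)),
        hC.toIsDir.Γ_nonneg_ae zW] with x h1 h2
      rw [abs_of_nonneg h2]
      exact h1
  obtain ⟨T, hT0, hT⟩ := exists_th_le (Real.sqrt_nonneg (2 * C₀)) hκ
  intro h hh w hw hw0
  rw [← RHf_eq hC hfin hG hs₀ hC₀ w (hC.test_A hh.1).1]
  refine wH_le_of_dense hC hB hG hS.hess hS.testI hS.dense zW zΓ hw (spd_meas p s₀ C₀)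
    (spd_nonneg hs₀) hT0 (fun x hx => hT _ hx (spd_le hs₀ hC₀ x))
    (rdir_meas hS.gmeas hfin p s₀ C₀).aestronglyMeasurable ?_ ?_ h hh
  · filter_upwards [hF.unit] with x h1 h2
    exact (h1 (spd_ball h2)).le
  · intro i
    exact endpoint hC hB hfin hG hS.gmeas hS.hess hFH hκ hcomp (hS.testI i) hw hw0

end Vale.Agent.P233.H992
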