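import Vale.Agent.P233.H616.Bridge
import Vale.Agent.P233.H715.RG1
import Vale.Agent.P233.H933.Rad1

/-! P233, stage 3a (helper992): addition formulas and Taylor bounds for `md`, `sn`, `cs`. -/

set_option linter.all false

open Real Set Filter Topology

namespace Vale.Agent.P233.H992.CDR

theorem md_neg (κ a : ℝ) : md κ (-a) = md κ a := by
  rw [← H616.md_eq, ← H616.md_eq]; exact H616.md_neg κ a

theorem sn_neg (κ a : ℝ) : sn κ (-a) = -sn κ a := H616.sn_neg κ a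

theorem sn_add (κ a b : ℝ) : sn κ (a + b) = sn κ a * cs κ b + cs κ a * sn κ b :=
  H616.sn_add κ a b

theorem md_add (κ a b : ℝ) : md κ (a + b) = md κ a + cs κ a * md κ b + sn κ a * sn κ b := by
  have h1 := H616.md_sub κ a (-b)
  rw [sub_neg_eq_add, H616.md_neg, H616.sn_neg] at h1
  have h2 := H616.cs_eq κ a
  rw [H616.md_eq] at h1 h2
  rw [H616.md_eq, H616.md_eq] at h1
  have h3 : cs κ a = 1 - κ * md κ a := h2
  have h4 : md κ (a + b) = md κ a + md κ b - κ * (md κ a * md κ b)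
      - sn κ a * -sn κ b := h1
  rw [h3, h4]; ring

theorem md_sub (κ a b : ℝ) : md κ (a - b) = md κ a + cs κ a * md κ b - sn κ a * sn κ b := by
  rw [sub_eq_add_neg, md_add, md_neg, sn_neg]; ring

/-- the constant of the Taylor bounds for `|h| ≤ 1` -/
noncomputable def C0 (κ : ℝ) : ℝ := |κ| * cosh (√|κ| * 1)

theorem C0_nonneg (κ : ℝ) : 0 ≤ C0 κ := mul_nonneg (abs_nonneg _) (Real.cosh_pos _).le

/-- integration of a bound of the derivative -/
theorem int_bound {f f' : ℝ → ℝ} {g : ℝ} (hf : ∀ x, HasDerivAt f (f' x) x) (h0 : f 0 = 0)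
    {y : ℝ} (hb : ∀ x, |x| ≤ |y| → |f' x| ≤ g) : |f y| ≤ g * |y| := by
  have h2 := (convex_uIcc 0 y).norm_image_sub_le_of_norm_hasDerivWithin_le
    (f := f) (f' := f') (C := g) (fun x _ => (hf x).hasDerivWithinAt) (fun x hx => by
      rw [Real.norm_eq_abs]
      refine hb x ?_
      rcases le_total 0 y with h0 | h0
      · rw [uIcc_of_le h0] at hx
        rw [abs_of_nonneg hx.1, abs_of_nonneg h0]; exact hx.2
      · rw [uIcc_of_ge h0] at hx
        rw [abs_of_nonpos hx.2, abs_of_nonpos h0]; linarith [hx.1])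
    left_mem_uIcc right_mem_uIcc
  simpa [h0] using h2

theorem cs_err {κ h : ℝ} (hh : |h| ≤ 1) : |cs κ h - 1| ≤ C0 κ * |h| ^ 2 := by
  have := int_bound (f := fun x => cs κ x - 1) (f' := fun x => -κ * sn κ x)
    (g := |κ| * (cosh (√|κ| * 1) * |h|)) (fun x => (H933.hasDerivAt_cs κ x).sub_const 1)
    (by show H616.cs κ 0 - 1 = 0; simp) (y := h) (fun x hx => by
      rw [abs_mul, abs_neg]
      refine mul_le_mul_of_nonneg_left ?_ (abs_nonneg _)
      refine (H715.RG.abs_sn_le (κ := κ) (hx.trans hh)).trans ?_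
      exact mul_le_mul_of_nonneg_left hx (Real.cosh_pos _).le)
  calc |cs κ h - 1| ≤ |κ| * (cosh (√|κ| * 1) * |h|) * |h| := this
    _ = C0 κ * |h| ^ 2 := by unfold C0; ring

theorem sn_err {κ h : ℝ} (hh : |h| ≤ 1) : |sn κ h - h| ≤ C0 κ * |h| ^ 3 := by
  have := int_bound (f := fun x => sn κ x - x) (f' := fun x => cs κ x - 1)
    (g := C0 κ * |h| ^ 2) (fun x => (H933.hasDerivAt_sn κ x).sub (hasDerivAt_id x))
    (by show sn κ 0 - 0 = 0; rw [H933.sn_zero]; ring) (y := h) (fun x hx => by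
      refine (cs_err (hx.trans hh)).trans ?_
      exact mul_le_mul_of_nonneg_left (pow_le_pow_left₀ (abs_nonneg _) hx 2) (C0_nonneg κ))
  calc |sn κ h - h| ≤ C0 κ * |h| ^ 2 * |h| := this
    _ = C0 κ * |h| ^ 3 := by ring

theorem md_err {κ h : ℝ} (hh : |h| ≤ 1) : |md κ h - h ^ 2 / 2| ≤ C0 κ * |h| ^ 3 := by
  have := int_bound (f := fun x => md κ x - x ^ 2 / 2) (f' := fun x => sn κ x - x)
    (g := C0 κ * |h| ^ 3) (fun x => by
      have h1 := (H933.hasDerivAt_md κ x).sub ((hasDerivAt_pow 2 x).div_const 2)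
      refine h1.congr_deriv ?_
      push_cast; ring)
    (by show md κ 0 - 0 ^ 2 / 2 = 0; rw [H933.md_zero]; ring) (y := h) (fun x hx => by
      refine (sn_err (hx.trans hh)).trans ?_
      exact mul_le_mul_of_nonneg_left (pow_le_pow_left₀ (abs_nonneg _) hx 3) (C0_nonneg κ))
  calc |md κ h - h ^ 2 / 2| ≤ C0 κ * |h| ^ 3 * |h| := this
    _ ≤ C0 κ * |h| ^ 3 * 1 := mul_le_mul_of_nonneg_left hh
        (mul_nonneg (C0_nonneg κ) (pow_nonneg (abs_nonneg _) 3))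
    _ = C0 κ * |h| ^ 3 := by ring

/-- the bounds for `|h| ≤ ρ ≤ 1` -/
theorem errs {κ h ρ : ℝ} (hh : |h| ≤ ρ) (hρ : ρ ≤ 1) :
    |sn κ h - h| ≤ C0 κ * ρ ^ 3 ∧ |md κ h - h ^ 2 / 2| ≤ C0 κ * ρ ^ 3 := by
  have h3 : C0 κ * |h| ^ 3 ≤ C0 κ * ρ ^ 3 :=
    mul_le_mul_of_nonneg_left (pow_le_pow_left₀ (abs_nonneg _) hh 3) (C0_nonneg κ)
  exact ⟨(sn_err (hh.trans hρ)).trans h3, (md_err (hh.trans hρ)).trans h3⟩

/-- positive lower bound of `sn` on a compact interval -/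
theorem sn_lower {κ a₀ a₁ : ℝ} (h0 : 0 < a₀) (h1 : a₀ ≤ a₁) (h : √κ * a₁ < Real.pi) :
    ∃ m > 0, ∀ a ∈ Icc a₀ a₁, m ≤ sn κ a := by
  obtain ⟨x, hx, hmin⟩ := isCompact_Icc.exists_isMinOn (nonempty_Icc.2 h1)
    (H933.continuous_sn κ).continuousOn
  refine ⟨sn κ x, H933.sn_pos (h0.trans_le hx.1) ?_, fun a ha => hmin ha⟩
  exact lt_of_le_of_lt (mul_le_mul_of_nonneg_left hx.2 (Real.sqrt_nonneg _)) h

/-- upper bound of `|sn|`, `|cs|` on a bounded interval -/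
theorem upper (κ T : ℝ) : ∃ B ≥ 1, T ≤ B ∧ ∀ a, |a| ≤ T → |sn κ a| ≤ B ∧ |cs κ a| ≤ B := by
  have h1 : ∀ a, |a| ≤ T → |sn κ a| ≤ cosh (√|κ| * T) * T := fun a ha =>
    (H715.RG.abs_sn_le (κ := κ) ha).trans (mul_le_mul_of_nonneg_left ha (Real.cosh_pos _).le)
  have h2 : ∀ a, |a| ≤ T → |cs κ a| ≤ cosh (√|κ| * T) := fun a ha => H715.RG.abs_cs_le (κ := κ) ha
  refine ⟨max (max 1 T) (max (cosh (√|κ| * T) * T) (cosh (√|κ| * T))), ?_, ?_, fun a ha => ⟨?_, ?_⟩⟩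
  · exact (le_max_left _ _).trans (le_max_left _ _)
  · exact (le_max_right _ _).trans (le_max_left _ _)
  · exact (h1 a ha).trans ((le_max_left _ _).trans (le_max_right _ _))
  · exact (h2 a ha).trans ((le_max_right _ _).trans (le_max_right _ _))

end Vale.Agent.P233.H992.CDR
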