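import Vale.Agent.P233.H715.CDSub
import Vale.Agent.P233.H992.CDReal

/-! P233, stage 3a (helper992): block EX of H715/CDSub.lean, the excess at an intermediate point to
second order. -/

set_option linter.all false

open Real Set Filter Topology

namespace Vale.Agent.P233.H992.CDEX

open Vale.Agent.P233.H992.CDR

/-- `ε` to first order. `τ = sn (sθ)`, `σ = sn b`, `γ = cs b`, `S = sn θ` -/
theorem step0 {B C τ σ γ S ρ δ ε : ℝ} (hB : 1 ≤ B) (hC : 0 ≤ C)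
    (hτ : 0 < τ) (hτB : τ ≤ B) (hσ : 0 < σ) (hσB : σ ≤ B) (hγ : |γ| ≤ B) (hS : |S| ≤ B)
    (hρ0 : 0 ≤ ρ) {d1 d2 d3 e1 e2 : ℝ}
    (h1 : |d1 - (ε - δ) ^ 2 / 2| ≤ C * ρ ^ 3) (h2 : |d2 - δ ^ 2 / 2| ≤ C * ρ ^ 3)
    (h5 : |d3 - ρ ^ 2 / 2| ≤ C * ρ ^ 3)
    (h3 : |e1 - (ε - δ)| ≤ C * ρ ^ 3) (h4 : |e2 - δ| ≤ C * ρ ^ 3)
    (h : τ * (γ * (d1 - d2) + σ * (e1 + e2)) ≤ S * (d3 - d2)) :
    τ * (γ * ((ε ^ 2 - 2 * ε * δ) / 2) + σ * ε)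
      ≤ S * ((ρ ^ 2 - δ ^ 2) / 2) + 6 * B ^ 2 * C * ρ ^ 3 := by
  have hρ3 : 0 ≤ C * ρ ^ 3 := by positivity
  have k1 : |γ * ((d1 - (ε - δ) ^ 2 / 2) - (d2 - δ ^ 2 / 2))| ≤ B * (2 * (C * ρ ^ 3)) := by
    rw [abs_mul]
    refine mul_le_mul hγ ?_ (abs_nonneg _) (by linarith)
    refine (abs_sub _ _).trans ?_
    linarith
  have k2 : |σ * ((e1 - (ε - δ)) + (e2 - δ))| ≤ B * (2 * (C * ρ ^ 3)) := by
    rw [abs_mul, abs_of_pos hσ]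
    refine mul_le_mul hσB ?_ (abs_nonneg _) (by linarith)
    refine (abs_add_le _ _).trans ?_
    linarith
  have k3 : |τ * (γ * ((d1 - (ε - δ) ^ 2 / 2) - (d2 - δ ^ 2 / 2))
      + σ * ((e1 - (ε - δ)) + (e2 - δ)))| ≤ B * (B * (2 * (C * ρ ^ 3)) + B * (2 * (C * ρ ^ 3))) := by
    rw [abs_mul, abs_of_pos hτ]
    refine mul_le_mul hτB ?_ (abs_nonneg _) (by linarith)
    exact (abs_add_le _ _).trans (add_le_add k1 k2)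
  have k4 : |S * ((d3 - ρ ^ 2 / 2) - (d2 - δ ^ 2 / 2))| ≤ B * (2 * (C * ρ ^ 3)) := by
    rw [abs_mul]
    refine mul_le_mul hS ?_ (abs_nonneg _) (by linarith)
    refine (abs_sub _ _).trans ?_
    linarith
  have k5 : B * (2 * (C * ρ ^ 3)) ≤ B * B * (2 * (C * ρ ^ 3)) := by
    refine mul_le_mul_of_nonneg_right ?_ (by positivity)
    exact le_mul_of_one_le_right (by linarith) hB
  have k3' := neg_le_of_abs_le k3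
  have k4' := le_of_abs_le k4
  have e1' : τ * (γ * ((d1 - (ε - δ) ^ 2 / 2) - (d2 - δ ^ 2 / 2))
      + σ * ((e1 - (ε - δ)) + (e2 - δ))) = τ * (γ * (d1 - d2) + σ * (e1 + e2))
      - τ * (γ * ((ε ^ 2 - 2 * ε * δ) / 2) + σ * ε) := by ring
  have e2' : S * ((d3 - ρ ^ 2 / 2) - (d2 - δ ^ 2 / 2))
      = S * (d3 - d2) - S * ((ρ ^ 2 - δ ^ 2) / 2) := by ring
  have e3' : 6 * B ^ 2 * C * ρ ^ 3 = B * (B * (2 * (C * ρ ^ 3)) + B * (2 * (C * ρ ^ 3)))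
      + B * B * (2 * (C * ρ ^ 3)) := by ring
  rw [e1'] at k3'
  rw [e2'] at k4'
  rw [e3']
  linarith

/-- bound of the quadratic term -/
theorem quad {ρ δ ε : ℝ} (hε : 0 ≤ ε) (hδ : |δ| ≤ ρ) (hε2 : ε ≤ 2 * ρ) :
    |(ε ^ 2 - 2 * ε * δ) / 2| ≤ 2 * ρ * ε := by
  have e : (ε ^ 2 - 2 * ε * δ) / 2 = ε * ((ε - 2 * δ) / 2) := by ring
  rw [e, abs_mul, abs_of_nonneg hε, mul_comm]
  refine mul_le_mul_of_nonneg_right ?_ hε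
  obtain ⟨a1, a2⟩ := abs_le.1 hδ
  rw [abs_le]
  constructor <;> linarith

/-- `ε ≤ K ρ²` -/
theorem step1 {m B C τ σ γ S ρ δ ε : ℝ} (hm : 0 < m) (hB : 1 ≤ B) (hC : 0 ≤ C)
    (hτ : m ≤ τ) (hτB : τ ≤ B) (hσ : m ≤ σ) (hγ : |γ| ≤ B) (hS : |S| ≤ B)
    (hρ2 : 0 ≤ ρ ^ 2) (hρ32 : ρ ^ 3 ≤ ρ ^ 2) (hρ0 : 0 ≤ ρ) (hδ2 : δ ^ 2 ≤ ρ ^ 2)
    (hε : 0 ≤ ε) (hε2 : ε ≤ 2 * ρ) (hq : |(ε ^ 2 - 2 * ε * δ) / 2| ≤ 2 * ρ * ε)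
    (h : τ * (γ * ((ε ^ 2 - 2 * ε * δ) / 2) + σ * ε)
      ≤ S * ((ρ ^ 2 - δ ^ 2) / 2) + 6 * B ^ 2 * C * ρ ^ 3) :
    ε ≤ (B + 6 * B ^ 2 * C + 4 * B ^ 2) / (m * m) * ρ ^ 2 := by
  have hτ0 : 0 < τ := hm.trans_le hτ
  have hσ0 : 0 < σ := hm.trans_le hσ
  have hδ20 : 0 ≤ δ ^ 2 := sq_nonneg _
  have k1 : |τ * (γ * ((ε ^ 2 - 2 * ε * δ) / 2))| ≤ B * (B * (4 * ρ ^ 2)) := by
    rw [abs_mul, abs_mul, abs_of_pos hτ0]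
    refine mul_le_mul hτB (mul_le_mul hγ (hq.trans ?_) (abs_nonneg _) (by linarith))
      (by positivity) (by linarith)
    have : 2 * ρ * ε ≤ 2 * ρ * (2 * ρ) := mul_le_mul_of_nonneg_left hε2 (by linarith)
    linarith
  have k2 : S * ((ρ ^ 2 - δ ^ 2) / 2) ≤ B * ρ ^ 2 := by
    refine (le_abs_self _).trans ?_
    rw [abs_mul]
    refine mul_le_mul hS ?_ (abs_nonneg _) (by linarith)
    rw [abs_of_nonneg (by linarith)]; linarith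
  have k3 : 6 * B ^ 2 * C * ρ ^ 3 ≤ 6 * B ^ 2 * C * ρ ^ 2 :=
    mul_le_mul_of_nonneg_left hρ32 (by positivity)
  have k4 : (m * m) * ε ≤ τ * σ * ε :=
    mul_le_mul_of_nonneg_right (mul_le_mul hτ hσ hm.le hτ0.le) hε
  have k5 : τ * (γ * ((ε ^ 2 - 2 * ε * δ) / 2) + σ * ε)
      = τ * (γ * ((ε ^ 2 - 2 * ε * δ) / 2)) + τ * σ * ε := by ring
  have k1' := neg_le_of_abs_le k1
  rw [k5] at h
  rw [div_mul_eq_mul_div, le_div_iff₀ (by positivity)]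
  linarith

/-- `ε` to second order -/
theorem step2 {m B C K2 τ σ γ S ρ δ ε : ℝ} (hm : 0 < m) (hB : 1 ≤ B) (hC : 0 ≤ C) (hK2 : 0 ≤ K2)
    (hτ : m ≤ τ) (hτB : τ ≤ B) (hγ : |γ| ≤ B)
    (hρ0 : 0 ≤ ρ) (hε : ε ≤ K2 * ρ ^ 2) (hq : |(ε ^ 2 - 2 * ε * δ) / 2| ≤ 2 * ρ * ε)
    (h : τ * (γ * ((ε ^ 2 - 2 * ε * δ) / 2) + σ * ε)
      ≤ S * ((ρ ^ 2 - δ ^ 2) / 2) + 6 * B ^ 2 * C * ρ ^ 3) :
    τ * σ * ε ≤ S * ((ρ ^ 2 - δ ^ 2) / 2) + (6 * B ^ 2 * C + 2 * B ^ 2 * K2) * ρ ^ 3 := by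
  have hτ0 : 0 < τ := hm.trans_le hτ
  have k1 : |τ * (γ * ((ε ^ 2 - 2 * ε * δ) / 2))| ≤ B * (B * (2 * ρ * (K2 * ρ ^ 2))) := by
    rw [abs_mul, abs_mul, abs_of_pos hτ0]
    refine mul_le_mul hτB (mul_le_mul hγ (hq.trans ?_) (abs_nonneg _) (by linarith))
      (by positivity) (by linarith)
    exact mul_le_mul_of_nonneg_left hε (by linarith)
  have k5 : τ * (γ * ((ε ^ 2 - 2 * ε * δ) / 2) + σ * ε)
      = τ * (γ * ((ε ^ 2 - 2 * ε * δ) / 2)) + τ * σ * ε := by ring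
  have k1' := neg_le_of_abs_le k1
  rw [k5] at h
  have k6 : B * (B * (2 * ρ * (K2 * ρ ^ 2))) = 2 * B ^ 2 * K2 * ρ ^ 3 := by ring
  rw [k6] at k1'
  linarith

/-- the quadratic part -/
theorem step3 {m B K2 K3 s θ τ σ S ρ δ ε : ℝ} (hm : 0 < m) (hB : 1 ≤ B) (hK2 : 0 ≤ K2)
    (hK3 : 0 ≤ K3) (hs0 : 0 < s) (hs1 : s < 1) (hsB : (1 - s)⁻¹ ≤ B) (hθ : 0 ≤ θ) (hθB : θ ≤ B)
    (hτ : m ≤ τ) (hσ : m ≤ σ) (hρ0 : 0 ≤ ρ) (hρ3 : 0 ≤ ρ ^ 3) (hε : ε ≤ K2 * ρ ^ 2)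
    (hq : |(ε ^ 2 - 2 * ε * δ) / 2| ≤ 2 * ρ * ε)
    (h : τ * σ * ε ≤ S * ((ρ ^ 2 - δ ^ 2) / 2) + K3 * ρ ^ 3) :
    (s * θ + δ) ^ 2 / (2 * s) + ((1 - s) * θ - δ + ε) ^ 2 / (2 * (1 - s)) - θ ^ 2 / 2 ≤
      (1 / (s * (1 - s)) * δ ^ 2 + θ * S / (τ * σ) * (ρ ^ 2 - δ ^ 2)) / 2
        + (B / (m * m) * K3 + 2 * B * K2) * ρ ^ 3 := by
  have hτ0 : 0 < τ := hm.trans_le hτ
  have hσ0 : 0 < σ := hm.trans_le hσ
  have h1s : 0 < 1 - s := by linarith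
  have e1 : (s * θ + δ) ^ 2 / (2 * s) + ((1 - s) * θ - δ + ε) ^ 2 / (2 * (1 - s)) - θ ^ 2 / 2
      = θ * ε + 1 / (s * (1 - s)) * δ ^ 2 / 2 + (1 - s)⁻¹ * ((ε ^ 2 - 2 * ε * δ) / 2) := by
    field_simp
    ring
  have k1 : (1 - s)⁻¹ * ((ε ^ 2 - 2 * ε * δ) / 2) ≤ 2 * B * K2 * ρ ^ 3 := by
    refine (le_abs_self _).trans ?_
    rw [abs_mul, abs_of_pos (inv_pos.2 h1s)]
    have : 2 * B * K2 * ρ ^ 3 = B * (2 * ρ * (K2 * ρ ^ 2)) := by ring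
    rw [this]
    refine mul_le_mul hsB (hq.trans ?_) (abs_nonneg _) (by linarith)
    exact mul_le_mul_of_nonneg_left hε (by linarith)
  have k2 : θ * ε ≤ θ * S / (τ * σ) * ((ρ ^ 2 - δ ^ 2) / 2) + B / (m * m) * K3 * ρ ^ 3 := by
    have e2 : θ * ε = θ / (τ * σ) * (τ * σ * ε) := by field_simp
    have e3 : θ / (τ * σ) * (τ * σ * ε)
        ≤ θ / (τ * σ) * (S * ((ρ ^ 2 - δ ^ 2) / 2) + K3 * ρ ^ 3) :=
      mul_le_mul_of_nonneg_left h (by positivity)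
    have e4 : θ / (τ * σ) * (K3 * ρ ^ 3) ≤ B / (m * m) * (K3 * ρ ^ 3) := by
      refine mul_le_mul_of_nonneg_right ?_ (by positivity)
      exact div_le_div₀ (by linarith) hθB (by positivity) (mul_le_mul hτ hσ hm.le hτ0.le)
    have e5 : θ / (τ * σ) * (S * ((ρ ^ 2 - δ ^ 2) / 2) + K3 * ρ ^ 3)
        = θ * S / (τ * σ) * ((ρ ^ 2 - δ ^ 2) / 2) + θ / (τ * σ) * (K3 * ρ ^ 3) := by ring
    rw [e2]
    rw [e5] at e3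
    have e6 : B / (m * m) * K3 * ρ ^ 3 = B / (m * m) * (K3 * ρ ^ 3) := by ring
    rw [e6]
    linarith
  rw [e1]
  have e7 : (1 / (s * (1 - s)) * δ ^ 2 + θ * S / (τ * σ) * (ρ ^ 2 - δ ^ 2)) / 2
      = 1 / (s * (1 - s)) * δ ^ 2 / 2 + θ * S / (τ * σ) * ((ρ ^ 2 - δ ^ 2) / 2) := by ring
  rw [e7]
  linarith

theorem EX : CDc.Blk_EX := by
  intro κ s θ₀ θ₁ hs0 hs1 h0 h01 hκ
  have h1s : 0 < 1 - s := by linarith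
  have hθ1 : 0 < θ₁ := h0.trans_le h01
  have hsq : 0 ≤ √κ := Real.sqrt_nonneg _
  obtain ⟨m1, hm1, hlow1⟩ := sn_lower (κ := κ) (a₀ := s * θ₀) (a₁ := s * θ₁) (by positivity)
    (mul_le_mul_of_nonneg_left h01 hs0.le) (lt_of_le_of_lt (mul_le_mul_of_nonneg_left
      (mul_le_of_le_one_left hθ1.le hs1.le) hsq) hκ)
  obtain ⟨m2, hm2, hlow2⟩ := sn_lower (κ := κ) (a₀ := (1 - s) * θ₀) (a₁ := (1 - s) * θ₁)
    (by positivity) (mul_le_mul_of_nonneg_left h01 h1s.le)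
    (lt_of_le_of_lt (mul_le_mul_of_nonneg_left
      (mul_le_of_le_one_left hθ1.le (by linarith)) hsq) hκ)
  obtain ⟨m, hm, hmm1, hmm2⟩ : ∃ m > 0, m ≤ m1 ∧ m ≤ m2 :=
    ⟨min m1 m2, lt_min hm1 hm2, min_le_left _ _, min_le_right _ _⟩
  obtain ⟨B0, hB0, hTB0, hup0⟩ := upper κ θ₁
  obtain ⟨B, hB, hTB, hsB, hup⟩ : ∃ B ≥ 1, θ₁ ≤ B ∧ (1 - s)⁻¹ ≤ B ∧
      ∀ a, |a| ≤ θ₁ → |sn κ a| ≤ B ∧ |cs κ a| ≤ B :=
    ⟨max B0 (1 - s)⁻¹, hB0.trans (le_max_left _ _), hTB0.trans (le_max_left _ _),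
      le_max_right _ _, fun a ha => ⟨(hup0 a ha).1.trans (le_max_left _ _),
        (hup0 a ha).2.trans (le_max_left _ _)⟩⟩
  have hC := C0_nonneg κ
  obtain ⟨C, hCC⟩ : ∃ C, C = C0 κ := ⟨_, rfl⟩
  rw [← hCC] at hC
  obtain ⟨K2, hK2⟩ : ∃ K2, K2 = (B + 6 * B ^ 2 * C + 4 * B ^ 2) / (m * m) := ⟨_, rfl⟩
  have hK20 : 0 ≤ K2 := by rw [hK2]; positivity
  obtain ⟨K3, hK3⟩ : ∃ K3, K3 = 6 * B ^ 2 * C + 2 * B ^ 2 * K2 := ⟨_, rfl⟩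
  have hK30 : 0 ≤ K3 := by rw [hK3]; positivity
  have hK40 : 0 ≤ B / (m * m) * K3 + 2 * B * K2 := by positivity
  refine ⟨K2 + (B / (m * m) * K3 + 2 * B * K2), by linarith, 1, one_pos, ?_⟩
  intro θ hθ ρ hρ Dx Dy hDx hDy htri h
  have hθ0 : 0 < θ := h0.trans_le hθ.1
  have hρ3 : 0 ≤ ρ ^ 3 := pow_nonneg hρ.1 3
  have hρ2 : 0 ≤ ρ ^ 2 := pow_nonneg hρ.1 2
  have hρ32 : ρ ^ 3 ≤ ρ ^ 2 := by
    have : ρ ^ 3 = ρ ^ 2 * ρ := by ring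
    rw [this]; exact mul_le_of_le_one_right hρ2 hρ.2
  obtain ⟨δ, hδ⟩ : ∃ δ, δ = Dx - s * θ := ⟨_, rfl⟩
  obtain ⟨ε, hε⟩ : ∃ ε, ε = Dx + Dy - θ := ⟨_, rfl⟩
  have hDx' : Dx = s * θ + δ := by rw [hδ]; ring
  have hDy' : Dy = (1 - s) * θ - δ + ε := by rw [hδ, hε]; ring
  have hε0 : 0 ≤ ε := by rw [hε]; linarith
  rw [← hδ] at hDx
  have hDy2 : |ε - δ| ≤ ρ := by
    have : Dy - (1 - s) * θ = ε - δ := by rw [hDy']; ring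
    rwa [this] at hDy
  have hε2 : ε ≤ 2 * ρ := by
    have a1 := (abs_le.1 hDx).2
    have a2 := (abs_le.1 hDy2).2
    linarith
  have hδ2 : δ ^ 2 ≤ ρ ^ 2 := by
    rw [← sq_abs δ]; exact pow_le_pow_left₀ (abs_nonneg _) hDx 2
  obtain ⟨b, hb⟩ : ∃ b, b = (1 - s) * θ := ⟨_, rfl⟩
  have hb0 : 0 < b := by rw [hb]; positivity
  have hbθ : b ≤ θ := by rw [hb]; exact mul_le_of_le_one_left hθ0.le (by linarith)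
  have hτ : m ≤ sn κ (s * θ) := hmm1.trans (hlow1 _ ⟨mul_le_mul_of_nonneg_left hθ.1 hs0.le,
    mul_le_mul_of_nonneg_left hθ.2 hs0.le⟩)
  have hσ : m ≤ sn κ b := by
    rw [hb]
    exact hmm2.trans (hlow2 _ ⟨mul_le_mul_of_nonneg_left hθ.1 h1s.le,
      mul_le_mul_of_nonneg_left hθ.2 h1s.le⟩)
  have ub := hup b (by rw [abs_of_pos hb0]; exact hbθ.trans hθ.2)
  have uθ := hup θ (by rw [abs_of_pos hθ0]; exact hθ.2)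
  have us := hup (s * θ) (by
    rw [abs_of_pos (by positivity)]
    exact (mul_le_of_le_one_left hθ0.le hs1.le).trans hθ.2)
  have r1 := errs (κ := κ) hDy2 hρ.2
  have r2 := errs (κ := κ) hDx hρ.2
  have r3 := errs (κ := κ) (h := ρ) (ρ := ρ) (by rw [abs_of_nonneg hρ.1]) hρ.2
  rw [← hCC] at r1 r2 r3
  have hmain : sn κ (s * θ) * (cs κ b * (md κ (ε - δ) - md κ δ) + sn κ b * (sn κ (ε - δ) + sn κ δ))
      ≤ sn κ θ * (md κ ρ - md κ δ) := by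
    have g1 : Dy = b + (ε - δ) := by rw [hDy', hb]; ring
    have g2 : Dx - θ = -(b - δ) := by rw [hDx', hb]; ring
    rw [← hδ, g1, g2, md_neg, md_add κ b (ε - δ), md_sub κ b δ] at h
    refine le_trans (le_of_eq ?_) h
    ring
  have w0 := step0 hB hC (hm.trans_le hτ) ((le_abs_self _).trans us.1) (hm.trans_le hσ)
    ((le_abs_self _).trans ub.1) ub.2 uθ.1 hρ.1 r1.2 r2.2 r3.2 r1.1 r2.1 hmain
  have wq := quad hε0 hDx hε2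
  have w1 := step1 hm hB hC hτ ((le_abs_self _).trans us.1) hσ ub.2 uθ.1 hρ2 hρ32 hρ.1 hδ2 hε0 hε2
    wq w0
  rw [← hK2] at w1
  have w2 := step2 hm hB hC hK20 hτ ((le_abs_self _).trans us.1) ub.2 hρ.1 w1 wq w0
  rw [← hK3] at w2
  have w3 := step3 (s := s) (θ := θ) hm hB hK20 hK30 hs0 hs1 hsB hθ0.le (hθ.2.trans hTB) hτ hσ
    hρ.1 hρ3 w1 wq w2
  constructor
  · rw [← hε]
    refine w1.trans ?_
    refine mul_le_mul_of_nonneg_right ?_ hρ2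
    linarith
  · rw [← hδ, hDx', hDy', ← hb]
    rw [hb]
    rw [hb] at w3
    refine w3.trans ?_
    have : (B / (m * m) * K3 + 2 * B * K2) * ρ ^ 3
        ≤ (K2 + (B / (m * m) * K3 + 2 * B * K2)) * ρ ^ 3 :=
      mul_le_mul_of_nonneg_right (by linarith) hρ3
    linarith

end Vale.Agent.P233.H992.CDEX
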