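import Vale.Agent.P233.H715.CDSub
import Vale.Agent.P233.H992.CDReal

/-! P233, stage 3a (helper992): block HS of H715/CDSub.lean, the hinge comparison to second order. -/

set_option linter.all false

open Real Set Filter Topology

namespace Vale.Agent.P233.H992.CDHS

open Vale.Agent.P233.H992.CDR

/-- the algebraic core: `σ = sn a`, `γ = cs a` -/
theorem core {a₀ m B C σ γ a ρ c δ : ℝ} (ha0 : 0 < a₀) (hm : 0 < m) (hB : 1 ≤ B) (hC : 0 ≤ C)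
    (hσ : m ≤ σ) (hσB : σ ≤ B) (hγ : |γ| ≤ B) (ha : a₀ ≤ a) (haB : a ≤ B) (hρ0 : 0 ≤ ρ)
    (hρ1 : ρ ≤ 1) (hc : |c| ≤ 1) (hδ : |δ| ≤ ρ) {d1 d2 e3 e4 : ℝ}
    (h1 : |d1 - δ ^ 2 / 2| ≤ C * ρ ^ 3) (h2 : |d2 - ρ ^ 2 / 2| ≤ C * ρ ^ 3)
    (h3 : |e3 - δ| ≤ C * ρ ^ 3) (h4 : |e4 - ρ| ≤ C * ρ ^ 3)
    (h : γ * (d1 - d2) + σ * (e3 + c * e4) ≤ 0) :
    σ * (δ + c * ρ) ≤ γ * ((ρ ^ 2 - δ ^ 2) / 2) + 4 * B * C * ρ ^ 3 := by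
  have hσ0 : 0 < σ := hm.trans_le hσ
  have k1 : |γ * ((d1 - δ ^ 2 / 2) - (d2 - ρ ^ 2 / 2))| ≤ B * (2 * (C * ρ ^ 3)) := by
    rw [abs_mul]
    refine mul_le_mul hγ ?_ (abs_nonneg _) (by linarith)
    refine (abs_sub _ _).trans ?_
    linarith
  have k2 : |σ * ((e3 - δ) + c * (e4 - ρ))| ≤ B * (2 * (C * ρ ^ 3)) := by
    rw [abs_mul, abs_of_pos hσ0]
    refine mul_le_mul hσB ?_ (abs_nonneg _) (by linarith)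
    refine (abs_add_le _ _).trans ?_
    have : |c * (e4 - ρ)| ≤ 1 * (C * ρ ^ 3) := by
      rw [abs_mul]
      exact mul_le_mul hc h4 (abs_nonneg _) zero_le_one
    linarith
  have k1' := neg_le_of_abs_le k1
  have k2' := neg_le_of_abs_le k2
  nlinarith [k1', k2', h]

/-- upper bound of `y = δ + cρ` -/
theorem y_up {m B C σ γ ρ δ y : ℝ} (hm : 0 < m) (hB : 1 ≤ B) (hC : 0 ≤ C)
    (hσ : m ≤ σ) (hγ : |γ| ≤ B) (hρ2 : 0 ≤ ρ ^ 2) (hρ32 : ρ ^ 3 ≤ ρ ^ 2) (hδ2 : δ ^ 2 ≤ ρ ^ 2)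
    (h : σ * y ≤ γ * ((ρ ^ 2 - δ ^ 2) / 2) + 4 * B * C * ρ ^ 3) :
    y ≤ (B / 2 + 4 * B * C) / m * ρ ^ 2 := by
  have hδ20 : 0 ≤ δ ^ 2 := sq_nonneg _
  have e1 : γ * ((ρ ^ 2 - δ ^ 2) / 2) ≤ B * (ρ ^ 2 / 2) := by
    have : |γ * ((ρ ^ 2 - δ ^ 2) / 2)| ≤ B * (ρ ^ 2 / 2) := by
      rw [abs_mul]
      refine mul_le_mul hγ ?_ (abs_nonneg _) (by linarith)
      rw [abs_of_nonneg (by linarith)]; linarith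
    exact (le_abs_self _).trans this
  have e2 : 4 * B * C * ρ ^ 3 ≤ 4 * B * C * ρ ^ 2 :=
    mul_le_mul_of_nonneg_left hρ32 (by positivity)
  have e3 : σ * y ≤ (B / 2 + 4 * B * C) * ρ ^ 2 := by linarith
  rcases le_or_gt y 0 with hy0 | hy0
  · exact hy0.trans (by positivity)
  · have e4 : m * y ≤ σ * y := mul_le_mul_of_nonneg_right hσ hy0.le
    rw [div_mul_eq_mul_div, le_div_iff₀ hm]
    linarith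

/-- lower bound of `y` -/
theorem y_lo {a₀ Q K a ρ c δ q y : ℝ} (ha0 : 0 < a₀) (hQ0 : 0 ≤ Q) (hK : 0 ≤ K)
    (ha : a₀ ≤ a) (hρ2 : 0 ≤ ρ ^ 2) (hρ3 : 0 ≤ ρ ^ 3) (hδ2 : δ ^ 2 ≤ ρ ^ 2) (hc2 : c ^ 2 ≤ 1)
    (hq1 : -Q ≤ q) (e0 : a * y = a * δ + a * ρ * c)
    (hcon : -(a * ρ * c) + ρ ^ 2 / 2 * (c ^ 2 + (1 - c ^ 2) * q) + K * ρ ^ 3
      < a * δ + δ ^ 2 / 2) :
    -((1 + Q) / (2 * a₀) * ρ ^ 2) ≤ y := by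
  have e1 : ρ ^ 2 / 2 * (-Q) ≤ ρ ^ 2 / 2 * (c ^ 2 + (1 - c ^ 2) * q) := by
    refine mul_le_mul_of_nonneg_left ?_ (by positivity)
    have f1 := mul_nonneg (sub_nonneg.2 hc2) (by linarith : 0 ≤ q + Q)
    have f2 := mul_nonneg (sq_nonneg c) hQ0
    have f3 := sq_nonneg c
    linarith
  have e2 : 0 ≤ K * ρ ^ 3 := by positivity
  have e3 : -((1 + Q) / 2 * ρ ^ 2) ≤ a * y := by
    have f4 : -((1 + Q) / 2 * ρ ^ 2) = ρ ^ 2 / 2 * (-Q) - ρ ^ 2 / 2 := by ring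
    rw [f4, e0]
    linarith
  have e4 : -((1 + Q) / (2 * a₀) * ρ ^ 2) = -((1 + Q) / 2 * ρ ^ 2) / a₀ := by
    field_simp
  rcases le_or_gt 0 y with hy0 | hy0
  · have : 0 ≤ (1 + Q) / (2 * a₀) * ρ ^ 2 := by positivity
    linarith
  · have e5 : a * y ≤ a₀ * y := mul_le_mul_of_nonpos_right ha hy0.le
    rw [e4, div_le_iff₀ ha0]
    linarith

theorem y_sq {K4 ρ c δ y : ℝ} (hK40 : 0 ≤ K4) (hρ0 : 0 ≤ ρ) (hρ1 : ρ ≤ 1) (hc : |c| ≤ 1)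
    (hy : y = δ + c * ρ) (y3 : |y| ≤ K4 * ρ ^ 2) :
    |δ ^ 2 - c ^ 2 * ρ ^ 2| ≤ K4 * (K4 + 2) * ρ ^ 3 := by
  have e1 : δ ^ 2 - c ^ 2 * ρ ^ 2 = y * (y - 2 * (c * ρ)) := by rw [hy]; ring
  rw [e1, abs_mul]
  have e2 : |y - 2 * (c * ρ)| ≤ (K4 + 2) * ρ := by
    refine (abs_sub _ _).trans ?_
    rw [abs_mul, abs_mul, abs_of_nonneg hρ0, abs_two]
    have e3 : K4 * ρ ^ 2 ≤ K4 * ρ := by
      refine mul_le_mul_of_nonneg_left ?_ hK40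
      nlinarith
    have e4 : |c| * ρ ≤ 1 * ρ := mul_le_mul_of_nonneg_right hc hρ0
    linarith
  calc |y| * |y - 2 * (c * ρ)| ≤ (K4 * ρ ^ 2) * ((K4 + 2) * ρ) :=
        mul_le_mul y3 e2 (abs_nonneg _) (by positivity)
    _ = K4 * (K4 + 2) * ρ ^ 3 := by ring

theorem y_fin {Q K5 K6 a ρ c δ q y : ℝ} (hK6 : a * y ≤ q * ((ρ ^ 2 - δ ^ 2) / 2) + K6 * ρ ^ 3)
    (hq : |q| ≤ Q) (y4 : |δ ^ 2 - c ^ 2 * ρ ^ 2| ≤ K5 * ρ ^ 3)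
    (e0 : a * y = a * δ + a * ρ * c) :
    a * δ + δ ^ 2 / 2 ≤ -(a * ρ * c) + ρ ^ 2 / 2 * (c ^ 2 + (1 - c ^ 2) * q)
      + ((1 + Q) * K5 / 2 + K6) * ρ ^ 3 := by
  have y6 : (1 - q) * (δ ^ 2 - c ^ 2 * ρ ^ 2) ≤ (1 + Q) * (K5 * ρ ^ 3) := by
    refine (le_abs_self _).trans ?_
    rw [abs_mul]
    have hQ := (abs_nonneg q).trans hq
    refine mul_le_mul ?_ y4 (abs_nonneg _) (by linarith)
    refine (abs_sub _ _).trans ?_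
    rw [abs_one]; linarith
  have y8 : (1 - q) * (δ ^ 2 - c ^ 2 * ρ ^ 2)
      = δ ^ 2 - c ^ 2 * ρ ^ 2 - q * δ ^ 2 + q * c ^ 2 * ρ ^ 2 := by ring
  have y9 : ρ ^ 2 / 2 * (c ^ 2 + (1 - c ^ 2) * q)
      = (c ^ 2 * ρ ^ 2 + q * ρ ^ 2 - q * c ^ 2 * ρ ^ 2) / 2 := by ring
  have y10 : q * ((ρ ^ 2 - δ ^ 2) / 2) = (q * ρ ^ 2 - q * δ ^ 2) / 2 := by ring
  have y11 : ((1 + Q) * K5 / 2 + K6) * ρ ^ 3 = (1 + Q) * (K5 * ρ ^ 3) / 2 + K6 * ρ ^ 3 := by ring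
  rw [y8] at y6
  rw [y10, e0] at hK6
  rw [y9, y11]
  linarith

/-- the second step -/
theorem core2 {a₀ m B C : ℝ} (ha0 : 0 < a₀) (hm : 0 < m) (hB : 1 ≤ B) (hC : 0 ≤ C) :
    ∃ K ≥ 0, ∀ σ γ a ρ c δ : ℝ, m ≤ σ → σ ≤ B → |γ| ≤ B → a₀ ≤ a → a ≤ B → 0 ≤ ρ → ρ ≤ 1 →
      |c| ≤ 1 → |δ| ≤ ρ →
      σ * (δ + c * ρ) ≤ γ * ((ρ ^ 2 - δ ^ 2) / 2) + 4 * B * C * ρ ^ 3 →
      a * δ + δ ^ 2 / 2 ≤ - (a * ρ * c)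
        + ρ ^ 2 / 2 * (c ^ 2 + (1 - c ^ 2) * (a * γ / σ)) + K * ρ ^ 3 := by
  obtain ⟨Q, hQ⟩ : ∃ Q, Q = B * B / m := ⟨_, rfl⟩
  have hQ0 : 0 ≤ Q := by rw [hQ]; positivity
  obtain ⟨K2, hK2⟩ : ∃ K2, K2 = (B / 2 + 4 * B * C) / m := ⟨_, rfl⟩
  have hK20 : 0 ≤ K2 := by rw [hK2]; positivity
  obtain ⟨K3, hK3⟩ : ∃ K3, K3 = (1 + Q) / (2 * a₀) := ⟨_, rfl⟩
  have hK30 : 0 ≤ K3 := by rw [hK3]; positivity
  obtain ⟨K4, hK4⟩ : ∃ K4, K4 = K2 + K3 := ⟨_, rfl⟩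
  have hK40 : 0 ≤ K4 := by rw [hK4]; positivity
  obtain ⟨K5, hK5⟩ : ∃ K5, K5 = K4 * (K4 + 2) := ⟨_, rfl⟩
  have hK50 : 0 ≤ K5 := by rw [hK5]; positivity
  obtain ⟨K6, hK6⟩ : ∃ K6, K6 = B / m * (4 * B * C) := ⟨_, rfl⟩
  have hK60 : 0 ≤ K6 := by rw [hK6]; positivity
  refine ⟨(1 + Q) * K5 / 2 + K6, by positivity, ?_⟩
  intro σ γ a ρ c δ hσ hσB hγ ha haB hρ0 hρ1 hc hδ h
  have hσ0 : 0 < σ := hm.trans_le hσ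
  have ha' : 0 < a := ha0.trans_le ha
  have hρ3 : 0 ≤ ρ ^ 3 := by positivity
  have hρ2 : 0 ≤ ρ ^ 2 := by positivity
  have hρ32 : ρ ^ 3 ≤ ρ ^ 2 := by
    have : ρ ^ 3 = ρ ^ 2 * ρ := by ring
    rw [this]; exact mul_le_of_le_one_right hρ2 hρ1
  have hδ2 : δ ^ 2 ≤ ρ ^ 2 := by
    rw [← sq_abs δ]; exact pow_le_pow_left₀ (abs_nonneg _) hδ 2
  have hc2 : c ^ 2 ≤ 1 := by
    rw [← sq_abs c]; exact pow_le_one₀ (abs_nonneg _) hc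
  obtain ⟨q, hq⟩ : ∃ q, q = a * γ / σ := ⟨_, rfl⟩
  have hqa : |q| ≤ Q := by
    rw [hq, hQ, abs_div, abs_mul, abs_of_pos ha', abs_of_pos hσ0]
    exact div_le_div₀ (by positivity) (mul_le_mul haB hγ (abs_nonneg _) (by linarith)) hm hσ
  rw [← hq]
  by_contra hcon
  push Not at hcon
  obtain ⟨y, hy⟩ : ∃ y, y = δ + c * ρ := ⟨_, rfl⟩
  rw [← hy] at h
  have e0 : a * y = a * δ + a * ρ * c := by rw [hy]; ring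
  have y1 := y_up hm hB hC hσ hγ hρ2 hρ32 hδ2 h
  rw [← hK2] at y1
  have y2 := y_lo ha0 hQ0 (by positivity : 0 ≤ (1 + Q) * K5 / 2 + K6) ha hρ2 hρ3 hδ2 hc2
    (abs_le.1 hqa).1 e0 hcon
  rw [← hK3] at y2
  have y3 : |y| ≤ K4 * ρ ^ 2 := by
    rw [abs_le]
    have e1 : 0 ≤ K3 * ρ ^ 2 := mul_nonneg hK30 hρ2
    have e2 : 0 ≤ K2 * ρ ^ 2 := mul_nonneg hK20 hρ2
    rw [hK4]
    constructor
    · linarith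
    · linarith
  have y4 := y_sq hK40 hρ0 hρ1 hc hy y3
  rw [← hK5] at y4
  have y5 : a * y ≤ q * ((ρ ^ 2 - δ ^ 2) / 2) + K6 * ρ ^ 3 := by
    have e1 : a * y = a / σ * (σ * y) := by field_simp
    have e2 : a / σ * (σ * y) ≤ a / σ * (γ * ((ρ ^ 2 - δ ^ 2) / 2) + 4 * B * C * ρ ^ 3) :=
      mul_le_mul_of_nonneg_left h (by positivity)
    have e3 : a / σ * (4 * B * C * ρ ^ 3) ≤ K6 * ρ ^ 3 := by
      rw [hK6, ← mul_assoc]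
      refine mul_le_mul_of_nonneg_right ?_ hρ3
      refine mul_le_mul_of_nonneg_right ?_ (by positivity)
      exact div_le_div₀ (by positivity) haB hm hσ
    have e4 : a / σ * (γ * ((ρ ^ 2 - δ ^ 2) / 2) + 4 * B * C * ρ ^ 3)
        = q * ((ρ ^ 2 - δ ^ 2) / 2) + a / σ * (4 * B * C * ρ ^ 3) := by
      rw [hq]; field_simp
    rw [e1]
    rw [e4] at e2
    linarith
  exact absurd (y_fin y5 hqa y4 e0) (not_le.2 hcon)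

theorem HS : CDc.Blk_HS := by
  intro κ a₀ a₁ h0 h01 hκ
  obtain ⟨m, hm, hlow⟩ := sn_lower h0 h01 hκ
  obtain ⟨B, hB, hTB, hup⟩ := upper κ a₁
  obtain ⟨K, hK, hcore⟩ := core2 (a₀ := a₀) (m := m) (B := B) (C := C0 κ) h0 hm hB (C0_nonneg κ)
  refine ⟨K, hK, 1, one_pos, ?_⟩
  intro a ha ρ hρ c hc D hD h
  have ha0 : 0 < a := h0.trans_le ha.1
  obtain ⟨u1, u2⟩ := hup a (by rw [abs_of_pos ha0]; exact ha.2)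
  have hcc : |c| ≤ 1 := abs_le.2 ⟨hc.1, hc.2⟩
  set δ := D - a with hδ
  have hDa : D = a + δ := by rw [hδ]; ring
  obtain ⟨s1, m1⟩ := errs (κ := κ) (h := δ) hD hρ.2
  obtain ⟨s2, m2⟩ := errs (κ := κ) (h := ρ) (ρ := ρ) (by rw [abs_of_nonneg hρ.1]) hρ.2
  have hmain : cs κ a * (md κ δ - md κ ρ) + sn κ a * (sn κ δ + c * sn κ ρ) ≤ 0 := by
    rw [hDa, md_add κ a δ, md_sub κ a ρ] at h
    linarith
  have k1 := core h0 hm hB (C0_nonneg κ) (hlow a ha) ((le_abs_self _).trans u1) u2 ha.1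
    (ha.2.trans hTB) hρ.1 hρ.2 hcc hD m1 m2 s1 s2 hmain
  have k2 := hcore (sn κ a) (cs κ a) a ρ c δ (hlow a ha) ((le_abs_self _).trans u1) u2 ha.1
    (ha.2.trans hTB) hρ.1 hρ.2 hcc hD k1
  have e : D ^ 2 / 2 = a ^ 2 / 2 + (a * δ + δ ^ 2 / 2) := by rw [hDa]; ring
  rw [e]
  linarith

end Vale.Agent.P233.H992.CDHS
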