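import Mathlib.MeasureTheory.Measure.Hausdorff
import Mathlib.MeasureTheory.Covering.Vitali
import Mathlib.Tactic

/-! ### The upper density of the Hausdorff measure

At almost every point the upper density of a locally finite Hausdorff measure is bounded: the
`5r`-covering lemma. -/

open MeasureTheory Measure Filter Topology Metric Set
open scoped ENNReal NNReal

namespace Vale.Agent.P233.H992

variable {M : Type*} [MetricSpace M] [SecondCountableTopology M] [MeasurableSpace M] [BorelSpace M]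

/-- One open set: if every point of `B` has small balls with large measure, then
`ℋᵈ B ≤ (10ᵈ / K) ℋᵈ W` for every open `W ⊇ B`. -/
theorem haus_le_open {d K : ℝ} (hd : 0 ≤ d) (hK : 0 < K) {B W : Set M} (hW : IsOpen W)
    (hBW : B ⊆ W)
    (hB : ∀ x ∈ B, ∃ᶠ r in 𝓝[>] (0 : ℝ), ENNReal.ofReal (K * r ^ d) ≤ μH[d] (closedBall x r)) :
    μH[d] B ≤ ENNReal.ofReal (10 ^ d / K) * μH[d] W := by
  classical
  set T : ℕ → Set (M × ℝ) := fun k => {p | p.1 ∈ B ∧ 0 < p.2 ∧ p.2 ≤ ((k : ℝ) + 1)⁻¹ ∧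
    closedBall p.1 p.2 ⊆ W ∧ ENNReal.ofReal (K * p.2 ^ d) ≤ μH[d] (closedBall p.1 p.2)} with hT
  have hcov : ∀ k : ℕ, ∃ u ⊆ T k, (u.PairwiseDisjoint fun a => closedBall a.1 a.2) ∧
      ∀ a ∈ T k, ∃ b ∈ u, closedBall a.1 a.2 ⊆ closedBall b.1 (5 * b.2) := fun k =>
    Vitali.exists_disjoint_subfamily_covering_enlargement_closedBall (T k) (fun a => a.1)
      (fun a => a.2) (((k : ℝ) + 1)⁻¹) (fun a ha => ha.2.2.1) 5 (by norm_num)
  choose u hu hdisj hcovu using hcov
  have hcount : ∀ k, (u k).Countable := fun k =>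
    (hdisj k).countable_of_nonempty_interior fun a ha => by
      refine ⟨a.1, ?_⟩
      exact ball_subset_interior_closedBall (mem_ball_self (hu k ha).2.1)
  have hsum : ∀ k, ∑' a : u k, ediam (closedBall a.1.1 (5 * a.1.2)) ^ d
      ≤ ENNReal.ofReal (10 ^ d / K) * μH[d] W := by
    intro k
    have : Countable (u k) := (hcount k).to_subtype
    have h1 : ∀ a : u k, ediam (closedBall a.1.1 (5 * a.1.2)) ^ d
        ≤ ENNReal.ofReal (10 ^ d / K) * μH[d] (closedBall a.1.1 a.1.2) := by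
      intro a
      obtain ⟨-, hr, -, -, hm⟩ := hu k a.2
      have h2 : ediam (closedBall a.1.1 (5 * a.1.2)) ≤ ENNReal.ofReal (10 * a.1.2) := by
        rw [← Metric.closedEBall_ofReal (by positivity)]
        refine Metric.ediam_closedEBall_le.trans ?_
        rw [show (10 : ℝ) * a.1.2 = 2 * (5 * a.1.2) by ring, ENNReal.ofReal_mul (by norm_num)]
        simp
      calc ediam (closedBall a.1.1 (5 * a.1.2)) ^ d
          ≤ ENNReal.ofReal (10 * a.1.2) ^ d := ENNReal.rpow_le_rpow h2 hd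
        _ = ENNReal.ofReal (10 ^ d / K) * ENNReal.ofReal (K * a.1.2 ^ d) := by
            rw [ENNReal.ofReal_rpow_of_nonneg (by positivity) hd, ← ENNReal.ofReal_mul (by positivity),
              Real.mul_rpow (by norm_num) hr.le]
            congr 1
            field_simp
        _ ≤ _ := by gcongr
    calc ∑' a : u k, ediam (closedBall a.1.1 (5 * a.1.2)) ^ d
        ≤ ∑' a : u k, ENNReal.ofReal (10 ^ d / K) * μH[d] (closedBall a.1.1 a.1.2) :=
          ENNReal.tsum_le_tsum h1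
      _ = ENNReal.ofReal (10 ^ d / K) * ∑' a : u k, μH[d] (closedBall a.1.1 a.1.2) :=
          ENNReal.tsum_mul_left
      _ = ENNReal.ofReal (10 ^ d / K) * μH[d] (⋃ a : u k, closedBall a.1.1 a.1.2) := by
          rw [measure_iUnion]
          · intro a b hab
            exact hdisj k a.2 b.2 (fun h => hab (Subtype.ext h))
          · exact fun a => isClosed_closedBall.measurableSet
      _ ≤ _ := by
          gcongr
          exact iUnion_subset fun a => (hu k a.2).2.2.2.1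
  have : ∀ k, Countable (u k) := fun k => (hcount k).to_subtype
  refine (hausdorffMeasure_le_liminf_tsum d B (l := atTop)
    (fun k : ℕ => ENNReal.ofReal (10 * ((k : ℝ) + 1)⁻¹)) ?_
    (fun k (a : u k) => closedBall a.1.1 (5 * a.1.2)) ?_ ?_).trans ?_
  · have h : Tendsto (fun k : ℕ => 10 * ((k : ℝ) + 1)⁻¹) atTop (𝓝 (10 * 0)) := by
      refine Tendsto.const_mul _ ?_
      simpa only [one_div] using tendsto_one_div_add_atTop_nhds_zero_nat (𝕜 := ℝ)
    simpa using ENNReal.tendsto_ofReal h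
  · refine Eventually.of_forall fun k a => ?_
    obtain ⟨-, hr, hrk, -, -⟩ := hu k a.2
    rw [← Metric.closedEBall_ofReal (by positivity)]
    refine Metric.ediam_closedEBall_le.trans ?_
    rw [← ENNReal.ofReal_ofNat 2, ← ENNReal.ofReal_mul (by norm_num)]
    exact ENNReal.ofReal_le_ofReal (by linarith)
  · refine Eventually.of_forall fun k x hx => ?_
    have hev : ∀ᶠ r in 𝓝[>] (0 : ℝ), 0 < r ∧ r ≤ ((k : ℝ) + 1)⁻¹ ∧ closedBall x r ⊆ W := by
      obtain ⟨ε, hε, hball⟩ := Metric.isOpen_iff.1 hW x (hBW hx)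
      have h1 : ∀ᶠ r in 𝓝[>] (0 : ℝ), r ∈ Ioo 0 (min ε (((k : ℝ) + 1)⁻¹)) :=
        Ioo_mem_nhdsGT (lt_min hε (by positivity))
      filter_upwards [h1] with r hr
      exact ⟨hr.1, (hr.2.trans_le (min_le_right _ _)).le,
        (closedBall_subset_ball (hr.2.trans_le (min_le_left _ _))).trans hball⟩
    obtain ⟨r, hr, h0, h1, h2⟩ := ((hB x hx).and_eventually hev).exists
    obtain ⟨b, hb, hsub⟩ := hcovu k (x, r) ⟨hx, h0, h1, h2, hr⟩
    exact mem_iUnion.2 ⟨⟨b, hb⟩, hsub (mem_closedBall_self h0.le)⟩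
  · exact (liminf_le_liminf (Eventually.of_forall hsum)).trans (by simp)

/-- The upper density of a locally finite Hausdorff measure is at most `10ᵈ` almost everywhere. -/
theorem ae_density_le {d K : ℝ} (hd : 0 ≤ d) (hK : 10 ^ d < K)
    [IsLocallyFiniteMeasure (μH[d] : Measure M)] :
    ∀ᵐ x ∂(μH[d] : Measure M), ∀ᶠ r in 𝓝[>] (0 : ℝ),
      μH[d] (closedBall x r) ≤ ENNReal.ofReal (K * r ^ d) := by
  have hK0 : 0 < K := lt_of_lt_of_le (by positivity) hK.le
  rw [ae_iff]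
  set A : Set M := {x | ¬ ∀ᶠ r in 𝓝[>] (0 : ℝ),
    μH[d] (closedBall x r) ≤ ENNReal.ofReal (K * r ^ d)} with hA
  refine measure_null_of_locally_null A fun x hx => ?_
  obtain ⟨V, hxV, hVo, hVfin⟩ := (μH[d] : Measure M).exists_isOpen_measure_lt_top x
  refine ⟨A ∩ V, inter_mem_nhdsWithin _ (hVo.mem_nhds hxV), ?_⟩
  have hfin : μH[d] (A ∩ V) < ∞ := (measure_mono inter_subset_right).trans_lt hVfin
  by_contra h0
  have hB : ∀ y ∈ A ∩ V, ∃ᶠ r in 𝓝[>] (0 : ℝ),
      ENNReal.ofReal (K * r ^ d) ≤ μH[d] (closedBall y r) := by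
    intro y hy
    have := hy.1
    rw [hA, Set.mem_ofPred_eq, not_eventually] at this
    exact this.mono fun r hr => (not_le.1 hr).le
  have hle : ∀ ε : ℝ≥0∞, 0 < ε → μH[d] (A ∩ V)
      ≤ ENNReal.ofReal (10 ^ d / K) * (μH[d] (A ∩ V) + ε) := by
    intro ε hε
    obtain ⟨W, hW1, hW2, hW3⟩ := (A ∩ V).exists_isOpen_le_add (μH[d] : Measure M) hε.ne'
    exact (haus_le_open hd hK0 hW2 hW1 hB).trans (by gcongr)
  have hle2 : μH[d] (A ∩ V) ≤ ENNReal.ofReal (10 ^ d / K) * μH[d] (A ∩ V) := by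
    have hlim : Tendsto (fun ε : ℝ≥0∞ => ENNReal.ofReal (10 ^ d / K) * (μH[d] (A ∩ V) + ε))
        (𝓝[>] 0) (𝓝 (ENNReal.ofReal (10 ^ d / K) * (μH[d] (A ∩ V) + 0))) := by
      refine ENNReal.Tendsto.const_mul ?_ (Or.inr ENNReal.ofReal_ne_top)
      exact (tendsto_const_nhds.add tendsto_id).mono_left nhdsWithin_le_nhds
    rw [add_zero] at hlim
    refine ge_of_tendsto hlim ?_
    filter_upwards [self_mem_nhdsWithin] with ε hε using hle ε hε
  have hlt : ENNReal.ofReal (10 ^ d / K) < 1 := by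
    rw [← ENNReal.ofReal_one]
    exact (ENNReal.ofReal_lt_ofReal_iff one_pos).2 ((div_lt_one hK0).2 hK)
  have hlt2 : ENNReal.ofReal (10 ^ d / K) * μH[d] (A ∩ V) < μH[d] (A ∩ V) := by
    calc ENNReal.ofReal (10 ^ d / K) * μH[d] (A ∩ V) < 1 * μH[d] (A ∩ V) :=
          (ENNReal.mul_lt_mul_iff_left h0 hfin.ne).2 hlt
      _ = _ := one_mul _
  exact absurd (lt_of_le_of_lt hle2 hlt2) (lt_irrefl _)

end Vale.Agent.P233.H992
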