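import Mathlib.MeasureTheory.Measure.Hausdorff
import Mathlib.MeasureTheory.Covering.Vitali
import Mathlib.Tactic

/-! ### Proper and geodesic spaces

A complete length space in which the balls of a fixed radius are totally bounded is proper and
geodesic. The balls of small radius are totally bounded if the measure of the balls satisfies a
growth condition of Bishop-Gromov type. -/

open MeasureTheory Measure Filter Topology Metric Set
open scoped ENNReal NNReal

namespace Vale.Agent.P233.H992

/-- A length space, in terms of approximate intermediate points. -/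
def IsLen (M : Type*) [MetricSpace M] : Prop :=
  ∀ x y : M, ∀ s t : ℝ, 0 ≤ s → 0 ≤ t → s + t = dist x y → ∀ ε > 0,
    ∃ w, dist x w ≤ s + ε ∧ dist w y ≤ t + ε

/-- Any two points are joined by chains with small steps and with almost optimal length. -/
def IsChain (M : Type*) [MetricSpace M] : Prop :=
  ∀ x y : M, ∀ ε > 0, ∃ (k : ℕ) (z : ℕ → M), z 0 = x ∧ z k = y ∧
    (∀ i < k, dist (z i) (z (i + 1)) ≤ ε) ∧
    ∑ i ∈ Finset.range k, dist (z i) (z (i + 1)) ≤ dist x y + ε

section Metric

variable {M : Type*} [MetricSpace M]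

theorem dist_le_sum (z : ℕ → M) {i j : ℕ} (hij : i ≤ j) :
    dist (z i) (z j) ≤ ∑ l ∈ Finset.range j, dist (z l) (z (l + 1))
      - ∑ l ∈ Finset.range i, dist (z l) (z (l + 1)) := by
  have h := dist_le_Ico_sum_dist z hij
  rwa [Finset.sum_Ico_eq_sub _ hij] at h

/-- Chains give approximate intermediate points. -/
theorem IsChain.isLen (h : IsChain M) : IsLen M := by
  intro x y s t hs ht hst ε hε
  obtain ⟨k, z, h0, hk, hstep, hsum⟩ := h x y (ε / 2) (by positivity)
  set S : ℕ → ℝ := fun j => ∑ l ∈ Finset.range j, dist (z l) (z (l + 1)) with hS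
  have hSk : s ≤ S k := by
    have h1 : dist x y ≤ S k := by
      have := dist_le_sum z (Nat.zero_le k)
      rw [h0, hk] at this
      simpa using this
    linarith
  classical
  have hex : ∃ j, s ≤ S j := ⟨k, hSk⟩
  set j := Nat.find hex with hj
  have hsj : s ≤ S j := Nat.find_spec hex
  have hjk : j ≤ k := Nat.find_min' hex hSk
  have hup : S j ≤ s + ε / 2 := by
    rcases Nat.eq_zero_or_pos j with h | h
    · rw [h]; simp only [hS, Finset.range_zero, Finset.sum_empty]; linarith
    · obtain ⟨i, hi⟩ := Nat.exists_eq_succ_of_ne_zero h.ne'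
      have h1 : ¬ s ≤ S i := Nat.find_min hex (by rw [← hj, hi]; exact Nat.lt_succ_self i)
      have h2 : S j = S i + dist (z i) (z (i + 1)) := by
        rw [hi]; simp only [hS, Nat.succ_eq_add_one, Finset.sum_range_succ]
      have h3 := hstep i (by omega)
      push Not at h1
      linarith
  refine ⟨z j, ?_, ?_⟩
  · have := dist_le_sum z (Nat.zero_le j)
    rw [h0] at this
    simp only [Finset.range_zero, Finset.sum_empty, sub_zero] at this
    have h2 : dist x (z j) ≤ S j := this
    linarith
  · have := dist_le_sum z hjk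
    rw [hk] at this
    have h2 : dist (z j) y ≤ S k - S j := this
    linarith

/-- Balls of all radii are totally bounded if the balls of one radius are. -/
theorem IsLen.totallyBounded (h : IsLen M) {δ : ℝ} (hδ : 0 < δ)
    (hT : ∀ p : M, TotallyBounded (ball p δ)) (x : M) (r : ℝ) : TotallyBounded (ball x r) := by
  set a : ℝ := δ / 3 with ha
  have ha0 : 0 < a := by positivity
  have key : ∀ k : ℕ, TotallyBounded (ball x (((k : ℝ) + 1) * a)) := by
    intro k
    induction k with
    | zero =>
      refine (hT x).subset (ball_subset_ball ?_)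
      simp only [Nat.cast_zero, zero_add, one_mul]
      linarith
    | succ k ih =>
      obtain ⟨t, ht, htc⟩ := Metric.totallyBounded_iff.1 ih a ha0
      have hsub : ball x ((((k + 1 : ℕ) : ℝ) + 1) * a) ⊆ ⋃ y ∈ t, ball y δ := by
        intro z hz
        rw [mem_ball, dist_comm] at hz
        push_cast at hz
        have hlen := h x z (max (dist x z - a) 0) (min a (dist x z)) (le_max_right _ _)
          (le_min ha0.le dist_nonneg) (by
            rcases le_total a (dist x z) with h1 | h1
            · rw [max_eq_left (by linarith), min_eq_left h1]; ring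
            · rw [max_eq_right (by linarith), min_eq_right h1]; ring)
        have hlt : max (dist x z - a) 0 < ((k : ℝ) + 1) * a := by
          refine max_lt (by nlinarith) (by positivity)
        obtain ⟨w, hw1, hw2⟩ := hlen (min (a / 2) ((((k : ℝ) + 1) * a
          - max (dist x z - a) 0) / 2)) (lt_min (by positivity) (by linarith))
        have hw3 : dist x w < ((k : ℝ) + 1) * a := by
          have := min_le_right (a / 2) ((((k : ℝ) + 1) * a - max (dist x z - a) 0) / 2)
          linarith
        have hw4 : dist w z < 2 * a := by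
          have h1 := min_le_left (a / 2) ((((k : ℝ) + 1) * a - max (dist x z - a) 0) / 2)
          have h2 := min_le_left a (dist x z)
          linarith
        have hwm : w ∈ ball x (((k : ℝ) + 1) * a) := by rwa [mem_ball, dist_comm]
        obtain ⟨y, hy, hwy⟩ := mem_iUnion₂.1 (htc hwm)
        refine mem_iUnion₂.2 ⟨y, hy, ?_⟩
        rw [mem_ball] at hwy ⊢
        have := dist_triangle z w y
        rw [dist_comm z w] at this
        linarith
      refine TotallyBounded.subset hsub ?_
      exact (totallyBounded_biUnion ht).2 fun y _ => hT y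
  obtain ⟨k, hk⟩ := exists_nat_gt (r / a)
  refine (key k).subset (ball_subset_ball ?_)
  rw [div_lt_iff₀ ha0] at hk
  nlinarith

/-- A complete length space in which the balls of one radius are totally bounded is proper. -/
theorem IsLen.properSpace [CompleteSpace M] (h : IsLen M) {δ : ℝ} (hδ : 0 < δ)
    (hT : ∀ p : M, TotallyBounded (ball p δ)) : ProperSpace M :=
  ⟨fun x r => ((h.totallyBounded hδ hT x (r + 1)).subset
    (closedBall_subset_ball (by linarith))).isCompact_of_isClosed isClosed_closedBall⟩

/-- A proper length space is geodesic. -/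
theorem IsLen.geodesic [ProperSpace M] (h : IsLen M) (x y : M) (s t : ℝ) (hs : 0 ≤ s)
    (ht : 0 ≤ t) (hst : s + t = dist x y) : ∃ w, dist x w = s ∧ dist w y = t := by
  have h1 : ∀ n : ℕ, ∃ w, dist x w ≤ s + ((n : ℝ) + 1)⁻¹ ∧ dist w y ≤ t + ((n : ℝ) + 1)⁻¹ :=
    fun n => h x y s t hs ht hst _ (by positivity)
  choose w hw1 hw2 using h1
  have hmem : ∀ n, w n ∈ closedBall x (s + 1) := by
    intro n
    rw [mem_closedBall, dist_comm]
    refine (hw1 n).trans ?_
    have : ((n : ℝ) + 1)⁻¹ ≤ 1 := inv_le_one_of_one_le₀ (by linarith [Nat.cast_nonneg (α := ℝ) n])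
    linarith
  obtain ⟨a, -, φ, hφ, hlim⟩ := (isCompact_closedBall x (s + 1)).tendsto_subseq hmem
  have hz : Tendsto (fun n : ℕ => ((φ n : ℝ) + 1)⁻¹) atTop (𝓝 0) := by
    have h2 : Tendsto (fun n : ℕ => ((n : ℝ) + 1)⁻¹) atTop (𝓝 0) := by
      simpa only [one_div] using tendsto_one_div_add_atTop_nhds_zero_nat (𝕜 := ℝ)
    exact h2.comp hφ.tendsto_atTop
  have e1 : dist x a ≤ s := by
    have h3 : Tendsto (fun n => s + ((φ n : ℝ) + 1)⁻¹) atTop (𝓝 (s + 0)) := hz.const_add s
    rw [add_zero] at h3
    exact le_of_tendsto_of_tendsto' (tendsto_const_nhds.dist hlim) h3 fun n => hw1 (φ n)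
  have e2 : dist a y ≤ t := by
    have h3 : Tendsto (fun n => t + ((φ n : ℝ) + 1)⁻¹) atTop (𝓝 (t + 0)) := hz.const_add t
    rw [add_zero] at h3
    exact le_of_tendsto_of_tendsto' (hlim.dist tendsto_const_nhds) h3 fun n => hw2 (φ n)
  have e3 := dist_triangle x a y
  exact ⟨a, by linarith, by linarith⟩

end Metric

section Measure

variable {M : Type*} [MetricSpace M] [MeasurableSpace M] [BorelSpace M] {m : Measure M}

/-- A lower bound for the measure of all balls `ball y δ`, `y ∈ ball p r`, and a bound for the
measure of a larger ball imply that `ball p r` is covered by finitely many balls. -/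
theorem exists_finite_cover [SecondCountableTopology M] {p : M} {r δ : ℝ} (hδ : 0 < δ)
    (hfin : m (ball p (r + 2 * δ)) < ∞) {c : ℝ≥0∞} (hc : 0 < c)
    (hlow : ∀ y ∈ ball p r, c ≤ m (ball y δ)) :
    ∃ t : Set M, t.Finite ∧ ball p r ⊆ ⋃ y ∈ t, ball y (6 * δ) := by
  classical
  obtain ⟨u, hu, hdisj, hcov⟩ :=
    Vitali.exists_disjoint_subfamily_covering_enlargement_closedBall (ball p r) (fun y : M => y)
      (fun _ => δ) δ (fun _ _ => le_rfl) 5 (by norm_num)
  refine ⟨u, ?_, ?_⟩
  · have hcount : u.Countable := hdisj.countable_of_nonempty_interior fun a _ =>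
      ⟨a, ball_subset_interior_closedBall (mem_ball_self hδ)⟩
    have : Countable u := hcount.to_subtype
    have hf := Measure.finite_const_le_meas_of_disjoint_iUnion m hc
      (As := fun a : u => closedBall a.1 δ) (fun a => isClosed_closedBall.measurableSet)
      (fun a b hab => hdisj a.2 b.2 fun h => hab (Subtype.ext h)) (by
        refine ne_top_of_le_ne_top hfin.ne (measure_mono (iUnion_subset fun a => ?_))
        intro z hz
        have h1 := hu a.2
        rw [mem_ball] at h1 ⊢
        rw [mem_closedBall] at hz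
        have := dist_triangle z a.1 p
        linarith)
    have huniv : {i : u | c ≤ m (closedBall i.1 δ)} = Set.univ := by
      ext a
      simp only [Set.mem_ofPred_eq, mem_univ, iff_true]
      exact (hlow a.1 (hu a.2)).trans (measure_mono ball_subset_closedBall)
    rw [huniv, Set.finite_univ_iff] at hf
    exact Set.toFinite u
  · intro z hz
    obtain ⟨b, hb, hsub⟩ := hcov z hz
    refine mem_iUnion₂.2 ⟨b, hb, ?_⟩
    have h1 := hsub (mem_closedBall_self hδ.le)
    rw [mem_closedBall] at h1
    rw [mem_ball]
    linarith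

/-- The growth condition of Bishop-Gromov type, uniform on bounded sets. -/
def BGLoc (m : Measure M) (n : ℕ) : Prop :=
  ∀ (x₀ : M) (A : ℝ), ∃ c > 0, ∀ p ∈ ball x₀ A, ∀ t R : ℝ, 0 < t → t ≤ 1 → 0 < R → R ≤ 1 →
    ENNReal.ofReal (c * t ^ n) * m (ball p R) ≤ m (ball p (t * R))

/-- Balls of radius `1/4` are totally bounded. -/
theorem BGLoc.totallyBounded [SecondCountableTopology M] [m.IsOpenPosMeasure]
    (hfin : ∀ (x : M) (r : ℝ), m (ball x r) < ∞) {n : ℕ} (h : BGLoc m n) (p : M) :
    TotallyBounded (ball p (1 / 4)) := by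
  rw [Metric.totallyBounded_iff]
  intro ε hε
  obtain ⟨c, hc, hBG⟩ := h p 1
  set δ : ℝ := min (ε / 6) 1 with hδdef
  have hδ : 0 < δ := lt_min (by positivity) one_pos
  have hδ1 : δ ≤ 1 := min_le_right _ _
  have hpos : 0 < ENNReal.ofReal (c * δ ^ n) * m (ball p (1 / 2)) :=
    ENNReal.mul_pos (ENNReal.ofReal_pos.2 (by positivity)).ne'
      (measure_ball_pos m p (by norm_num)).ne'
  obtain ⟨t, ht, hsub⟩ := exists_finite_cover (m := m) (p := p) (r := 1 / 4) hδ (hfin _ _) hpos
    (fun y hy => by
      have hy' : y ∈ ball p 1 := ball_subset_ball (by norm_num) hy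
      have h1 := hBG y hy' δ 1 hδ hδ1 one_pos le_rfl
      rw [mul_one] at h1
      refine le_trans ?_ h1
      gcongr
      intro z hz
      rw [mem_ball] at hz hy ⊢
      have := dist_triangle z p y
      rw [dist_comm p y] at this
      linarith)
  refine ⟨t, ht, hsub.trans (iUnion₂_mono fun y _ => ball_subset_ball ?_)⟩
  have := min_le_left (ε / 6) 1
  linarith

theorem BGLoc.properSpace [SecondCountableTopology M] [CompleteSpace M] [m.IsOpenPosMeasure]
    (hfin : ∀ (x : M) (r : ℝ), m (ball x r) < ∞) {n : ℕ} (h : BGLoc m n) (hlen : IsLen M) :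
    ProperSpace M :=
  hlen.properSpace (by norm_num) (h.totallyBounded hfin)

end Measure

end Vale.Agent.P233.H992
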