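import Mathlib.MeasureTheory.Measure.Doubling
import Vale.Agent.P233.H992.Dens
import Vale.Agent.P233.H992.Proper

/-! ### Two-sided bounds for the measure of the balls

The growth condition of Bishop-Gromov type, the bound for the upper density and full support give
`c sⁿ ≤ m (ball y s) ≤ C sⁿ`, uniformly on bounded sets. -/

open MeasureTheory Measure Filter Topology Metric Set
open scoped ENNReal NNReal

namespace Vale.Agent.P233.H992

/-- From `ofReal a * X ≤ ofReal b` to `X ≤ ofReal (b / a)`. -/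
theorem le_ofReal_div {a b : ℝ} (ha : 0 < a) {X : ℝ≥0∞}
    (h : ENNReal.ofReal a * X ≤ ENNReal.ofReal b) : X ≤ ENNReal.ofReal (b / a) := by
  rw [ENNReal.ofReal_div_of_pos ha, ENNReal.le_div_iff_mul_le
    (Or.inl (ENNReal.ofReal_pos.2 ha).ne') (Or.inl ENNReal.ofReal_ne_top)]
  rwa [mul_comm]

variable {M : Type*} [MetricSpace M] [MeasurableSpace M] {m : Measure M} {n : ℕ}

/-- The growth condition of Bishop-Gromov type with one constant for all centres. -/
def BGUnif (m : Measure M) (n : ℕ) : Prop :=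
  ∃ c > 0, ∀ p : M, ∀ t R : ℝ, 0 < t → t ≤ 1 → 0 < R → R ≤ 1 →
    ENNReal.ofReal (c * t ^ n) * m (ball p R) ≤ m (ball p (t * R))

theorem BGUnif.bgLoc (h : BGUnif m n) : BGLoc m n := by
  obtain ⟨c, hc, h⟩ := h
  exact fun _ _ => ⟨c, hc, fun p _ => h p⟩

theorem BGUnif.doubling (h : BGUnif m n) : IsUnifLocDoublingMeasure m := by
  obtain ⟨c, hc, h⟩ := h
  refine ⟨⟨Real.toNNReal (4 ^ n / c), ?_⟩⟩
  have hev : ∀ᶠ ε in 𝓝[>] (0 : ℝ), ε ∈ Ioo (0 : ℝ) (1 / 4) := Ioo_mem_nhdsGT (by norm_num)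
  filter_upwards [hev] with ε hε x
  have h1 := h x (1 / 4) (4 * ε) (by norm_num) (by norm_num) (by linarith [hε.1])
    (by linarith [hε.2])
  rw [show (1 : ℝ) / 4 * (4 * ε) = ε by ring] at h1
  have hpos : 0 < c * (1 / 4) ^ n := by positivity
  have h2 : m (ball x (4 * ε)) ≤ ENNReal.ofReal (4 ^ n / c) * m (ball x ε) := by
    have h3 : ENNReal.ofReal (4 ^ n / c) * (ENNReal.ofReal (c * (1 / 4) ^ n) * m (ball x (4 * ε)))
        = m (ball x (4 * ε)) := by
      rw [← mul_assoc, ← ENNReal.ofReal_mul (by positivity)]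
      have : 4 ^ n / c * (c * (1 / 4) ^ n) = (1 : ℝ) := by
        rw [one_div, inv_pow]; field_simp
      rw [this, ENNReal.ofReal_one, one_mul]
    rw [← h3]
    gcongr
  calc m (closedBall x (2 * ε)) ≤ m (ball x (4 * ε)) :=
        measure_mono (closedBall_subset_ball (by linarith [hε.1]))
    _ ≤ ENNReal.ofReal (4 ^ n / c) * m (ball x ε) := h2
    _ ≤ _ := by
        refine mul_le_mul' le_rfl (measure_mono ball_subset_closedBall)

section Upper

variable [m.IsOpenPosMeasure]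

/-- The upper bound `m (ball y s) ≤ C sⁿ`, uniformly on bounded sets. -/
theorem BGLoc.upper (h : BGLoc m n) {K : ℝ} (hK : 0 ≤ K)
    (hdens : ∀ᵐ x ∂m, ∀ᶠ r in 𝓝[>] (0 : ℝ), m (closedBall x r) ≤ ENNReal.ofReal (K * r ^ n))
    (x₀ : M) (A : ℝ) : ∃ C > 0, ∀ y ∈ ball x₀ A, ∀ s, 0 < s → s ≤ 1 →
      m (ball y s) ≤ ENNReal.ofReal (C * s ^ n) := by
  obtain ⟨c, hc, hBG⟩ := h x₀ (A + 1)
  have hdense : Dense {x | ∀ᶠ r in 𝓝[>] (0 : ℝ),
      m (closedBall x r) ≤ ENNReal.ofReal (K * r ^ n)} := dense_of_ae hdens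
  have hhalf : ∀ y ∈ ball x₀ A, ∀ s, 0 < s → s ≤ 1 / 2 →
      m (ball y s) ≤ ENNReal.ofReal (K * 2 ^ n / c * s ^ n) := by
    intro y hy s hs hs2
    obtain ⟨x, hxy, hx⟩ := Metric.dense_iff.1 hdense y s hs
    have hx0 : x ∈ ball x₀ (A + 1) := by
      rw [mem_ball] at hy hxy ⊢
      have := dist_triangle x y x₀
      linarith
    have hev : ∀ᶠ r in 𝓝[>] (0 : ℝ), r ∈ Ioo (0 : ℝ) (2 * s) :=
      Ioo_mem_nhdsGT (by linarith)
    obtain ⟨r, hr, hr0, hr1⟩ := (Set.mem_ofPred_eq ▸ hx |>.and hev).exists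
    have h1 := hBG x hx0 (r / (2 * s)) (2 * s) (by positivity)
      ((div_le_one (by linarith)).2 hr1.le) (by linarith) (by linarith)
    rw [div_mul_cancel₀ _ (by positivity : (2 * s) ≠ 0)] at h1
    have h2 := h1.trans ((measure_mono ball_subset_closedBall).trans hr)
    have h3 := le_ofReal_div (by positivity) h2
    refine (measure_mono ?_).trans (h3.trans (le_of_eq ?_))
    · intro z hz
      rw [mem_ball] at hz hxy ⊢
      have := dist_triangle z y x
      rw [dist_comm y x] at this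
      linarith
    · congr 1
      rw [div_pow, mul_pow]
      field_simp
  refine ⟨K * 2 ^ n / c / c + 1, by positivity, fun y hy s hs hs1 => ?_⟩
  have hy' : y ∈ ball x₀ (A + 1) := ball_subset_ball (by linarith) hy
  have h1 := hBG y hy' (1 / 2) s (by norm_num) (by norm_num) hs hs1
  have h2 := hhalf y hy (1 / 2 * s) (by positivity) (by linarith)
  have h3 := le_ofReal_div (by positivity) (h1.trans h2)
  refine h3.trans (ENNReal.ofReal_le_ofReal ?_)
  have h4 : K * 2 ^ n / c * (1 / 2 * s) ^ n / (c * (1 / 2) ^ n) = K * 2 ^ n / c / c * s ^ n := by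
    rw [mul_pow]; field_simp
  rw [h4, add_mul, one_mul]
  have : 0 ≤ s ^ n := by positivity
  linarith

/-- A positive lower bound on a compact set. -/
theorem exists_lower_ball [ProperSpace M] (x₀ : M) (A : ℝ) :
    ∃ κ > 0, ∀ y ∈ closedBall x₀ A, ENNReal.ofReal κ ≤ m (ball y 1) := by
  obtain ⟨t, -, ht, hcov⟩ := (isCompact_closedBall x₀ A).finite_cover_balls
    (show (0 : ℝ) < 1 / 2 by norm_num)
  have hmin : ∃ κ > 0, ∀ z ∈ t, ENNReal.ofReal κ ≤ m (ball z (1 / 2)) := by
    have hpos : ∀ z : M, ∃ κ > 0, ENNReal.ofReal κ ≤ m (ball z (1 / 2)) := by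
      intro z
      have h0 : 0 < m (ball z (1 / 2)) := measure_ball_pos m z (by norm_num)
      obtain ⟨q, hq0, hq⟩ := ENNReal.lt_iff_exists_nnreal_btwn.1 h0
      exact ⟨q, by exact_mod_cast hq0, by rw [ENNReal.ofReal_coe_nnreal]; exact hq.le⟩
    choose f hf0 hf using hpos
    rcases t.eq_empty_or_nonempty with rfl | hne
    · exact ⟨1, one_pos, fun z hz => hz.elim⟩
    · obtain ⟨a, -, hmin⟩ := Set.exists_min_image t f ht hne
      exact ⟨f a, hf0 a, fun z hz => (ENNReal.ofReal_le_ofReal (hmin z hz)).trans (hf z)⟩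
  obtain ⟨κ, hκ, hmin⟩ := hmin
  refine ⟨κ, hκ, fun y hy => ?_⟩
  obtain ⟨z, hz, hyz⟩ := mem_iUnion₂.1 (hcov hy)
  refine (hmin z hz).trans (measure_mono fun w hw => ?_)
  rw [mem_ball] at hw hyz ⊢
  have := dist_triangle w z y
  rw [dist_comm z y] at this
  linarith

/-- The lower bound `c sⁿ ≤ m (ball y s)`, uniformly on bounded sets. -/
theorem BGLoc.lower [ProperSpace M] (h : BGLoc m n) (x₀ : M) (A : ℝ) :
    ∃ c > 0, ∀ y ∈ ball x₀ A, ∀ s, 0 < s → s ≤ 1 →
      ENNReal.ofReal (c * s ^ n) ≤ m (ball y s) := by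
  obtain ⟨c, hc, hBG⟩ := h x₀ A
  obtain ⟨κ, hκ, hlow⟩ := exists_lower_ball (m := m) x₀ A
  refine ⟨c * κ, by positivity, fun y hy s hs hs1 => ?_⟩
  have h1 := hBG y hy s 1 hs hs1 one_pos le_rfl
  rw [mul_one] at h1
  refine le_trans ?_ h1
  calc ENNReal.ofReal (c * κ * s ^ n) = ENNReal.ofReal (c * s ^ n) * ENNReal.ofReal κ := by
        rw [← ENNReal.ofReal_mul (by positivity)]; congr 1; ring
    _ ≤ _ := by
        gcongr
        exact hlow y (ball_subset_closedBall hy)

end Upper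

section TwoSided

/-- `c sⁿ ≤ m (ball y s) ≤ m (closedBall y s) ≤ C sⁿ` for `0 < s ≤ 1`, uniformly on bounded
sets. -/
def TwoSided (m : Measure M) (n : ℕ) : Prop :=
  ∀ (x₀ : M) (A : ℝ), ∃ c > 0, ∃ C > 0, ∀ y ∈ closedBall x₀ A, ∀ s, 0 < s → s ≤ 1 →
    ENNReal.ofReal (c * s ^ n) ≤ m (ball y s) ∧ m (ball y s) ≤ m (closedBall y s) ∧
      m (closedBall y s) ≤ ENNReal.ofReal (C * s ^ n)

theorem BGLoc.twoSided [ProperSpace M] [m.IsOpenPosMeasure] [IsFiniteMeasureOnCompacts m]
    (h : BGLoc m n) {K : ℝ} (hK : 0 ≤ K)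
    (hdens : ∀ᵐ x ∂m, ∀ᶠ r in 𝓝[>] (0 : ℝ), m (closedBall x r) ≤ ENNReal.ofReal (K * r ^ n)) :
    TwoSided m n := by
  intro x₀ A
  obtain ⟨c, hc, hlow⟩ := h.lower (n := n) x₀ (A + 1)
  obtain ⟨C, hC, hup⟩ := h.upper hK hdens x₀ (A + 1)
  have hfin : m (closedBall x₀ (A + 1)) < ∞ := (isCompact_closedBall _ _).measure_lt_top
  refine ⟨c, hc, C * 2 ^ n + (m (closedBall x₀ (A + 1))).toReal * 2 ^ n, by positivity,
    fun y hy s hs hs1 => ?_⟩
  have hy' : y ∈ ball x₀ (A + 1) := closedBall_subset_ball (by linarith) hy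
  refine ⟨hlow y hy' s hs hs1, measure_mono ball_subset_closedBall, ?_⟩
  rcases le_total s (1 / 2) with h2 | h2
  · calc m (closedBall y s) ≤ m (ball y (2 * s)) :=
          measure_mono (closedBall_subset_ball (by linarith))
      _ ≤ ENNReal.ofReal (C * (2 * s) ^ n) := hup y hy' (2 * s) (by linarith) (by linarith)
      _ ≤ _ := by
          refine ENNReal.ofReal_le_ofReal ?_
          rw [mul_pow, add_mul]
          have : 0 ≤ (m (closedBall x₀ (A + 1))).toReal * 2 ^ n * s ^ n := by positivity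
          linarith
  · calc m (closedBall y s) ≤ m (closedBall x₀ (A + 1)) := by
          refine measure_mono fun z hz => ?_
          rw [mem_closedBall] at hz hy ⊢
          have := dist_triangle z y x₀
          linarith
      _ = ENNReal.ofReal (m (closedBall x₀ (A + 1))).toReal :=
          (ENNReal.ofReal_toReal hfin.ne).symm
      _ ≤ _ := by
          refine ENNReal.ofReal_le_ofReal ?_
          have h3 : (1 : ℝ) ≤ (2 * s) ^ n := one_le_pow₀ (by linarith)
          have h4 : (m (closedBall x₀ (A + 1))).toReal * 2 ^ n * s ^ n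
              = (m (closedBall x₀ (A + 1))).toReal * (2 * s) ^ n := by rw [mul_pow]; ring
          rw [add_mul, h4]
          have h5 : 0 ≤ (m (closedBall x₀ (A + 1))).toReal := ENNReal.toReal_nonneg
          have h6 : 0 ≤ C * 2 ^ n * s ^ n := by positivity
          nlinarith

end TwoSided

/-- **Metric half of D1.** The Hausdorff measure of a complete length space, locally finite and
with the growth condition of Bishop-Gromov type: `M` is proper and the measure of the balls is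
comparable to `sⁿ`. -/
theorem metric_D1 [BorelSpace M] [SecondCountableTopology M] [CompleteSpace M]
    (hm : m = μH[(n : ℝ)]) [m.IsOpenPosMeasure] (hfin : ∀ (x : M) (r : ℝ), m (ball x r) < ∞)
    (hlen : IsLen M) (h : BGLoc m n) : ProperSpace M ∧ TwoSided m n := by
  have hP : ProperSpace M := h.properSpace hfin hlen
  have hloc : IsLocallyFiniteMeasure m :=
    ⟨fun x => ⟨ball x 1, ball_mem_nhds x one_pos, hfin x 1⟩⟩
  refine ⟨hP, ?_⟩
  have hdens : ∀ᵐ x ∂m, ∀ᶠ r in 𝓝[>] (0 : ℝ),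
      m (closedBall x r) ≤ ENNReal.ofReal ((10 ^ n + 1) * r ^ n) := by
    subst hm
    have := ae_density_le (M := M) (d := n) (K := 10 ^ n + 1) (by positivity) (by
      rw [Real.rpow_natCast]; linarith)
    simpa only [Real.rpow_natCast] using this
  exact h.twoSided (by positivity) hdens

end Vale.Agent.P233.H992
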