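import Vale.Agent.P233.H992.BG
import Vale.Agent.P233.H276.Morrey

/-! ### The growth condition from the contraction maps of `H276` -/

open MeasureTheory Measure Filter Topology Metric Set
open scoped ENNReal NNReal

namespace Vale.Agent.P233.H992

variable {M : Type*} [MetricSpace M] [MeasurableSpace M] {m : Measure M}

/-- Contractions towards `p` with arbitrarily small parameters `s₀`. -/
def SmallContr (m : Measure M) (n : ℕ) (K : ℝ) (p : M) : Prop :=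
  ∀ ε > 0, ∃ s₀, 0 < s₀ ∧ s₀ ≤ ε ∧ ∃ Y, H276.Contr m p s₀ 1 n K Y

theorem SmallContr.ball_le [OpensMeasurableSpace M] {n : ℕ} {K : ℝ} (hK : 0 < K) {p : M}
    (h : SmallContr m n K p) {t R : ℝ} (ht : 0 < t) (ht1 : t ≤ 1) (hR : 0 < R) (hR1 : R ≤ 1) :
    ENNReal.ofReal ((K * 2 ^ n)⁻¹ * t ^ n) * m (ball p R) ≤ m (ball p (t * R)) := by
  obtain ⟨s₀, hs0, hst, Y, hY⟩ := h (t / 2) (by positivity)
  have htI : t / 2 ∈ Ioc (0 : ℝ) 1 := ⟨by positivity, by linarith⟩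
  have h1 := ball_le_of_map (m := m) (p := p) (R := 1) (θ := (t / 2 + s₀) / (1 + s₀))
    (D := ENNReal.ofReal (K * (t / 2) ^ (-(n : ℝ)))) (Y := Y (t / 2)) (by positivity)
    ((hY.rad (t / 2) htI).mono fun x hx hx1 => (hx hx1).1) (hY.dens (t / 2) htI) hR1
  have h2 : (t / 2 + s₀) / (1 + s₀) * R ≤ t * R := by
    refine mul_le_mul_of_nonneg_right ?_ hR.le
    rw [div_le_iff₀ (by positivity)]
    nlinarith
  have h3 : K * (t / 2) ^ (-(n : ℝ)) = K * 2 ^ n * (t ^ n)⁻¹ := by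
    rw [Real.rpow_neg (by positivity), Real.rpow_natCast, div_pow, inv_div]
    ring
  rw [h3] at h1
  calc ENNReal.ofReal ((K * 2 ^ n)⁻¹ * t ^ n) * m (ball p R)
      ≤ ENNReal.ofReal ((K * 2 ^ n)⁻¹ * t ^ n) * (ENNReal.ofReal (K * 2 ^ n * (t ^ n)⁻¹)
        * m (ball p ((t / 2 + s₀) / (1 + s₀) * R))) := by gcongr
    _ = m (ball p ((t / 2 + s₀) / (1 + s₀) * R)) := by
        rw [← mul_assoc, ← ENNReal.ofReal_mul (by positivity)]
        have : (K * 2 ^ n)⁻¹ * t ^ n * (K * 2 ^ n * (t ^ n)⁻¹) = 1 := by field_simp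
        rw [this, ENNReal.ofReal_one, one_mul]
    _ ≤ _ := measure_mono (ball_subset_ball h2)

theorem bgLoc_of_smallContr [OpensMeasurableSpace M] {n : ℕ}
    (h : ∀ (x₀ : M) (A : ℝ), ∃ K > 0, ∀ p ∈ ball x₀ A, SmallContr m n K p) : BGLoc m n := by
  intro x₀ A
  obtain ⟨K, hK, hA⟩ := h x₀ A
  exact ⟨(K * 2 ^ n)⁻¹, by positivity, fun p hp t R ht ht1 hR hR1 =>
    (hA p hp).ball_le hK ht ht1 hR hR1⟩

theorem bgUnif_of_smallContr [OpensMeasurableSpace M] {n : ℕ} {K : ℝ} (hK : 0 < K)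
    (h : ∀ p : M, SmallContr m n K p) : BGUnif m n :=
  ⟨(K * 2 ^ n)⁻¹, by positivity, fun p _ _ ht ht1 hR hR1 => (h p).ball_le hK ht ht1 hR hR1⟩

/-- **D1.** -/
theorem D1 [BorelSpace M] [SecondCountableTopology M] [CompleteSpace M] {n : ℕ}
    (hm : m = μH[(n : ℝ)]) [m.IsOpenPosMeasure] (hfin : ∀ (x : M) (r : ℝ), m (ball x r) < ∞)
    (hch : IsChain M)
    (h : ∀ (x₀ : M) (A : ℝ), ∃ K > 0, ∀ p ∈ ball x₀ A, SmallContr m n K p) :
    ProperSpace M ∧ TwoSided m n ∧ BGLoc m n ∧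
      ∀ (x y : M) (s t : ℝ), 0 ≤ s → 0 ≤ t → s + t = dist x y →
        ∃ w, dist x w = s ∧ dist w y = t := by
  have hBG := bgLoc_of_smallContr h
  obtain ⟨hP, hT⟩ := metric_D1 hm hfin hch.isLen hBG
  exact ⟨hP, hT, hBG, hch.isLen.geodesic⟩

end Vale.Agent.P233.H992
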