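import Vale.Agent.P233.H992.HDen

/-! P233, block E6a, part 3: from almost every curve, almost every time to almost every time,
almost every point, sequences of good times, measurability along the flow. -/

set_option linter.all false

open MeasureTheory Filter Topology Set
open scoped ENNReal NNReal InnerProductSpace

universe u v

namespace Vale.Agent.P233.H992

/-- an operator field applied to a vector field -/
theorem sm_apply {α : Type*} [MeasurableSpace α] {μ : Measure α} {E : Type v}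
    [NormedAddCommGroup E] [InnerProductSpace ℝ E] {T : α → E →L[ℝ] E}
    (hT : ∀ w : E, AEStronglyMeasurable (fun a => T a w) μ) {v : α → E}
    (hv : StronglyMeasurable v) : AEStronglyMeasurable (fun a => T a (v a)) μ := by
  refine aestronglyMeasurable_of_tendsto_ae atTop (f := fun n a => T a (hv.approx n a)) (fun n => ?_)
    (Eventually.of_forall fun a => ((T a).continuous.tendsto _).comp (hv.tendsto_approx a))
  have e : (fun a => T a (hv.approx n a)) = fun a => ∑ y ∈ (hv.approx n).range,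
      ((hv.approx n) ⁻¹' {y}).indicator (fun a => T a y) a := by
    funext a
    rw [Finset.sum_eq_single (hv.approx n a)]
    · rw [indicator_of_mem (by simp)]
    · intro y _ hy
      rw [indicator_of_notMem]
      intro h
      exact hy (by simpa using h.symm)
    · intro h
      exact absurd (SimpleFunc.mem_range_self _ a) h
  rw [e]
  refine Finset.aestronglyMeasurable_fun_sum _ fun y _ => ?_
  exact (hT y).indicator ((hv.approx n).measurableSet_fiber y)

variable {M : Type u} [MeasurableSpace M] {m : Measure M}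

theorem swap_ACto [SFinite m] {f g : ℝ → M → ℝ} {c : M → ℝ}
    (hf : Measurable fun q : ℝ × M => f q.1 q.2) (hc : Measurable c)
    (hg : AEStronglyMeasurable (fun q : ℝ × M => g q.1 q.2)
      ((volume.restrict (Ioo (0 : ℝ) 1)).prod m))
    (h : ∀ᵐ x ∂m, ACto (fun t => f t x) (c x) (fun t => g t x)) :
    ∀ᵐ t ∂(volume.restrict (Ioo (0 : ℝ) 1)), ∀ᵐ x ∂m, f t x = c x - ∫ r in t..1, g r x := by
  set μ := volume.restrict (Ioo (0 : ℝ) 1) with hμ
  set G := hg.mk (fun q : ℝ × M => g q.1 q.2) with hG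
  have hGm : StronglyMeasurable G := hg.stronglyMeasurable_mk
  have h1 : ∀ᵐ q ∂(m.prod μ), g q.2 q.1 = G (q.2, q.1) := by
    have := (Measure.measurePreserving_swap (μ := m) (ν := μ)).quasiMeasurePreserving.ae
      hg.ae_eq_mk
    exact this
  have h2 : ∀ᵐ x ∂m, ∀ᵐ r ∂μ, g r x = G (r, x) := Measure.ae_ae_of_ae_prod h1
  -- the integral of the strongly measurable version
  have hint : ∀ x, (∀ᵐ r ∂μ, g r x = G (r, x)) → ∀ t ∈ Ioo (0 : ℝ) 1,
      ∫ r in t..1, g r x = ∫ r, ({q : (M × ℝ) × ℝ | q.1.2 < q.2 ∧ q.2 < 1}).indicator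
        (fun q => G (q.2, q.1.1)) ((x, t), r) := by
    intro x hx t ht
    rw [intervalIntegral.integral_of_le ht.2.le, integral_Ioc_eq_integral_Ioo,
      ← integral_indicator measurableSet_Ioo]
    refine integral_congr_ae ?_
    have h3 : ∀ᵐ r, r ∈ Ioo (0 : ℝ) 1 → g r x = G (r, x) :=
      (ae_restrict_iff' measurableSet_Ioo).1 hx
    filter_upwards [h3] with r hr
    by_cases hr2 : r ∈ Ioo t 1
    · rw [indicator_of_mem hr2, indicator_of_mem (show ((x, t), r) ∈
        {q : (M × ℝ) × ℝ | q.1.2 < q.2 ∧ q.2 < 1} from hr2)]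
      exact hr ⟨ht.1.trans hr2.1, hr2.2⟩
    · rw [indicator_of_notMem hr2, indicator_of_notMem (show ((x, t), r) ∉
        {q : (M × ℝ) × ℝ | q.1.2 < q.2 ∧ q.2 < 1} from hr2)]
  set J : M → ℝ → ℝ := fun x t => ∫ r, ({q : (M × ℝ) × ℝ | q.1.2 < q.2 ∧ q.2 < 1}).indicator
        (fun q => G (q.2, q.1.1)) ((x, t), r) with hJ
  have hJm : Measurable fun q : M × ℝ => J q.1 q.2 := by
    have h4 : StronglyMeasurable (({q : (M × ℝ) × ℝ | q.1.2 < q.2 ∧ q.2 < 1}).indicator
        (fun q => G (q.2, q.1.1))) := by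
      refine StronglyMeasurable.indicator ?_ ?_
      · exact hGm.comp_measurable (by fun_prop)
      · have k1 : MeasurableSet {q : (M × ℝ) × ℝ | q.1.2 < q.2} :=
          measurableSet_lt (by fun_prop) (by fun_prop)
        have k2 : MeasurableSet {q : (M × ℝ) × ℝ | q.2 < 1} :=
          measurableSet_lt (by fun_prop) (by fun_prop)
        exact k1.inter k2
    exact (h4.integral_prod_right' (ν := volume)).measurable
  have hP : MeasurableSet {q : M × ℝ | f q.2 q.1 = c q.1 - J q.1 q.2} := by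
    refine measurableSet_eq_fun ?_ ?_
    · exact hf.comp measurable_swap
    · exact (hc.comp measurable_fst).sub hJm
  have h5 : ∀ᵐ x ∂m, ∀ᵐ t ∂μ, f t x = c x - J x t := by
    filter_upwards [h2, h] with x hx1 hx2
    filter_upwards [hx2.2, ae_restrict_mem measurableSet_Ioo] with t ht1 ht2
    rw [ht1, hint x hx1 t ht2]
  have h6 := (Measure.ae_ae_comm (μ := m) (ν := μ) (p := fun x t => f t x = c x - J x t) hP).1 h5
  filter_upwards [h6, ae_restrict_mem measurableSet_Ioo] with t ht1 ht2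
  filter_upwards [ht1, h2] with x hx1 hx2
  rw [hx1, hint x hx2 t ht2]

/-- a sequence of good times -/
theorem exists_seq {P : ℝ → Prop} (h : ∀ᵐ t ∂(volume.restrict (Ioo (1 / 2 : ℝ) 1)), P t) :
    ∃ s : ℕ → ℝ, (∀ n, s n ∈ Ioo (1 / 2 : ℝ) 1 ∧ P (s n)) ∧ Tendsto s atTop (𝓝 1) := by
  have key : ∀ n : ℕ, ∃ t, t ∈ Ioo (1 - 1 / ((n : ℝ) + 3)) 1 ∧ P t := by
    intro n
    have hn : 0 < 1 / ((n : ℝ) + 3) := by positivity
    have hn2 : 1 / ((n : ℝ) + 3) ≤ 1 / 2 := by
      apply one_div_le_one_div_of_le (by norm_num)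
      have : (0 : ℝ) ≤ n := n.cast_nonneg
      linarith
    haveI : (ae (volume.restrict (Ioo (1 - 1 / ((n : ℝ) + 3)) 1))).NeBot := by
      rw [ae_restrict_neBot, Real.volume_Ioo]
      simp only [ne_eq, ENNReal.ofReal_eq_zero, not_le]
      linarith
    have h1 : ∀ᵐ t ∂(volume.restrict (Ioo (1 - 1 / ((n : ℝ) + 3)) 1)), P t :=
      ae_restrict_of_ae_restrict_of_subset (Ioo_subset_Ioo_left (by linarith)) h
    obtain ⟨t, ht1, ht2⟩ := (h1.and (ae_restrict_mem measurableSet_Ioo)).exists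
    exact ⟨t, ht2, ht1⟩
  choose s hs1 hs2 using key
  refine ⟨s, fun n => ⟨⟨?_, (hs1 n).2⟩, hs2 n⟩, ?_⟩
  · refine lt_of_le_of_lt ?_ (hs1 n).1
    have hn2 : 1 / ((n : ℝ) + 3) ≤ 1 / 2 := by
      apply one_div_le_one_div_of_le (by norm_num)
      have : (0 : ℝ) ≤ n := n.cast_nonneg
      linarith
    linarith
  · refine tendsto_of_tendsto_of_tendsto_of_le_of_le (g := fun n : ℕ => 1 - 1 / ((n : ℝ) + 3))
      (h := fun _ => (1 : ℝ)) ?_ tendsto_const_nhds (fun n => (hs1 n).1.le) (fun n => (hs1 n).2.le)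
    have h0 : Tendsto (fun n : ℕ => 1 / ((n : ℝ) + 3)) atTop (𝓝 0) := by
      refine Tendsto.div_atTop tendsto_const_nhds ?_
      exact tendsto_atTop_add_const_right _ _ tendsto_natCast_atTop_atTop
    simpa using h0.const_sub 1

theorem tail_zero {g : ℝ → ℝ} (hg : IntervalIntegrable g volume (1 / 2) 1) {s : ℕ → ℝ}
    (hs : ∀ n, s n ∈ Ioo (1 / 2 : ℝ) 1) (hs1 : Tendsto s atTop (𝓝 1)) :
    Tendsto (fun n => ∫ r in s n..1, g r) atTop (𝓝 0) := by
  have h1 : IntegrableOn g (uIcc (1 / 2) 1) volume := by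
    rw [intervalIntegrable_iff, uIoc_of_le (by norm_num)] at hg
    rw [uIcc_of_le (by norm_num)]
    exact (integrableOn_Icc_iff_integrableOn_Ioc).2 hg
  have h2 := intervalIntegral.continuousOn_primitive_interval_left h1 1 right_mem_uIcc
  have h3 : Tendsto s atTop (𝓝[uIcc (1 / 2) 1] 1) := by
    refine tendsto_nhdsWithin_iff.2 ⟨hs1, Eventually.of_forall fun n => ?_⟩
    rw [uIcc_of_le (by norm_num)]
    exact ⟨(hs n).1.le, (hs n).2.le⟩
  have h4 := h2.tendsto.comp h3
  simpa [Function.comp_def] using h4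

/-- convergence along a sequence of good times -/
theorem seq_lim {f g : ℝ → M → ℝ} {c : M → ℝ}
    (h : ∀ᵐ x ∂m, ACto (fun t => f t x) (c x) (fun t => g t x)) {s : ℕ → ℝ}
    (hs : ∀ n, s n ∈ Ioo (1 / 2 : ℝ) 1) (hs1 : Tendsto s atTop (𝓝 1))
    (hs2 : ∀ n, ∀ᵐ x ∂m, f (s n) x = c x - ∫ r in s n..1, g r x) :
    ∀ᵐ x ∂m, Tendsto (fun n => f (s n) x) atTop (𝓝 (c x)) := by
  filter_upwards [h, ae_all_iff.2 hs2] with x hx1 hx2
  have h1 := tail_zero (hx1.1 (1 / 2) ⟨by norm_num, by norm_num⟩) hs hs1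
  have h2 := h1.const_sub (c x)
  rw [sub_zero] at h2
  simpa only [hx2] using h2

end Vale.Agent.P233.H992
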