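import Vale.Agent.P233.H992.Sel

/-! P233 stage 3, row GEO: measurable choice of constant speed geodesics in a proper space with
midpoints. -/

set_option linter.all false

open MeasureTheory Filter Topology Set

universe u v

namespace Vale.Agent.P233.H992.Sel

variable {M : Type u} [MetricSpace M] [ProperSpace M] [MeasurableSpace M] [BorelSpace M]

/-- measurable midpoint map -/
theorem exists_mid (hmid : ∀ x y : M, ∃ z, dist x z = dist x y / 2 ∧ dist z y = dist x y / 2) :
    ∃ f : M × M → M, Measurable f ∧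
      ∀ p : M × M, dist p.1 (f p) = dist p.1 p.2 / 2 ∧ dist (f p) p.2 = dist p.1 p.2 / 2 := by
  let R : Set ((M × M) × M) :=
    {q | dist q.1.1 q.2 = dist q.1.1 q.1.2 / 2} ∩ {q | dist q.2 q.1.2 = dist q.1.1 q.1.2 / 2}
  have hR : IsClosed R :=
    (isClosed_eq (by fun_prop) (by fun_prop)).inter (isClosed_eq (by fun_prop) (by fun_prop))
  obtain ⟨f, hf, h⟩ := exists_sel hR (fun x => (hmid x.1 x.2))
  exact ⟨f, hf, fun p => h p⟩

/-- dyadic grid -/
noncomputable def grid (mid : M × M → M) : ℕ → ℕ → M × M → M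
  | 0 => fun j p => if j = 0 then p.1 else p.2
  | (k + 1) => fun j p => if j % 2 = 0 then grid mid k (j / 2) p
      else mid (grid mid k (j / 2) p, grid mid k (j / 2 + 1) p)

theorem grid_meas {mid : M × M → M} (hm : Measurable mid) :
    ∀ k j, Measurable (grid mid k j) := by
  intro k
  induction k with
  | zero =>
    intro j
    by_cases hj : j = 0
    · simpa [grid, hj] using measurable_fst
    · simpa [grid, hj] using measurable_snd
  | succ k ih =>
    intro j
    by_cases hj : j % 2 = 0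
    · simpa [grid, hj] using ih (j / 2)
    · have : Measurable fun p => mid (grid mid k (j / 2) p, grid mid k (j / 2 + 1) p) :=
        hm.comp ((ih _).prodMk (ih _))
      simpa [grid, hj] using this

theorem grid_double (mid : M × M → M) (k j : ℕ) (p : M × M) :
    grid mid (k + 1) (2 * j) p = grid mid k j p := by
  simp [grid]

theorem grid_zero (mid : M × M → M) (k : ℕ) (p : M × M) : grid mid k 0 p = p.1 := by
  induction k with
  | zero => simp [grid]
  | succ k ih => simpa [grid] using ih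

theorem grid_last (mid : M × M → M) (k : ℕ) (p : M × M) : grid mid k (2 ^ k) p = p.2 := by
  induction k with
  | zero => simp [grid]
  | succ k ih => rw [pow_succ, mul_comm, grid_double]; exact ih

theorem grid_step {mid : M × M → M}
    (h : ∀ p : M × M, dist p.1 (mid p) = dist p.1 p.2 / 2 ∧ dist (mid p) p.2 = dist p.1 p.2 / 2)
    (k : ℕ) (p : M × M) : ∀ j, j < 2 ^ k →
      dist (grid mid k j p) (grid mid k (j + 1) p) = dist p.1 p.2 / 2 ^ k := by
  induction k with
  | zero =>
    intro j hj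
    have : j = 0 := by simpa using hj
    subst this
    simp [grid]
  | succ k ih =>
    intro j hj
    obtain ⟨i, hi⟩ := Nat.even_or_odd' j
    rcases hi with rfl | rfl
    · have hi2 : i < 2 ^ k := by rw [pow_succ] at hj; omega
      have e1 : grid mid (k + 1) (2 * i + 1) p = mid (grid mid k i p, grid mid k (i + 1) p) := by
        have h1 : (2 * i + 1) % 2 = 1 := by omega
        have h2 : (2 * i + 1) / 2 = i := by omega
        simp [grid, h1, h2]
      rw [grid_double, e1, (h (grid mid k i p, grid mid k (i + 1) p)).1, ih i hi2, pow_succ]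
      field_simp
    · have hi2 : i < 2 ^ k := by rw [pow_succ] at hj; omega
      have e1 : grid mid (k + 1) (2 * i + 1) p = mid (grid mid k i p, grid mid k (i + 1) p) := by
        have h1 : (2 * i + 1) % 2 = 1 := by omega
        have h2 : (2 * i + 1) / 2 = i := by omega
        simp [grid, h1, h2]
      have e2 : grid mid (k + 1) (2 * i + 1 + 1) p = grid mid k (i + 1) p := by
        have : 2 * i + 1 + 1 = 2 * (i + 1) := by ring
        rw [this, grid_double]
      rw [e1, e2, (h (grid mid k i p, grid mid k (i + 1) p)).2, ih i hi2, pow_succ]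
      field_simp

theorem grid_le {mid : M × M → M}
    (h : ∀ p : M × M, dist p.1 (mid p) = dist p.1 p.2 / 2 ∧ dist (mid p) p.2 = dist p.1 p.2 / 2)
    (k : ℕ) (p : M × M) {i j : ℕ} (hij : i ≤ j) (hj : j ≤ 2 ^ k) :
      dist (grid mid k i p) (grid mid k j p) ≤ ((j : ℝ) - i) * (dist p.1 p.2 / 2 ^ k) := by
  refine (dist_le_Ico_sum_dist (fun l => grid mid k l p) hij).trans ?_
  have : ∀ l ∈ Finset.Ico i j, dist (grid mid k l p) (grid mid k (l + 1) p)
      = dist p.1 p.2 / 2 ^ k := by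
    intro l hl
    exact grid_step h k p l ((Finset.mem_Ico.1 hl).2.trans_le hj)
  rw [Finset.sum_congr rfl this, Finset.sum_const, Nat.card_Ico, nsmul_eq_mul, Nat.cast_sub hij]

theorem grid_dist {mid : M × M → M}
    (h : ∀ p : M × M, dist p.1 (mid p) = dist p.1 p.2 / 2 ∧ dist (mid p) p.2 = dist p.1 p.2 / 2)
    (k : ℕ) (p : M × M) {i j : ℕ} (hij : i ≤ j) (hj : j ≤ 2 ^ k) :
      dist (grid mid k i p) (grid mid k j p) = ((j : ℝ) - i) * (dist p.1 p.2 / 2 ^ k) := by
  refine le_antisymm (grid_le h k p hij hj) ?_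
  have h1 := grid_le h k p (Nat.zero_le i) (hij.trans hj)
  have h2 := grid_le h k p hj le_rfl
  rw [grid_zero] at h1
  rw [grid_last] at h2
  have h3 : dist p.1 p.2 ≤ dist p.1 (grid mid k i p) + dist (grid mid k i p) (grid mid k j p)
      + dist (grid mid k j p) p.2 := dist_triangle4 _ _ _ _
  have h4 : (2 : ℝ) ^ k * (dist p.1 p.2 / 2 ^ k) = dist p.1 p.2 := by field_simp
  push_cast at h1 h2
  nlinarith [h1, h2, h3, h4]

/-- the floor index -/
noncomputable def idx (t : ℝ) (k : ℕ) : ℕ := ⌊t * 2 ^ k⌋₊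

theorem idx_le {t : ℝ} (ht : t ∈ Icc (0 : ℝ) 1) (k : ℕ) : idx t k ≤ 2 ^ k := by
  have h1 : t * 2 ^ k ≤ ((2 ^ k : ℕ) : ℝ) := by
    push_cast
    have : (0 : ℝ) < 2 ^ k := by positivity
    nlinarith [ht.2]
  calc idx t k ≤ ⌊((2 ^ k : ℕ) : ℝ)⌋₊ := Nat.floor_mono h1
    _ = 2 ^ k := Nat.floor_natCast _

theorem idx_succ {t : ℝ} (ht : 0 ≤ t) (k : ℕ) :
    2 * idx t k ≤ idx t (k + 1) ∧ idx t (k + 1) ≤ 2 * idx t k + 1 := by
  have h0 : 0 ≤ t * 2 ^ k := by positivity
  have h1 : t * 2 ^ (k + 1) = 2 * (t * 2 ^ k) := by ring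
  constructor
  · unfold idx
    rw [Nat.le_floor_iff (by positivity), h1]
    push_cast
    have := Nat.floor_le h0
    linarith
  · unfold idx
    have h2 : ⌊t * 2 ^ (k + 1)⌋₊ < 2 * ⌊t * 2 ^ k⌋₊ + 2 := by
      rw [Nat.floor_lt (by positivity), h1]
      push_cast
      have := Nat.lt_floor_add_one (t * 2 ^ k)
      linarith
    omega

theorem idx_tendsto {t : ℝ} (ht : 0 ≤ t) :
    Tendsto (fun k => (idx t k : ℝ) / 2 ^ k) atTop (𝓝 t) := by
  have h1 : Tendsto (fun k : ℕ => (2 : ℝ) ^ k) atTop atTop :=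
    tendsto_pow_atTop_atTop_of_one_lt (by norm_num)
  exact (tendsto_nat_floor_mul_div_atTop ht).comp h1

theorem idx_mono {s t : ℝ} (hst : s ≤ t) (k : ℕ) : idx s k ≤ idx t k := by
  unfold idx
  apply Nat.floor_mono
  have : (0 : ℝ) < 2 ^ k := by positivity
  nlinarith

/-- GEO: measurable choice of geodesics. -/
theorem exists_geo (hmid : ∀ x y : M, ∃ z, dist x z = dist x y / 2 ∧ dist z y = dist x y / 2) :
    ∃ G : ℝ → M × M → M, (∀ t, Measurable (G t)) ∧ (∀ p, G 0 p = p.1) ∧ (∀ p, G 1 p = p.2) ∧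
      ∀ p : M × M, ∀ s ∈ Icc (0 : ℝ) 1, ∀ t ∈ Icc (0 : ℝ) 1,
        dist (G s p) (G t p) = |s - t| * dist p.1 p.2 := by
  classical
  obtain ⟨mid, hm, h⟩ := exists_mid hmid
  let pr : ℝ → ℝ := fun t => max 0 (min t 1)
  have hpr : ∀ t, pr t ∈ Icc (0 : ℝ) 1 := fun t =>
    ⟨le_max_left _ _, max_le zero_le_one (min_le_right _ _)⟩
  have hpr2 : ∀ t ∈ Icc (0 : ℝ) 1, pr t = t := fun t ht => by
    simp [pr, min_eq_left ht.2, max_eq_right ht.1]
  let F : ℝ → ℕ → M × M → M := fun t k p => grid mid k (idx t k) p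
  have hd : ∀ t ∈ Icc (0 : ℝ) 1, ∀ p k,
      dist (F t k p) (F t (k + 1) p) ≤ (dist p.1 p.2 / 2) * (1 / 2 : ℝ) ^ k := by
    intro t ht p k
    have h1 := idx_succ ht.1 k
    have h2 := idx_le ht (k + 1)
    have e1 : F t k p = grid mid (k + 1) (2 * idx t k) p := (grid_double mid k _ p).symm
    have h3 := grid_dist h (k + 1) p h1.1 h2
    have h4 : ((idx t (k + 1) : ℕ) : ℝ) - ((2 * idx t k : ℕ) : ℝ) ≤ 1 := by
      have : ((idx t (k + 1) : ℕ) : ℝ) ≤ ((2 * idx t k + 1 : ℕ) : ℝ) := by exact_mod_cast h1.2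
      push_cast at this ⊢
      linarith
    rw [e1]
    show dist (grid mid (k + 1) (2 * idx t k) p) (grid mid (k + 1) (idx t (k + 1)) p) ≤ _
    rw [h3]
    have h5 : 0 ≤ dist p.1 p.2 / 2 ^ (k + 1) := by positivity
    calc _ ≤ 1 * (dist p.1 p.2 / 2 ^ (k + 1)) := mul_le_mul_of_nonneg_right h4 h5
      _ = (dist p.1 p.2 / 2) * (1 / 2 : ℝ) ^ k := by
        rw [one_mul, one_div, inv_pow, pow_succ]; field_simp
  have hc : ∀ t p, CauchySeq fun k => F (pr t) k p := fun t p =>
    cauchySeq_of_le_geometric (1 / 2) _ (by norm_num) (fun k => hd (pr t) (hpr t) p k)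
  choose G hG using fun t p => cauchySeq_tendsto_of_complete (hc t p)
  have hdist : ∀ p : M × M, ∀ s ∈ Icc (0 : ℝ) 1, ∀ t ∈ Icc (0 : ℝ) 1, s ≤ t →
      dist (G s p) (G t p) = (t - s) * dist p.1 p.2 := by
    intro p s hs t ht hst
    have h1 : Tendsto (fun k => dist (F (pr s) k p) (F (pr t) k p)) atTop
        (𝓝 (dist (G s p) (G t p))) := (hG s p).dist (hG t p)
    have h2 : Tendsto (fun k => dist (F (pr s) k p) (F (pr t) k p)) atTop
        (𝓝 ((t - s) * dist p.1 p.2)) := by
      have h3 : ∀ k, dist (F (pr s) k p) (F (pr t) k p) =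
          ((idx t k : ℝ) / 2 ^ k - (idx s k : ℝ) / 2 ^ k) * dist p.1 p.2 := by
        intro k
        rw [hpr2 s hs, hpr2 t ht]
        show dist (grid mid k (idx s k) p) (grid mid k (idx t k) p) = _
        rw [grid_dist h k p (idx_mono hst k) (idx_le ht k)]
        ring
      simp_rw [h3]
      exact ((idx_tendsto ht.1).sub (idx_tendsto hs.1)).mul_const _
    exact tendsto_nhds_unique h1 h2
  refine ⟨G, ?_, ?_, ?_, ?_⟩
  · intro t
    exact measurable_of_tendsto_metrizable (fun k => grid_meas hm k _)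
      (tendsto_pi_nhds.2 (hG t))
  · intro p
    have h0 : (0 : ℝ) ∈ Icc (0 : ℝ) 1 := ⟨le_rfl, zero_le_one⟩
    refine tendsto_nhds_unique (hG 0 p) ?_
    have : ∀ k, F (pr 0) k p = p.1 := by
      intro k
      rw [hpr2 0 h0]
      show grid mid k (idx 0 k) p = p.1
      have : idx 0 k = 0 := by simp [idx]
      rw [this, grid_zero]
    simp_rw [this]
    exact tendsto_const_nhds
  · intro p
    have h0 : (1 : ℝ) ∈ Icc (0 : ℝ) 1 := ⟨zero_le_one, le_rfl⟩
    refine tendsto_nhds_unique (hG 1 p) ?_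
    have : ∀ k, F (pr 1) k p = p.2 := by
      intro k
      rw [hpr2 1 h0]
      show grid mid k (idx 1 k) p = p.2
      have : idx 1 k = 2 ^ k := by
        have : (1 : ℝ) * 2 ^ k = ((2 ^ k : ℕ) : ℝ) := by push_cast; ring
        rw [idx, this, Nat.floor_natCast]
      rw [this, grid_last]
    simp_rw [this]
    exact tendsto_const_nhds
  · intro p s hs t ht
    rcases le_total s t with hst | hst
    · rw [hdist p s hs t ht hst, abs_sub_comm, abs_of_nonneg (sub_nonneg.2 hst)]
    · rw [dist_comm, hdist p t ht s hs hst, abs_of_nonneg (sub_nonneg.2 hst)]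

end Vale.Agent.P233.H992.Sel
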