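import Vale.Agent.P233.H992.MvF

/-! P233, block E6a, part 2: continuity of `∫ w Hess F(∇h,∇h)` in `h`. -/

set_option linter.all false

open MeasureTheory Filter Topology Set
open scoped ENNReal NNReal InnerProductSpace

universe u v

namespace Vale.Agent.P233.H992

section den

variable {M : Type u} [MetricSpace M] [MeasurableSpace M] {m : Measure M}
variable {E : Type v} [NormedAddCommGroup E] [InnerProductSpace ℝ E]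
variable {C : Calc m} {Gr : (M →ₘ[m] ℝ) → M → E} {HO : (M →ₘ[m] ℝ) → M → E →L[ℝ] E}

/-- the square of the graph norm -/
noncomputable def Qn (C : Calc m) (f : M →ₘ[m] ℝ) : ℝ := C.nrm2 f + I (C.lap f ^ 2)

theorem cs_int {u v : M → ℝ} (hu : MemLp u 2 m) (hv : MemLp v 2 m) {U V : ℝ}
    (hU : ∫ x, u x ^ 2 ∂m ≤ U) (hV : ∫ x, v x ^ 2 ∂m ≤ V) :
    Integrable (fun x => |u x| * |v x|) m ∧ ∫ x, |u x| * |v x| ∂m ≤ √U * √V := by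
  constructor
  · exact hu.abs.integrable_mul hv.abs
  · have h2 : ENNReal.ofReal (2 : ℝ) = 2 := by norm_num
    have h := integral_mul_norm_le_Lp_mul_Lq (μ := m) (f := u) (g := v) (p := 2) (q := 2)
      (Real.holderConjugate_iff.2 ⟨by norm_num, by norm_num⟩) (by rwa [h2]) (by rwa [h2])
    simp only [Real.norm_eq_abs, ← Real.sqrt_eq_rpow] at h
    have e1 : ∀ f : M → ℝ, (∫ x, |f x| ^ (2 : ℝ) ∂m) = ∫ x, f x ^ 2 ∂m := by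
      intro f
      refine integral_congr_ae (Eventually.of_forall fun x => ?_)
      simp only [Real.rpow_two, sq_abs]
    rw [e1, e1] at h
    exact h.trans (mul_le_mul (Real.sqrt_le_sqrt hU) (Real.sqrt_le_sqrt hV)
      (Real.sqrt_nonneg _) (Real.sqrt_nonneg _))

theorem int_two {f1 f2 : M → ℝ} (i1 : Integrable f1 m) (i2 : Integrable f2 m) {c1 c2 b1 b2 : ℝ}
    (hc1 : 0 ≤ c1) (hc2 : 0 ≤ c2) (h1 : ∫ x, f1 x ∂m ≤ b1) (h2 : ∫ x, f2 x ∂m ≤ b2) :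
    Integrable (fun x => c1 * f1 x + c2 * f2 x) m ∧
      ∫ x, (c1 * f1 x + c2 * f2 x) ∂m ≤ c1 * b1 + c2 * b2 := by
  have j1 : Integrable (fun x => c1 * f1 x) m := i1.const_mul c1
  have j2 : Integrable (fun x => c2 * f2 x) m := i2.const_mul c2
  refine ⟨j1.add j2, ?_⟩
  rw [integral_add j1 j2, integral_const_mul, integral_const_mul]
  exact add_le_add (mul_le_mul_of_nonneg_left h1 hc1) (mul_le_mul_of_nonneg_left h2 hc2)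

theorem Qn_nonneg (hC : IsGamma C) {f : M →ₘ[m] ℝ} (hf : f ∈ C.Test) : 0 ≤ Qn C f :=
  add_nonneg (hC.toIsDir.nrm2_nonneg (hC.test_A hf).1) (I_nonneg (sq_nonneg' _))

theorem grn (hC : IsGamma C) (hG : IsGrad C Gr) {f : M →ₘ[m] ℝ} (hf : f ∈ C.Test) :
    MemLp (fun x => ‖Gr f x‖) 2 m ∧ ∫ x, ‖Gr f x‖ ^ 2 ∂m ≤ Qn C f := by
  have hW := (hC.test_A hf).1
  refine ⟨(hG.mem f hW).norm, ?_⟩
  rw [hG.int_norm_sq hW]
  unfold Qn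
  have := hC.toIsDir.E_le_nrm2 f
  have := I_nonneg (sq_nonneg' (C.lap f))
  linarith

theorem lpn (hC : IsGamma C) {f : M →ₘ[m] ℝ} (hf : f ∈ C.Test) :
    MemLp (fun x => C.lap f x) 2 m ∧ ∫ x, C.lap f x ^ 2 ∂m ≤ Qn C f := by
  have hW := (hC.test_A hf).1
  refine ⟨hC.toIsDir.memLp _ (hC.test_lap_mem hf), ?_⟩
  rw [← integral_congr_ae (sq_ae (C.lap f))]
  unfold Qn I
  have := hC.toIsDir.nrm2_nonneg hW
  linarith

theorem Qn_sub_le (hC : IsGamma C) {κ : ℝ} (hB : C.BEi κ) {f g : M →ₘ[m] ℝ} (hf : f ∈ C.Test)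
    (hg : g ∈ C.Test) : Qn C (f - g) ≤ 2 * Qn C f + 2 * Qn C g := by
  have e0 : f - g = f + (-1 : ℝ) • g := by rw [neg_one_smul, sub_eq_add_neg]
  have e1 : C.lap (f - g) = C.lap f - C.lap g := by
    rw [e0, hC.lap_add hB hf (hC.test_smul hB _ hg), hC.lap_smul hB _ hg, neg_one_smul,
      sub_eq_add_neg]
  unfold Qn
  rw [e1]
  have h1 := hC.toIsDir.nrm2_sub_le (hC.test_A hf).1 (hC.test_A hg).1
  have h2 : I ((C.lap f - C.lap g) ^ 2) ≤ 2 * I (C.lap f ^ 2) + 2 * I (C.lap g ^ 2) := by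
    have hm1 := hC.toIsDir.memLp _ (hC.test_lap_mem hf)
    have hm2 := hC.toIsDir.memLp _ (hC.test_lap_mem hg)
    have h3 := I_sq_add_le hm1 (mem_neg hm2)
    rw [← sub_eq_add_neg, neg_sq] at h3
    exact h3
  linarith

theorem hess_L (hC : IsGamma C) (hH : IsHess C Gr HO) : ∃ A : ℝ, 0 ≤ A ∧ ∀ b ∈ C.Test,
    ∃ L : M → ℝ, MemLp L 2 m ∧ (∀ᵐ x ∂m, ‖HO b x‖ ≤ L x) ∧ ∫ x, L x ^ 2 ∂m ≤ A * Qn C b := by
  obtain ⟨c, hc⟩ := hH.norm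
  refine ⟨|c|, abs_nonneg c, fun b hb => ?_⟩
  obtain ⟨L, h1, h2, h3⟩ := hc b hb
  refine ⟨L, h1, h2, h3.trans ?_⟩
  have hW := (hC.test_A hb).1
  have k1 : 0 ≤ I (C.lap b ^ 2) := I_nonneg (sq_nonneg' _)
  have k2 : 0 ≤ I (C.Γ b b) := hC.toIsDir.E_nonneg hW
  have k3 := hC.toIsDir.E_le_nrm2 b
  calc c * (I (C.lap b ^ 2) + I (C.Γ b b)) ≤ |c| * (I (C.lap b ^ 2) + I (C.Γ b b)) :=
        mul_le_mul_of_nonneg_right (le_abs_self c) (by positivity)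
    _ ≤ |c| * Qn C b := by
        refine mul_le_mul_of_nonneg_left ?_ (abs_nonneg c)
        unfold Qn; linarith

/-- the bilinear estimate -/
theorem wH_sub_le (hC : IsGamma C) {κ' : ℝ} (hB : C.BEi κ') (hG : IsGrad C Gr)
    (hH : IsHess C Gr HO)
    {F w : M →ₘ[m] ℝ} (hF : F ∈ C.W) {cF cw cW : ℝ} (hcF : ∀ᵐ x ∂m, ‖Gr F x‖ ≤ cF)
    (hF' : MemLp (C.Γ F F) ∞ m)
    (hw : w ∈ C.TestI) (hcw : ∀ᵐ x ∂m, |w x| ≤ cw) (hcW : ∀ᵐ x ∂m, ‖Gr w x‖ ≤ cW)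
    (h0F : 0 ≤ cF) (h0w : 0 ≤ cw) (h0W : 0 ≤ cW) :
    ∃ K : ℝ, 0 ≤ K ∧ ∀ h₁ ∈ C.Test, ∀ d ∈ C.Test,
      |C.wH F (h₁ + d) w - C.wH F h₁ w| ≤ K * (√(Qn C d) * (√(Qn C (h₁ + d)) + √(Qn C h₁))) := by
  have hD := hC.toIsDir
  obtain ⟨A, hA0, hA⟩ := hess_L hC hH
  have hwW := (hC.test_A hw.1).1
  have hwt := (hC.test_A hw.1).2
  refine ⟨cF * cw + cF * cW + cw * cF * √A, by positivity, fun h₁ h₁T d dT => ?_⟩
  set h₂ := h₁ + d with hh₂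
  have h₂T : h₂ ∈ C.Test := hC.test_add hB h₁T dT
  have h₁W := (hC.test_A h₁T).1
  have h₂W := (hC.test_A h₂T).1
  have dW := (hC.test_A dT).1
  -- integrability
  have mD : ∀ h ∈ C.Test, MemLp (C.Γ F h * (w * C.lap h + C.Γ h w) : M →ₘ[m] ℝ) 1 m := by
    intro h hh
    have hW := (hC.test_A hh).1
    refine mem_mul_22 (hD.Γ_mem2 hF hF' hW) (mem_add (mem_mul_top hwt
      (hD.memLp _ (hC.test_lap_mem hh))) ?_)
    rw [hC.symm h hW w hwW]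
    exact hD.Γ_mem2 hwW (hC.test_Γ_top hw.1) hW
  have mT : ∀ h ∈ C.Test, MemLp (w * C.Γ F (C.Γ h h) : M →ₘ[m] ℝ) 1 m := fun h hh =>
    mem_mul_top hwt (hD.Γ_mem1 hF (hC.Γ_mem hB hh hh).1)
  -- the two differences
  have eq : C.wH F h₂ w - C.wH F h₁ w
      = -I (C.Γ F h₂ * (w * C.lap h₂ + C.Γ h₂ w) - C.Γ F h₁ * (w * C.lap h₁ + C.Γ h₁ w))
        - 2⁻¹ * I (w * C.Γ F (C.Γ h₂ h₂) - w * C.Γ F (C.Γ h₁ h₁)) := by
    rw [I_sub (mD _ h₂T) (mD _ h₁T), I_sub (mT _ h₂T) (mT _ h₁T)]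
    unfold Calc.wH
    ring
  obtain ⟨Ld, Ld2, Ldb, LdQ⟩ := hA d dT
  obtain ⟨L1, L12, L1b, L1Q⟩ := hA h₁ h₁T
  obtain ⟨gd, gdQ⟩ := grn hC hG dT
  obtain ⟨g1, g1Q⟩ := grn hC hG h₁T
  obtain ⟨g2, g2Q⟩ := grn hC hG h₂T
  obtain ⟨pd, pdQ⟩ := lpn hC dT
  obtain ⟨p2, p2Q⟩ := lpn hC h₂T
  have Q1 := Qn_nonneg hC h₁T
  have Q2 := Qn_nonneg hC h₂T
  have Qd := Qn_nonneg hC dT
  obtain ⟨i1, b1⟩ := cs_int gd p2 gdQ p2Q
  obtain ⟨i2, b2⟩ := cs_int gd g2 gdQ g2Q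
  obtain ⟨i3, b3⟩ := cs_int g1 pd g1Q pdQ
  obtain ⟨i4, b4⟩ := cs_int g1 gd g1Q gdQ
  obtain ⟨i5, b5⟩ := cs_int Ld2 g2 LdQ g2Q
  obtain ⟨i6, b6⟩ := cs_int L12 gd L1Q gdQ
  rw [Real.sqrt_mul' A Qd] at b5
  rw [Real.sqrt_mul' A Q1] at b6
  -- first estimate
  have E1 : |I (C.Γ F h₂ * (w * C.lap h₂ + C.Γ h₂ w) - C.Γ F h₁ * (w * C.lap h₁ + C.Γ h₁ w))|
      ≤ (cF * cw + cF * cW) * (√(Qn C d) * (√(Qn C h₂) + √(Qn C h₁))) := by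
    have hp : ∀ᵐ x ∂m, ‖(C.Γ F h₂ * (w * C.lap h₂ + C.Γ h₂ w)
          - C.Γ F h₁ * (w * C.lap h₁ + C.Γ h₁ w) : M →ₘ[m] ℝ) x‖
        ≤ 1 * (cF * cw * (|‖Gr d x‖| * |C.lap h₂ x|) + cF * cW * (|‖Gr d x‖| * |‖Gr h₂ x‖|))
          + 1 * (cF * cw * (|‖Gr h₁ x‖| * |C.lap d x|) + cF * cW * (|‖Gr h₁ x‖| * |‖Gr d x‖|)) := by
      have eF : C.Γ F h₂ = C.Γ F h₁ + C.Γ F d := hD.Γ_add_right hF h₁W dW
      have eL : C.lap h₂ = C.lap h₁ + C.lap d := hC.lap_add hB h₁T dT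
      have ew : C.Γ h₂ w = C.Γ h₁ w + C.Γ d w := hC.add_left _ h₁W _ dW _ hwW
      have ek : C.Γ F h₂ * (w * C.lap h₂ + C.Γ h₂ w) - C.Γ F h₁ * (w * C.lap h₁ + C.Γ h₁ w)
          = C.Γ F d * (w * C.lap h₂ + C.Γ h₂ w) + C.Γ F h₁ * (w * C.lap d + C.Γ d w) := by
        rw [eF, eL, ew]; ring
      rw [ek]
      filter_upwards [add_ae (C.Γ F d * (w * C.lap h₂ + C.Γ h₂ w))
        (C.Γ F h₁ * (w * C.lap d + C.Γ d w)), mul_ae (C.Γ F d) (w * C.lap h₂ + C.Γ h₂ w),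
        mul_ae (C.Γ F h₁) (w * C.lap d + C.Γ d w), add_ae (w * C.lap h₂) (C.Γ h₂ w),
        add_ae (w * C.lap d) (C.Γ d w), mul_ae w (C.lap h₂), mul_ae w (C.lap d), hcF, hcw, hcW,
        hG.inner F hF d dW, hG.inner F hF h₁ h₁W, hG.inner h₂ h₂W w hwW, hG.inner d dW w hwW]
        with x a1 a2 a3 a4 a5 a6 a7 a8 a9 a10 a11 a12 a13 a14
      rw [a1, a2, a3, a4, a5, a6, a7, ← a11, ← a12, ← a13, ← a14, abs_norm, abs_norm, abs_norm]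
      have c1 : |⟪Gr F x, Gr d x⟫_ℝ| ≤ cF * ‖Gr d x‖ := (abs_real_inner_le_norm _ _).trans
        (mul_le_mul_of_nonneg_right a8 (norm_nonneg _))
      have c2 : |⟪Gr F x, Gr h₁ x⟫_ℝ| ≤ cF * ‖Gr h₁ x‖ := (abs_real_inner_le_norm _ _).trans
        (mul_le_mul_of_nonneg_right a8 (norm_nonneg _))
      have c3 : |⟪Gr h₂ x, Gr w x⟫_ℝ| ≤ ‖Gr h₂ x‖ * cW := (abs_real_inner_le_norm _ _).trans
        (mul_le_mul_of_nonneg_left a10 (norm_nonneg _))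
      have c4 : |⟪Gr d x, Gr w x⟫_ℝ| ≤ ‖Gr d x‖ * cW := (abs_real_inner_le_norm _ _).trans
        (mul_le_mul_of_nonneg_left a10 (norm_nonneg _))
      have c5 : |w x * C.lap h₂ x + ⟪Gr h₂ x, Gr w x⟫_ℝ| ≤ cw * |C.lap h₂ x| + ‖Gr h₂ x‖ * cW := by
        refine (abs_add_le _ _).trans (add_le_add ?_ c3)
        rw [abs_mul]
        exact mul_le_mul_of_nonneg_right a9 (abs_nonneg _)
      have c6 : |w x * C.lap d x + ⟪Gr d x, Gr w x⟫_ℝ| ≤ cw * |C.lap d x| + ‖Gr d x‖ * cW := by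
        refine (abs_add_le _ _).trans (add_le_add ?_ c4)
        rw [abs_mul]
        exact mul_le_mul_of_nonneg_right a9 (abs_nonneg _)
      rw [Real.norm_eq_abs]
      refine (abs_add_le _ _).trans ?_
      rw [abs_mul, abs_mul]
      have c7 := mul_le_mul c1 c5 (abs_nonneg _) (mul_nonneg h0F (norm_nonneg _))
      have c8 := mul_le_mul c2 c6 (abs_nonneg _) (mul_nonneg h0F (norm_nonneg _))
      linarith
    obtain ⟨k1, l1⟩ := int_two i1 i2 (mul_nonneg h0F h0w) (mul_nonneg h0F h0W) b1 b2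
    obtain ⟨k2, l2⟩ := int_two i3 i4 (mul_nonneg h0F h0w) (mul_nonneg h0F h0W) b3 b4
    obtain ⟨k3, l3⟩ := int_two k1 k2 zero_le_one zero_le_one l1 l2
    have h3 := norm_integral_le_of_norm_le k3 hp
    unfold I
    rw [← Real.norm_eq_abs]
    refine (h3.trans l3).trans (le_of_eq ?_)
    ring
  -- second estimate
  have E2 : |I (w * C.Γ F (C.Γ h₂ h₂) - w * C.Γ F (C.Γ h₁ h₁))|
      ≤ 2 * (cw * cF * √A * (√(Qn C d) * (√(Qn C h₂) + √(Qn C h₁)))) := by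
    have hp : ∀ᵐ x ∂m, ‖(w * C.Γ F (C.Γ h₂ h₂) - w * C.Γ F (C.Γ h₁ h₁) : M →ₘ[m] ℝ) x‖
        ≤ 2 * (cw * cF) * (|Ld x| * |‖Gr h₂ x‖|) + 2 * (cw * cF) * (|L1 x| * |‖Gr d x‖|) := by
      have k2 := (hC.Γ_mem hB h₂T h₂T).1
      have k1 := (hC.Γ_mem hB h₁T h₁T).1
      have hl : ∀ᵐ x ∂m, HO h₂ x = HO h₁ x + HO d x := by
        have h4 := hH.lin h₁ h₁T d dT 1
        rw [one_smul] at h4
        filter_upwards [h4] with x hx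
        rw [hh₂, hx, one_smul]
      filter_upwards [sub_ae (w * C.Γ F (C.Γ h₂ h₂)) (w * C.Γ F (C.Γ h₁ h₁)),
        mul_ae w (C.Γ F (C.Γ h₂ h₂)), mul_ae w (C.Γ F (C.Γ h₁ h₁)), hcF, hcw,
        hG.inner F hF _ k2, hG.inner F hF _ k1, hH.prod h₂ h₂T h₂ h₂T, hH.prod h₁ h₁T h₁ h₁T,
        hl, hG.add hD h₁W dW, Ldb, L1b] with x a1 a2 a3 a4 a5 a6 a7 a8 a9 a10 a11 a12 a13
      rw [a1, a2, a3, ← a6, ← a7, ← mul_sub, ← inner_sub_right, a8, a9, abs_norm, abs_norm,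
        abs_of_nonneg ((norm_nonneg _).trans a12), abs_of_nonneg ((norm_nonneg _).trans a13)]
      have e5 : HO h₂ x (Gr h₂ x) + HO h₂ x (Gr h₂ x) - (HO h₁ x (Gr h₁ x) + HO h₁ x (Gr h₁ x))
          = (2 : ℝ) • (HO d x (Gr h₂ x) + HO h₁ x (Gr d x)) := by
        have e6 : Gr d x = Gr h₂ x - Gr h₁ x := by rw [hh₂, a11]; abel
        rw [a10, e6, ContinuousLinearMap.add_apply, map_sub, two_smul]
        abel
      rw [e5, norm_mul, Real.norm_eq_abs, Real.norm_eq_abs]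
      have c1 : ‖HO d x (Gr h₂ x) + HO h₁ x (Gr d x)‖ ≤ Ld x * ‖Gr h₂ x‖ + L1 x * ‖Gr d x‖ := by
        refine (norm_add_le _ _).trans (add_le_add ?_ ?_)
        · exact ((HO d x).le_opNorm _).trans
            (mul_le_mul_of_nonneg_right a12 (norm_nonneg _))
        · exact ((HO h₁ x).le_opNorm _).trans
            (mul_le_mul_of_nonneg_right a13 (norm_nonneg _))
      have c2 : |⟪Gr F x, (2 : ℝ) • (HO d x (Gr h₂ x) + HO h₁ x (Gr d x))⟫_ℝ|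
          ≤ cF * (2 * (Ld x * ‖Gr h₂ x‖ + L1 x * ‖Gr d x‖)) := by
        refine (abs_real_inner_le_norm _ _).trans (mul_le_mul a4 ?_ (norm_nonneg _) h0F)
        rw [norm_smul, Real.norm_eq_abs, abs_two]
        exact mul_le_mul_of_nonneg_left c1 (by norm_num)
      have c3 := mul_le_mul a5 c2 (abs_nonneg _) h0w
      linarith
    have c0 : 0 ≤ 2 * (cw * cF) := by positivity
    obtain ⟨k3, l3⟩ := int_two i5 i6 c0 c0 b5 b6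
    have h3 := norm_integral_le_of_norm_le k3 hp
    unfold I
    rw [← Real.norm_eq_abs]
    refine (h3.trans l3).trans (le_of_eq ?_)
    ring
  rw [eq]
  calc |-I (C.Γ F h₂ * (w * C.lap h₂ + C.Γ h₂ w) - C.Γ F h₁ * (w * C.lap h₁ + C.Γ h₁ w))
        - 2⁻¹ * I (w * C.Γ F (C.Γ h₂ h₂) - w * C.Γ F (C.Γ h₁ h₁))|
      ≤ |I (C.Γ F h₂ * (w * C.lap h₂ + C.Γ h₂ w) - C.Γ F h₁ * (w * C.lap h₁ + C.Γ h₁ w))|
        + 2⁻¹ * |I (w * C.Γ F (C.Γ h₂ h₂) - w * C.Γ F (C.Γ h₁ h₁))| := by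
        refine (abs_sub _ _).trans ?_
        rw [abs_neg, abs_mul, abs_of_pos (by norm_num : (0 : ℝ) < 2⁻¹)]
    _ ≤ _ := by linarith

theorem B_le {l : ℝ} {g r : E} (hr : l ≠ 0 → ‖r‖ ≤ 1) : (l * ⟪g, r⟫_ℝ) ^ 2 ≤ l ^ 2 * ‖g‖ ^ 2 := by
  by_cases h : l = 0
  · rw [h]; simp
  · rw [mul_pow]
    refine mul_le_mul_of_nonneg_left ?_ (sq_nonneg l)
    rw [sq_le_sq, abs_norm]
    exact (abs_real_inner_le_norm _ _).trans (mul_le_of_le_one_right (norm_nonneg _) (hr h))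

/-- the right hand side -/
noncomputable def RHf (Gr : (M →ₘ[m] ℝ) → M → E) (κ : ℝ) (l : M → ℝ) (r : M → E)
    (w h : M →ₘ[m] ℝ) (x : M) : ℝ := w x * Mv κ (l x) 1 (‖Gr h x‖ ^ 2) (l x * ⟪Gr h x, r x⟫_ℝ)

section rh

variable {κ L₀ T : ℝ} {l : M → ℝ} {r : M → E} {w : M →ₘ[m] ℝ} {cw : ℝ}

theorem RHf_int (hG : IsGrad C Gr) (hl : Measurable l) (hl0 : ∀ x, 0 ≤ l x)
    (hT0 : 0 ≤ T) (hT : ∀ x, 0 < l x → |th κ (l x)| ≤ T)
    (hr : AEStronglyMeasurable r m) (hr1 : ∀ᵐ x ∂m, l x ≠ 0 → ‖r x‖ ≤ 1)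
    (hcw : ∀ᵐ x ∂m, |w x| ≤ cw) {h : M →ₘ[m] ℝ} (hh : h ∈ C.W) :
    Integrable (RHf Gr κ l r w h) m := by
  have hg := hG.mem h hh
  have h2 : Integrable (fun x => ‖Gr h x‖ ^ 2) m := hg.norm.integrable_sq
  refine (h2.const_mul (cw * (2 * (1 + T)))).mono' ?_ ?_
  · refine w.aestronglyMeasurable.mul ?_
    refine AEMeasurable.aestronglyMeasurable ?_
    exact (measurable_Mv κ).comp_aemeasurable (hl.aemeasurable.prodMk
      (measurable_const.aemeasurable.prodMk ((hg.1.norm.aemeasurable.pow_const 2).prodMk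
        (hl.aemeasurable.mul (hg.1.inner hr).aemeasurable))))
  · filter_upwards [hr1, hcw] with x h3 h4
    unfold RHf
    rw [norm_mul, Real.norm_eq_abs, Real.norm_eq_abs]
    have h5 := Mv_bound (κ := κ) (t := 1) (A := ‖Gr h x‖ ^ 2) (B := l x * ⟪Gr h x, r x⟫_ℝ) (hl0 x)
      (by norm_num) (by positivity) (B_le h3) hT0 (by rw [mul_one]; exact hT x)
    calc |w x| * |Mv κ (l x) 1 (‖Gr h x‖ ^ 2) (l x * ⟪Gr h x, r x⟫_ℝ)|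
        ≤ cw * (2 * (1 + T) * ‖Gr h x‖ ^ 2) :=
          mul_le_mul h4 h5 (abs_nonneg _) ((abs_nonneg _).trans h4)
      _ = cw * (2 * (1 + T)) * ‖Gr h x‖ ^ 2 := by ring

theorem RHf_sub_le (hC : IsGamma C) {κ' : ℝ} (hB : C.BEi κ') (hG : IsGrad C Gr)
    (hl : Measurable l) (hl0 : ∀ x, 0 ≤ l x)
    (hT0 : 0 ≤ T) (hT : ∀ x, 0 < l x → |th κ (l x)| ≤ T)
    (hr : AEStronglyMeasurable r m) (hr1 : ∀ᵐ x ∂m, l x ≠ 0 → ‖r x‖ ≤ 1)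
    (h0w : 0 ≤ cw) (hcw : ∀ᵐ x ∂m, |w x| ≤ cw) {h₁ d : M →ₘ[m] ℝ} (h₁T : h₁ ∈ C.Test)
    (dT : d ∈ C.Test) :
    |∫ x, RHf Gr κ l r w (h₁ + d) x ∂m - ∫ x, RHf Gr κ l r w h₁ x ∂m|
      ≤ cw * (1 + 2 * T) * (√(Qn C d) * (√(Qn C (h₁ + d)) + √(Qn C h₁))) := by
  have h₂T : h₁ + d ∈ C.Test := hC.test_add hB h₁T dT
  have h₁W := (hC.test_A h₁T).1
  have h₂W := (hC.test_A h₂T).1
  have dW := (hC.test_A dT).1
  obtain ⟨gd, gdQ⟩ := grn hC hG dT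
  obtain ⟨g1, g1Q⟩ := grn hC hG h₁T
  obtain ⟨g2, g2Q⟩ := grn hC hG h₂T
  obtain ⟨i2, b2⟩ := cs_int gd g2 gdQ g2Q
  obtain ⟨i4, b4⟩ := cs_int gd g1 gdQ g1Q
  have hc : 0 ≤ cw * (1 + 2 * T) := by positivity
  obtain ⟨k, lk⟩ := int_two i2 i4 hc hc b2 b4
  rw [← integral_sub (RHf_int hG hl hl0 hT0 hT hr hr1 hcw h₂W)
    (RHf_int hG hl hl0 hT0 hT hr hr1 hcw h₁W), ← Real.norm_eq_abs]
  refine ((norm_integral_le_of_norm_le k ?_).trans lk).trans (le_of_eq (by ring))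
  filter_upwards [hr1, hcw, hG.add hC.toIsDir h₁W dW] with x h3 h4 h5
  unfold RHf
  rw [← mul_sub, norm_mul, Real.norm_eq_abs, Real.norm_eq_abs, abs_norm, abs_norm, abs_norm]
  have h6 := Mv_sub_le (κ := κ) (hl0 x) hT0 (hT x) (r := r x) (fun h => h3 h.ne')
    (Gr (h₁ + d) x) (Gr h₁ x)
  have h7 : Gr (h₁ + d) x - Gr h₁ x = Gr d x := by rw [h5]; abel
  rw [h7] at h6
  have h8 : ‖Gr (h₁ + d) x + Gr h₁ x‖ ≤ ‖Gr (h₁ + d) x‖ + ‖Gr h₁ x‖ := norm_add_le _ _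
  have h9 : (1 + 2 * T) * (‖Gr d x‖ * ‖Gr (h₁ + d) x + Gr h₁ x‖)
      ≤ (1 + 2 * T) * (‖Gr d x‖ * (‖Gr (h₁ + d) x‖ + ‖Gr h₁ x‖)) := by
    have : 0 ≤ 1 + 2 * T := by positivity
    gcongr
  have h10 := mul_le_mul h4 (h6.trans h9) (abs_nonneg _) h0w
  refine h10.trans (le_of_eq ?_)
  ring

/-- density -/
theorem wH_le_of_dense (hC : IsGamma C) {κ' : ℝ} (hB : C.BEi κ') (hG : IsGrad C Gr)
    (hH : IsHess C Gr HO) {e : ℕ → M →ₘ[m] ℝ} (he : ∀ i, e i ∈ C.TestI)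
    (hd : ∀ h ∈ C.TestI, ∀ ε > 0, ∃ i, C.nrm2 (h - e i) + I (C.lap (h - e i) ^ 2) < ε)
    {F : M →ₘ[m] ℝ} (hF : F ∈ C.W) (hF' : MemLp (C.Γ F F) ∞ m)
    (hw : w ∈ C.TestI)
    (hl : Measurable l) (hl0 : ∀ x, 0 ≤ l x)
    (hT0 : 0 ≤ T) (hT : ∀ x, 0 < l x → |th κ (l x)| ≤ T)
    (hr : AEStronglyMeasurable r m) (hr1 : ∀ᵐ x ∂m, l x ≠ 0 → ‖r x‖ ≤ 1)
    (H : ∀ i, C.wH F (e i) w ≤ ∫ x, RHf Gr κ l r w (e i) x ∂m) :
    ∀ h ∈ C.TestI, C.wH F h w ≤ ∫ x, RHf Gr κ l r w h x ∂m := by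
  intro h hh
  have bd : ∀ f ∈ C.W, MemLp (C.Γ f f) ∞ m → ∃ c : ℝ, 0 ≤ c ∧ ∀ᵐ x ∂m, ‖Gr f x‖ ≤ c := by
    intro f hf hf'
    obtain ⟨c, hc⟩ := mem_top_iff.1 hf'
    refine ⟨√|c|, Real.sqrt_nonneg _, ?_⟩
    filter_upwards [hc, hG.norm_eq hf] with x h1 h2
    rw [h2]
    exact Real.sqrt_le_sqrt ((le_abs_self _).trans (h1.trans (le_abs_self c)))
  obtain ⟨cF, h0F, hcF⟩ := bd F hF hF'
  obtain ⟨cW, h0W, hcW⟩ := bd w (hC.test_A hw.1).1 (hC.test_Γ_top hw.1)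
  obtain ⟨cw', hcw'⟩ := mem_top_iff.1 (hC.test_A hw.1).2
  have hcw : ∀ᵐ x ∂m, |w x| ≤ |cw'| := by
    filter_upwards [hcw'] with x hx using hx.trans (le_abs_self _)
  obtain ⟨K, hK0, hK⟩ := wH_sub_le hC hB hG hH hF hcF hF' hw hcw hcW h0F (abs_nonneg _) h0W
  set K' := |cw'| * (1 + 2 * T) with hK'
  have hK'0 : 0 ≤ K' := by positivity
  set S := √(Qn C h) + √(2 * Qn C h + 2) with hS
  have hS0 : 0 ≤ S := by positivity
  refine le_of_forall_pos_le_add fun ε hε => ?_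
  set δ := min 1 (ε / ((K + K') * S + 1)) with hδ
  have hpos : 0 < (K + K') * S + 1 := by positivity
  have hδ0 : 0 < δ := lt_min one_pos (div_pos hε hpos)
  have hδ1 : δ ≤ 1 := min_le_left _ _
  have hδ2 : δ * ((K + K') * S + 1) ≤ ε := by
    rw [← le_div_iff₀ hpos]; exact min_le_right _ _
  obtain ⟨i, hi⟩ := hd h hh (δ ^ 2) (by positivity)
  have hdT : h - e i ∈ C.Test := by
    have := hC.test_add hB hh.1 (hC.test_smul hB (-1) (he i).1)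
    rwa [neg_one_smul, ← sub_eq_add_neg] at this
  have hQd : Qn C (h - e i) ≤ δ ^ 2 := hi.le
  have hs : √(Qn C (h - e i)) ≤ δ := by
    rw [Real.sqrt_le_left hδ0.le]; exact hQd
  have hQ1 : Qn C (e i) ≤ 2 * Qn C h + 2 := by
    have h1 := Qn_sub_le hC hB hh.1 hdT
    rw [sub_sub_cancel] at h1
    have h2 : δ ^ 2 ≤ 1 := pow_le_one₀ hδ0.le hδ1
    linarith
  have e1 : e i + (h - e i) = h := by abel
  have h1 := hK (e i) (he i).1 (h - e i) hdT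
  have h2 := RHf_sub_le hC hB hG hl hl0 hT0 hT hr hr1 (abs_nonneg cw') hcw (he i).1 hdT
  rw [e1] at h1 h2
  have h3 : √(Qn C (h - e i)) * (√(Qn C h) + √(Qn C (e i))) ≤ δ * S := by
    have := Real.sqrt_le_sqrt hQ1
    exact mul_le_mul hs (by rw [hS]; gcongr) (by positivity) hδ0.le
  have h4 := mul_le_mul_of_nonneg_left h3 hK0
  have h5 := mul_le_mul_of_nonneg_left h3 hK'0
  have h6 := (abs_le.1 (h1.trans h4)).2
  have h7 := (abs_le.1 (h2.trans h5)).1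
  have h8 := H i
  have h9 : K * (δ * S) + K' * (δ * S) ≤ ε := by
    refine le_trans ?_ hδ2
    rw [← add_mul]
    have : 0 ≤ δ := hδ0.le
    nlinarith
  linarith

end rh

end den

end Vale.Agent.P233.H992
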