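import Vale.Agent.P233.Gig.IfE
import Vale.Agent.P233.H616.Model

/-! P233, block E6a, part 1: the comparison field `Mv` as a function of real variables. -/

set_option linter.all false

open MeasureTheory Filter Topology Set
open scoped ENNReal NNReal InnerProductSpace

universe u v

namespace Vale.Agent.P233.H992

theorem cont_sn (κ : ℝ) : Continuous (sn κ) := H616.continuous_sn κ
theorem cont_cs (κ : ℝ) : Continuous (cs κ) := H616.continuous_cs κ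

theorem sn_pos_of {κ r : ℝ} (hr : 0 < r) (h : √κ * r < Real.pi) : 0 < sn κ r :=
  H616.sn_pos hr (fun _ => h)

/-- `c r ≤ sn_κ r` on `[0,L]` -/
theorem exists_sn_ge {κ L : ℝ} (hL : 0 ≤ L) (h : √κ * L < Real.pi) :
    ∃ c > 0, ∀ r ∈ Icc 0 L, c * r ≤ sn κ r := by
  have hd : HasDerivAt (sn κ) (cs κ 0) 0 := H616.hasDerivAt_sn κ 0
  have hc : ContinuousOn (dslope (sn κ) 0) univ :=
    (continuousOn_dslope univ_mem).2 ⟨(cont_sn κ).continuousOn, hd.differentiableAt⟩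
  have hc' : ContinuousOn (dslope (sn κ) 0) (Icc 0 L) := hc.mono (subset_univ _)
  have hsn0 : sn κ 0 = 0 := H616.sn_at_zero κ
  obtain ⟨r₀, hr₀, hmin⟩ := isCompact_Icc.exists_isMinOn ⟨0, by simp [hL]⟩ hc'
  have hval : ∀ r ∈ Icc 0 L, r ≠ 0 → dslope (sn κ) 0 r = sn κ r / r := by
    intro r hr h0
    rw [dslope_of_ne _ h0, slope_def_field, hsn0, sub_zero, sub_zero]
  have hpos : 0 < dslope (sn κ) 0 r₀ := by
    rcases eq_or_ne r₀ 0 with h0 | h0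
    · rw [h0, dslope_same, hd.deriv]
      have : cs κ 0 = 1 := H616.cs_at_zero κ
      rw [this]; exact one_pos
    · rw [hval r₀ hr₀ h0]
      have h1 : 0 < r₀ := lt_of_le_of_ne hr₀.1 (Ne.symm h0)
      refine div_pos (sn_pos_of h1 (lt_of_le_of_lt ?_ h)) h1
      exact mul_le_mul_of_nonneg_left hr₀.2 (Real.sqrt_nonneg _)
  refine ⟨_, hpos, fun r hr => ?_⟩
  rcases eq_or_ne r 0 with h0 | h0
  · rw [h0, mul_zero, hsn0]
  · have h1 : 0 < r := lt_of_le_of_ne hr.1 (Ne.symm h0)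
    have h2 := hmin hr
    simp only [mem_setOf_eq] at h2
    rw [hval r hr h0, le_div_iff₀ h1] at h2
    exact h2

/-- `r ct_κ(r)` -/
noncomputable def th (κ r : ℝ) : ℝ := r * cs κ r / sn κ r

theorem exists_th_le {κ L : ℝ} (hL : 0 ≤ L) (h : √κ * L < Real.pi) :
    ∃ T : ℝ, 0 ≤ T ∧ ∀ r, 0 < r → r ≤ L → |th κ r| ≤ T := by
  obtain ⟨c, hc, hsn⟩ := exists_sn_ge hL h
  obtain ⟨B, hB⟩ := (isCompact_Icc (a := 0) (b := L)).exists_bound_of_continuousOn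
    (cont_cs κ).continuousOn
  refine ⟨|B| / c, by positivity, fun r hr hrL => ?_⟩
  have h1 := hsn r ⟨hr.le, hrL⟩
  have h2 := hB r ⟨hr.le, hrL⟩
  have h3 : 0 < sn κ r := lt_of_lt_of_le (by positivity) h1
  unfold th
  rw [abs_div, abs_mul, abs_of_pos h3, abs_of_pos hr, div_le_div_iff₀ h3 hc]
  rw [Real.norm_eq_abs] at h2
  have h4 : |cs κ r| ≤ |B| := h2.trans (le_abs_self B)
  calc r * |cs κ r| * c ≤ r * |B| * c :=
        mul_le_mul_of_nonneg_right (mul_le_mul_of_nonneg_left h4 hr.le) hc.le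
    _ = |B| * (c * r) := by ring
    _ ≤ |B| * sn κ r := by gcongr

theorem Mv_zero (κ t A B : ℝ) : Mv κ 0 t A B = A / t := by
  unfold Mv; rw [if_pos rfl]

theorem Mv_pos {κ l t A B : ℝ} (hl : 0 < l) (ht : 0 < t) :
    Mv κ l t A B = (B ^ 2 / l ^ 2 + th κ (l * t) * (A - B ^ 2 / l ^ 2)) / t := by
  unfold Mv th
  rw [if_neg hl.ne', add_div]
  congr 1
  rw [mul_comm (l * t) (cs κ (l * t)), mul_comm l (cs κ (l * t))]
  field_simp

/-- bound of the comparison field -/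
theorem Mv_bound {κ l t A B T : ℝ} (hl : 0 ≤ l) (ht : 1 / 2 ≤ t) (hA : 0 ≤ A)
    (hB : B ^ 2 ≤ l ^ 2 * A) (hT : 0 ≤ T) (hth : 0 < l → |th κ (l * t)| ≤ T) :
    |Mv κ l t A B| ≤ 2 * (1 + T) * A := by
  have ht0 : 0 < t := by linarith
  have hti : 1 / t ≤ 2 := by rw [div_le_iff₀ ht0]; linarith
  rcases hl.eq_or_lt with h0 | h0
  · rw [← h0, Mv_zero, abs_of_nonneg (by positivity)]
    calc A / t = A * (1 / t) := by ring
      _ ≤ A * 2 := by gcongr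
      _ ≤ 2 * (1 + T) * A := by nlinarith [mul_nonneg hT hA]
  · rw [Mv_pos h0 ht0]
    set b := B ^ 2 / l ^ 2 with hb
    have hb0 : 0 ≤ b := by positivity
    have hbA : b ≤ A := by
      rw [hb, div_le_iff₀ (by positivity)]; linarith
    have h1 := hth h0
    rw [abs_div, abs_of_pos ht0]
    have h2 : |b + th κ (l * t) * (A - b)| ≤ A * (1 + T) := by
      calc |b + th κ (l * t) * (A - b)| ≤ |b| + |th κ (l * t)| * |A - b| := by
            rw [← abs_mul]; exact abs_add_le _ _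
        _ ≤ b + T * (A - b) := by
            rw [abs_of_nonneg hb0, abs_of_nonneg (sub_nonneg.2 hbA)]
            have := mul_le_mul_of_nonneg_right h1 (sub_nonneg.2 hbA)
            linarith
        _ ≤ A * (1 + T) := by nlinarith [mul_nonneg hT hb0]
    calc |b + th κ (l * t) * (A - b)| / t = |b + th κ (l * t) * (A - b)| * (1 / t) := by ring
      _ ≤ (A * (1 + T)) * 2 := by gcongr
      _ = 2 * (1 + T) * A := by ring

/-- continuity of the comparison field at `t = 1` -/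
theorem Mv_tendsto {κ l A B : ℝ} (hl : 0 ≤ l) (h : √κ * l < Real.pi) {ι : Type*} {F : Filter ι}
    {t a b : ι → ℝ} (ht : Tendsto t F (𝓝 1)) (ha : Tendsto a F (𝓝 A)) (hb : Tendsto b F (𝓝 B)) :
    Tendsto (fun i => Mv κ l (t i) (a i) (b i)) F (𝓝 (Mv κ l 1 A B)) := by
  rcases hl.eq_or_lt with h0 | h0
  · rw [← h0]
    simp only [Mv_zero]
    exact ha.div ht one_ne_zero
  · have hs : sn κ (l * 1) ≠ 0 := by
      rw [mul_one]; exact (sn_pos_of h0 h).ne'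
    unfold Mv
    rw [if_neg h0.ne']
    simp only [if_neg h0.ne']
    have h1 : Tendsto (fun i => l * t i) F (𝓝 (l * 1)) := ht.const_mul l
    have h2 : Tendsto (fun i => sn κ (l * t i)) F (𝓝 (sn κ (l * 1))) :=
      ((cont_sn κ).tendsto _).comp h1
    have h3 : Tendsto (fun i => cs κ (l * t i)) F (𝓝 (cs κ (l * 1))) :=
      ((cont_cs κ).tendsto _).comp h1
    have h4 : Tendsto (fun i => b i ^ 2 / l ^ 2) F (𝓝 (B ^ 2 / l ^ 2)) := (hb.pow 2).div_const _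
    exact (h4.div ht one_ne_zero).add (((h3.const_mul l).div h2 hs).mul (ha.sub h4))

theorem measurable_Mv (κ : ℝ) :
    Measurable fun q : ℝ × ℝ × ℝ × ℝ => Mv κ q.1 q.2.1 q.2.2.1 q.2.2.2 := by
  unfold Mv
  have hs : Measurable (sn κ) := (cont_sn κ).measurable
  have hc : Measurable (cs κ) := (cont_cs κ).measurable
  refine Measurable.ite (measurableSet_eq_fun (by fun_prop) (by fun_prop)) (by fun_prop) ?_
  fun_prop

theorem measurable_Mv' {α : Type*} [MeasurableSpace α] (κ : ℝ) {l t a b : α → ℝ}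
    (hl : Measurable l) (ht : Measurable t) (ha : Measurable a) (hb : Measurable b) :
    Measurable fun x => Mv κ (l x) (t x) (a x) (b x) :=
  (measurable_Mv κ).comp (hl.prodMk (ht.prodMk (ha.prodMk hb)))

section quad
variable {E : Type v} [NormedAddCommGroup E] [InnerProductSpace ℝ E]

/-- the comparison field at `t = 1` is a quadratic form -/
theorem Mv_sub_le {κ l T : ℝ} (hl : 0 ≤ l) (hT : 0 ≤ T) (hth : 0 < l → |th κ l| ≤ T) {r : E}
    (hr : 0 < l → ‖r‖ ≤ 1) (g g' : E) :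
    |Mv κ l 1 (‖g‖ ^ 2) (l * ⟪g, r⟫_ℝ) - Mv κ l 1 (‖g'‖ ^ 2) (l * ⟪g', r⟫_ℝ)|
      ≤ (1 + 2 * T) * (‖g - g'‖ * ‖g + g'‖) := by
  have hN : ‖g‖ ^ 2 - ‖g'‖ ^ 2 = ⟪g - g', g + g'⟫_ℝ := by
    rw [inner_sub_left, inner_add_right, inner_add_right, real_inner_self_eq_norm_sq,
      real_inner_self_eq_norm_sq, real_inner_comm g g']
    ring
  have hN' : |⟪g - g', g + g'⟫_ℝ| ≤ ‖g - g'‖ * ‖g + g'‖ := abs_real_inner_le_norm _ _
  have hnn : 0 ≤ ‖g - g'‖ * ‖g + g'‖ := by positivity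
  rcases hl.eq_or_lt with h0 | h0
  · rw [← h0, Mv_zero, Mv_zero, div_one, div_one, hN]
    nlinarith [mul_nonneg hT hnn]
  · have e : ∀ s : E, (l * ⟪s, r⟫_ℝ) ^ 2 / l ^ 2 = ⟪s, r⟫_ℝ ^ 2 := by
      intro s; field_simp
    rw [Mv_pos h0 one_pos, Mv_pos h0 one_pos, e, e, mul_one, div_one, div_one]
    have hP : ⟪g, r⟫_ℝ ^ 2 - ⟪g', r⟫_ℝ ^ 2 = ⟪g - g', r⟫_ℝ * ⟪g + g', r⟫_ℝ := by
      rw [inner_sub_left, inner_add_left]; ring
    have hP' : |⟪g - g', r⟫_ℝ * ⟪g + g', r⟫_ℝ| ≤ ‖g - g'‖ * ‖g + g'‖ := by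
      rw [abs_mul]
      have h1 : |⟪g - g', r⟫_ℝ| ≤ ‖g - g'‖ := (abs_real_inner_le_norm _ _).trans
        (mul_le_of_le_one_right (norm_nonneg _) (hr h0))
      have h2 : |⟪g + g', r⟫_ℝ| ≤ ‖g + g'‖ := (abs_real_inner_le_norm _ _).trans
        (mul_le_of_le_one_right (norm_nonneg _) (hr h0))
      gcongr
    have e2 : ⟪g, r⟫_ℝ ^ 2 + th κ l * (‖g‖ ^ 2 - ⟪g, r⟫_ℝ ^ 2)
        - (⟪g', r⟫_ℝ ^ 2 + th κ l * (‖g'‖ ^ 2 - ⟪g', r⟫_ℝ ^ 2))
        = (1 - th κ l) * (⟪g, r⟫_ℝ ^ 2 - ⟪g', r⟫_ℝ ^ 2) + th κ l * (‖g‖ ^ 2 - ‖g'‖ ^ 2) := by ring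
    rw [e2, hP, hN]
    have h3 : |1 - th κ l| ≤ 1 + T := by
      calc |1 - th κ l| ≤ |1| + |th κ l| := abs_sub _ _
        _ ≤ 1 + T := by rw [abs_one]; linarith [hth h0]
    calc |(1 - th κ l) * (⟪g - g', r⟫_ℝ * ⟪g + g', r⟫_ℝ) + th κ l * ⟪g - g', g + g'⟫_ℝ|
        ≤ |1 - th κ l| * |⟪g - g', r⟫_ℝ * ⟪g + g', r⟫_ℝ| + |th κ l| * |⟪g - g', g + g'⟫_ℝ| := by
          rw [← abs_mul, ← abs_mul]; exact abs_add_le _ _
      _ ≤ (1 + T) * (‖g - g'‖ * ‖g + g'‖) + T * (‖g - g'‖ * ‖g + g'‖) := by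
          have := hth h0
          gcongr
      _ = (1 + 2 * T) * (‖g - g'‖ * ‖g + g'‖) := by ring

end quad

end Vale.Agent.P233.H992
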