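import Mathlib

/-! P233 stage 3, row SEL: measurable selection for closed relations with values in a proper space,
and a measurable choice of geodesics. -/

set_option linter.all false

open MeasureTheory Filter Topology Set

universe u v

namespace Vale.Agent.P233.H992.Sel

variable {X : Type u} [MetricSpace X] [SecondCountableTopology X] [MeasurableSpace X] [BorelSpace X]
variable {Y : Type v} [MetricSpace Y] [ProperSpace Y] [MeasurableSpace Y] [BorelSpace Y]

/-- projection of a closed set along a closed ball of a proper space -/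
theorem closed_proj {Z : Type u} [MetricSpace Z] {R : Set (Z × Y)} (hR : IsClosed R) (q : Y)
    (r : ℝ) : IsClosed {z : Z | ∃ y, (z, y) ∈ R ∧ dist y q ≤ r} := by
  apply IsSeqClosed.isClosed
  intro z a hz ha
  choose y hy using hz
  have hy2 : ∀ n, y n ∈ Metric.closedBall q r := fun n => Metric.mem_closedBall.2 (hy n).2
  obtain ⟨b, hb, φ, hφ, hlim⟩ := (isCompact_closedBall q r).tendsto_subseq hy2
  refine ⟨b, ?_, Metric.mem_closedBall.1 hb⟩
  have h1 : Tendsto (fun n => (z (φ n), y (φ n))) atTop (𝓝 (a, b)) :=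
    (ha.comp hφ.tendsto_atTop).prodMk_nhds hlim
  exact hR.mem_of_tendsto h1 (Eventually.of_forall fun n => (hy (φ n)).1)

/-- refinement step -/
theorem step {R : Set (X × Y)} (hR : IsClosed R) (q : ℕ → Y) (hq : DenseRange q)
    {f : X → Y} (hf : Measurable f) {r r' : ℝ} (hr' : 0 < r')
    (h : ∀ x, ∃ y, (x, y) ∈ R ∧ dist y (f x) ≤ r) :
    ∃ g : X → Y, Measurable g ∧ (∀ x, ∃ y, (x, y) ∈ R ∧ dist y (g x) ≤ r') ∧
      ∀ x, dist (g x) (f x) ≤ r + r' := by
  classical
  let A : ℕ → Set X := fun n => {x | ∃ y, ((x, y) ∈ R ∧ dist y (f x) ≤ r) ∧ dist y (q n) ≤ r'}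
  have hA : ∀ n, MeasurableSet (A n) := by
    intro n
    let C : Set ((X × Y) × Y) := {p | (p.1.1, p.2) ∈ R ∧ dist p.2 p.1.2 ≤ r}
    have hC : IsClosed C := by
      have e1 : IsClosed {p : (X × Y) × Y | (p.1.1, p.2) ∈ R} :=
        IsClosed.preimage (show Continuous fun p : (X × Y) × Y => (p.1.1, p.2) by fun_prop) hR
      have e2 : IsClosed {p : (X × Y) × Y | dist p.2 p.1.2 ≤ r} :=
        isClosed_le (by fun_prop) continuous_const
      exact e1.inter e2
    have h2 : IsClosed {z : X × Y | ∃ y, (z, y) ∈ C ∧ dist y (q n) ≤ r'} := by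
      apply IsSeqClosed.isClosed
      intro z a hz ha
      choose y hy using hz
      have hy2 : ∀ k, y k ∈ Metric.closedBall (q n) r' :=
        fun k => Metric.mem_closedBall.2 (hy k).2
      obtain ⟨b, hb, φ, hφ, hlim⟩ := (isCompact_closedBall (q n) r').tendsto_subseq hy2
      refine ⟨b, ?_, Metric.mem_closedBall.1 hb⟩
      have h1 : Tendsto (fun k => (z (φ k), y (φ k))) atTop (𝓝 (a, b)) :=
        (ha.comp hφ.tendsto_atTop).prodMk_nhds hlim
      exact hC.mem_of_tendsto h1 (Eventually.of_forall fun k => (hy (φ k)).1)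
    have h3 : A n = (fun x => (x, f x)) ⁻¹' {z : X × Y | ∃ y, (z, y) ∈ C ∧ dist y (q n) ≤ r'} := by
      ext x; simp [A, C]
    rw [h3]
    exact (measurable_id.prodMk hf) h2.measurableSet
  have hex : ∀ x, ∃ n, x ∈ A n := by
    intro x
    obtain ⟨y, hy1, hy2⟩ := h x
    obtain ⟨n, hn⟩ := Metric.denseRange_iff.1 hq y r' hr'
    exact ⟨n, y, ⟨hy1, hy2⟩, hn.le⟩
  refine ⟨fun x => q (Nat.find (hex x)), ?_, ?_, ?_⟩
  · have h1 : Measurable fun x => Nat.find (hex x) := measurable_find hex hA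
    exact (measurable_from_nat (f := q)).comp h1
  · intro x
    obtain ⟨y, hy1, hy2⟩ := Nat.find_spec (hex x)
    exact ⟨y, hy1.1, hy2⟩
  · intro x
    obtain ⟨y, hy1, hy2⟩ := Nat.find_spec (hex x)
    calc dist (q (Nat.find (hex x))) (f x) ≤ dist (q (Nat.find (hex x))) y + dist y (f x) :=
          dist_triangle _ _ _
      _ ≤ r' + r := by rw [dist_comm]; exact add_le_add hy2 hy1.2
      _ = r + r' := add_comm _ _

theorem start {R : Set (X × Y)} (hR : IsClosed R) (q : ℕ → Y) (hq : DenseRange q)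
    (h : ∀ x, ∃ y, (x, y) ∈ R) :
    ∃ g : X → Y, Measurable g ∧ (∀ x, ∃ y, (x, y) ∈ R ∧ dist y (g x) ≤ 1) := by
  classical
  let A : ℕ → Set X := fun n => {x | ∃ y, (x, y) ∈ R ∧ dist y (q n) ≤ 1}
  have hA : ∀ n, MeasurableSet (A n) := fun n => (closed_proj hR (q n) 1).measurableSet
  have hex : ∀ x, ∃ n, x ∈ A n := by
    intro x
    obtain ⟨y, hy1⟩ := h x
    obtain ⟨n, hn⟩ := Metric.denseRange_iff.1 hq y 1 one_pos
    exact ⟨n, y, hy1, hn.le⟩
  refine ⟨fun x => q (Nat.find (hex x)), ?_, ?_⟩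
  · have h1 : Measurable fun x => Nat.find (hex x) := measurable_find hex hA
    exact (measurable_from_nat (f := q)).comp h1
  · intro x
    obtain ⟨y, hy1, hy2⟩ := Nat.find_spec (hex x)
    exact ⟨y, hy1, hy2⟩

/-- SEL: a closed relation with nonempty fibres in a proper space has a measurable selection. -/
theorem exists_sel {R : Set (X × Y)} (hR : IsClosed R) (h : ∀ x, ∃ y, (x, y) ∈ R) :
    ∃ f : X → Y, Measurable f ∧ ∀ x, (x, f x) ∈ R := by
  classical
  rcases isEmpty_or_nonempty X with hX | ⟨⟨x0⟩⟩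
  · exact ⟨fun x => (hX.false x).elim, measurable_of_empty _, fun x => (hX.false x).elim⟩
  obtain ⟨y0, -⟩ := h x0
  haveI : Nonempty Y := ⟨y0⟩
  let q : ℕ → Y := TopologicalSpace.denseSeq Y
  have hq : DenseRange q := TopologicalSpace.denseRange_denseSeq Y
  let P : ℕ → (X → Y) → Prop := fun k f =>
    Measurable f ∧ ∀ x, ∃ y, (x, y) ∈ R ∧ dist y (f x) ≤ (1 / 2 : ℝ) ^ k
  have h0 : ∃ f, P 0 f := by
    obtain ⟨g, hg1, hg2⟩ := start hR q hq h
    exact ⟨g, hg1, by simpa using hg2⟩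
  have hs : ∀ k f, P k f → ∃ g, P (k + 1) g ∧ ∀ x, dist (g x) (f x) ≤ 2 * (1 / 2 : ℝ) ^ k := by
    intro k f hf
    obtain ⟨g, hg1, hg2, hg3⟩ := step hR q hq hf.1 (r := (1 / 2 : ℝ) ^ k)
      (r' := (1 / 2 : ℝ) ^ (k + 1)) (by positivity) hf.2
    refine ⟨g, ⟨hg1, hg2⟩, fun x => (hg3 x).trans ?_⟩
    have : (0 : ℝ) < (1 / 2) ^ k := by positivity
    rw [pow_succ]; linarith
  choose! nxt hn1 hn2 using hs
  obtain ⟨f0, hf0⟩ := h0
  let F : ℕ → X → Y := fun k => Nat.rec f0 (fun k f => nxt k f) k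
  have hF : ∀ k, P k (F k) := by
    intro k
    induction k with
    | zero => exact hf0
    | succ k ih => exact hn1 k _ ih
  have hd : ∀ k x, dist (F k x) (F (k + 1) x) ≤ 2 * (1 / 2 : ℝ) ^ k := by
    intro k x
    rw [dist_comm]
    exact hn2 k _ (hF k) x
  have hc : ∀ x, CauchySeq fun k => F k x := fun x =>
    cauchySeq_of_le_geometric (1 / 2) 2 (by norm_num) (fun k => hd k x)
  choose f hf using fun x => cauchySeq_tendsto_of_complete (hc x)
  refine ⟨f, measurable_of_tendsto_metrizable (fun k => (hF k).1) (tendsto_pi_nhds.2 hf), ?_⟩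
  intro x
  choose y hy1 hy2 using fun k => (hF k).2 x
  have h1 : Tendsto (fun k => dist (y k) (F k x)) atTop (𝓝 0) := by
    refine squeeze_zero (fun k => dist_nonneg) hy2 ?_
    exact tendsto_pow_atTop_nhds_zero_of_lt_one (by norm_num) (by norm_num)
  have h2 : Tendsto y atTop (𝓝 (f x)) := by
    rw [tendsto_iff_dist_tendsto_zero]
    have h3 : Tendsto (fun k => dist (y k) (F k x) + dist (F k x) (f x)) atTop (𝓝 0) := by
      simpa using h1.add (tendsto_iff_dist_tendsto_zero.1 (hf x))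
    exact squeeze_zero (fun k => dist_nonneg) (fun k => dist_triangle _ _ _) h3
  exact hR.mem_of_tendsto (tendsto_const_nhds.prodMk_nhds h2) (Eventually.of_forall hy1)

end Vale.Agent.P233.H992.Sel
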